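import Vale.Agent.P210K.Stm

open Set Filter Topology MeasureTheory Metric
open scoped ENNReal NNReal ContDiff RealInnerProductSpace

namespace Vale.Agent.P210

namespace KBesAux

variable {N k : ℕ}

theorem comm (u v : W N) : lz u v = lz v u := by
  unfold lz
  rw [real_inner_comm, mul_comm]

theorem sum_left (a : Fin k → ℝ) (v : Fin k → W N) (w : W N) :
    lz (∑ i, a i • v i) w = ∑ i, a i * lz (v i) w := by
  unfold lz
  simp only [Prod.snd_sum, Prod.fst_sum, Prod.smul_snd, Prod.smul_fst, sum_inner,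
    real_inner_smul_left, smul_eq_mul, Finset.sum_mul, ← Finset.sum_sub_distrib]
  exact Finset.sum_congr rfl fun i _ => by ring

theorem add_left (u p w : W N) (c : ℝ) : lz (u + c • p) w = lz u w + c * lz p w := by
  unfold lz
  simp only [Prod.snd_add, Prod.fst_add, Prod.smul_snd, Prod.smul_fst, inner_add_left,
    real_inner_smul_left, smul_eq_mul]
  ring

theorem key (v : Fin k → W N) (c : Fin k → ℝ) :
    ∃ a : Fin k → ℝ, ∑ i, a i * c i = ∑ i, ∑ j, (gram v).adjugate i j * (c j * c i) ∧
      lz (∑ i, a i • v i) (∑ i, a i • v i) = (gram v).det * ∑ i, a i * c i := by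
  refine ⟨(gram v).adjugate.mulVec c, Finset.sum_congr rfl fun i _ => ?_, ?_⟩
  · simp only [Matrix.mulVec, dotProduct, Finset.sum_mul, mul_assoc]
  · have e : (gram v).mulVec ((gram v).adjugate.mulVec c) = (gram v).det • c := by
      rw [Matrix.mulVec_mulVec, Matrix.mul_adjugate, Matrix.smul_mulVec, Matrix.one_mulVec]
    generalize (gram v).adjugate.mulVec c = a at e
    rw [sum_left, Finset.mul_sum]
    refine Finset.sum_congr rfl fun i _ => ?_
    have e2 : ∑ j, a j * lz (v j) (v i) = (gram v).det * c i := by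
      refine Eq.trans (Finset.sum_congr rfl fun j _ => ?_) (congrFun e i)
      rw [comm, mul_comm]
      rfl
    rw [comm, sum_left, e2]
    ring

end KBesAux

open KBesAux in
theorem pkBes (hCs : CsS) (hPk : PkS) : BesS := by
  intro N k y v hv hd
  obtain ⟨c1, c2, -, c4, -⟩ := hCs N y
  have hu : ∀ a : Fin k → ℝ, lz (∑ i, a i • v i) (lift y) = 0 := fun a => by
    rw [sum_left]
    exact Finset.sum_eq_zero fun i _ => by rw [hv, mul_zero]
  constructor
  · intro b
    obtain ⟨a, h1, h2⟩ := key v b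
    have h3 := c2 _ (hu a)
    rw [h2, h1] at h3
    exact nonneg_of_mul_nonneg_right h3 hd
  · intro ξ hξ
    obtain ⟨a, h1, h2⟩ := key v fun i => lz ξ (v i)
    rw [← h1]
    have h3 := c2 _ (hu a)
    obtain ⟨φ, hφ⟩ : ∃ φ, φ = lz (lift y) ξ := ⟨_, rfl⟩
    have e1 : lz (ξ + φ • lift y) (lift y) = 0 := by
      rw [add_left, c1, comm, ← hφ]
      ring
    have e2 : lz (ξ + φ • lift y) (ξ + φ • lift y) = φ ^ 2 := by
      rw [add_left, comm (lift y), e1, comm, add_left, hξ.1, ← hφ]
      ring
    have e3 : lz (∑ i, a i • v i) (ξ + φ • lift y) = ∑ i, a i * lz ξ (v i) := by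
      rw [comm, add_left, comm (lift y), hu, mul_zero, add_zero, comm, sum_left]
      exact Finset.sum_congr rfl fun i _ => by rw [comm]
    have h4 := c4 _ _ (hu a) e1
    rw [e3, e2, h2] at h4
    rw [h2] at h3
    rw [← hφ, neg_sq]
    generalize ∑ i, a i * lz ξ (v i) = X at h3 h4
    have h5 : 0 ≤ X := nonneg_of_mul_nonneg_right h3 hd
    rcases h5.eq_or_lt with h | h
    · rw [← h]
      positivity
    · refine le_of_mul_le_mul_left ?_ h
      nlinarith

end Vale.Agent.P210
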