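import Vale.Agent.P210K.Stm

open Set Filter Topology MeasureTheory Metric
open scoped ENNReal NNReal ContDiff RealInnerProductSpace

namespace Vale.Agent.P210

namespace KBoxAux

theorem card_le (s : ℝ) (hs : 0 ≤ s) :
    ((Finset.Icc (-⌈s⌉) ⌈s⌉).card : ℝ) ≤ 5 * max 1 s := by
  have h0 : 0 ≤ ⌈s⌉ := Int.ceil_nonneg hs
  have h1 : ((Finset.Icc (-⌈s⌉) ⌈s⌉).card : ℤ) = 2 * ⌈s⌉ + 1 := by
    rw [Int.card_Icc, Int.toNat_of_nonneg (by omega)]
    ring
  have h2 : ((Finset.Icc (-⌈s⌉) ⌈s⌉).card : ℝ) = 2 * (⌈s⌉ : ℝ) + 1 := by exact_mod_cast h1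
  have h3 := Int.ceil_lt_add_one s
  have h4 := le_max_left 1 s
  have h5 := le_max_right 1 s
  rw [h2]
  linarith

theorem mem_box (c s : ℝ) (hc : |c| ≤ 1) (hs : 0 ≤ s) :
    ⌊c * s⌋ ∈ Finset.Icc (-⌈s⌉) ⌈s⌉ := by
  have h1 := abs_le.1 hc
  have h2 := Int.le_ceil s
  have h3 : -s ≤ c * s := by nlinarith
  have h4 : c * s ≤ s := by nlinarith
  rw [Finset.mem_Icc]
  constructor
  · rw [Int.le_floor]
    push_cast
    linarith
  · have h5 := Int.floor_le (c * s)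
    have h6 : (⌊c * s⌋ : ℝ) ≤ (⌈s⌉ : ℝ) := by linarith
    exact_mod_cast h6

theorem err_le (c σ lam : ℝ) (hl : 0 < lam) (hσ : 0 ≤ σ) :
    |c - (⌊c * (σ / lam)⌋ : ℝ) * lam / σ| * σ ≤ lam := by
  rcases hσ.eq_or_lt with h | h
  · rw [← h, mul_zero]
    exact hl.le
  · have h1 := Int.floor_le (c * (σ / lam))
    have h2 := Int.lt_floor_add_one (c * (σ / lam))
    have e : (c - (⌊c * (σ / lam)⌋ : ℝ) * lam / σ) * σ =
        (c * (σ / lam) - (⌊c * (σ / lam)⌋ : ℝ)) * lam := by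
      field_simp
    have h3 : |c * (σ / lam) - (⌊c * (σ / lam)⌋ : ℝ)| ≤ 1 := abs_le.2 ⟨by linarith, by linarith⟩
    calc |c - (⌊c * (σ / lam)⌋ : ℝ) * lam / σ| * σ
        = |(c - (⌊c * (σ / lam)⌋ : ℝ) * lam / σ) * σ| := by rw [abs_mul, abs_of_pos h]
      _ = |c * (σ / lam) - (⌊c * (σ / lam)⌋ : ℝ)| * lam := by rw [e, abs_mul, abs_of_pos hl]
      _ ≤ 1 * lam := mul_le_mul_of_nonneg_right h3 hl.le
      _ = lam := one_mul _

end KBoxAux

theorem pkBox : BoxS := by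
  classical
  intro N L b σ lam hl hσ hL
  have hn : ∀ i, ‖L (b i)‖ = σ i := by
    intro i
    have h1 := hL i i
    rw [if_pos rfl, real_inner_self_eq_norm_sq] at h1
    exact (pow_left_inj₀ (norm_nonneg _) (hσ i) two_ne_zero).1 h1
  have hs : ∀ i, 0 ≤ σ i / lam := fun i => div_nonneg (hσ i) hl.le
  refine ⟨(Fintype.piFinset fun i => Finset.Icc (-⌈σ i / lam⌉) ⌈σ i / lam⌉).image
    fun z : Fin N → ℤ => ∑ i, ((z i : ℝ) * lam / σ i) • L (b i), ?_, ?_⟩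
  · refine le_trans (Nat.cast_le.2 Finset.card_image_le) ?_
    rw [Fintype.card_piFinset, Nat.cast_prod]
    exact Finset.prod_le_prod (fun _ _ => Nat.cast_nonneg _)
      fun i _ => KBoxAux.card_le _ (hs i)
  · intro u hu
    have hc : ∀ i, |⟪b i, u⟫| ≤ 1 := by
      intro i
      have h1 := abs_real_inner_le_norm (b i) u
      rw [b.orthonormal.1 i, one_mul] at h1
      exact h1.trans hu
    refine ⟨∑ i, ((⌊⟪b i, u⟫ * (σ i / lam)⌋ : ℝ) * lam / σ i) • L (b i), ?_, ?_⟩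
    · refine Finset.mem_image.2 ⟨fun i => ⌊⟪b i, u⟫ * (σ i / lam)⌋, ?_, rfl⟩
      exact Fintype.mem_piFinset.2 fun i => KBoxAux.mem_box _ _ (hc i) (hs i)
    · have e : L u = ∑ i, ⟪b i, u⟫ • L (b i) := by
        conv_lhs => rw [← b.sum_repr' u]
        rw [map_sum]
        simp only [map_smul]
      rw [e, ← Finset.sum_sub_distrib]
      refine (norm_sum_le _ _).trans ?_
      have h2 : ∀ i ∈ (Finset.univ : Finset (Fin N)), ‖⟪b i, u⟫ • L (b i) -
          ((⌊⟪b i, u⟫ * (σ i / lam)⌋ : ℝ) * lam / σ i) • L (b i)‖ ≤ lam := by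
        intro i _
        rw [← sub_smul, norm_smul, hn, Real.norm_eq_abs]
        exact KBoxAux.err_le _ _ _ hl (hσ i)
      have h3 := Finset.sum_le_card_nsmul _ _ _ h2
      rw [Finset.card_univ, Fintype.card_fin, nsmul_eq_mul] at h3
      exact h3

end Vale.Agent.P210
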