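import Vale.Agent.P210K.Stm

open Set Filter Topology MeasureTheory Metric
open scoped ENNReal NNReal ContDiff RealInnerProductSpace

namespace Vale.Agent.P210

namespace KChainAux

theorem ptw {a b : ℝ} (n : ℕ) (ha : 0 < a) (hb : 0 < b) (h : b ≤ Real.exp 2 * a) :
    Real.exp (2 * -(n : ℝ)) * a ^ (-(n : ℝ)) ≤ b ^ (-(n : ℝ)) := by
  rw [Real.exp_mul, ← Real.mul_rpow (Real.exp_pos 2).le ha.le]
  exact Real.rpow_le_rpow_of_nonpos hb h (neg_nonpos.2 (Nat.cast_nonneg n))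

theorem cmp (hPk : PkS) (hLl : LlS) {n : ℕ} {p p' : E (n + 1)} (h : hd p p' ≤ 2)
    (U : Set (E n)) : ENNReal.ofReal (Real.exp (2 * -(n : ℝ))) * vis p U ≤ vis p' U := by
  rw [vis, vis, ← lintegral_const_mul' _ _ ENNReal.ofReal_ne_top]
  refine lintegral_mono fun y => ?_
  obtain ⟨_, k⟩ := hPk (n + 1) (LL y) ((hLl n).2.1 y)
  rw [← ENNReal.ofReal_mul (Real.exp_pos _).le]
  refine ENNReal.ofReal_le_ofReal (ptw n (k p).1 (k p').1 (((k p).2.2.2 p').trans ?_))
  exact mul_le_mul_of_nonneg_right (Real.exp_le_exp.2 h) (k p).1.le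

end KChainAux

theorem pkChain (hVis : VisS) (hPk : PkS) (hLl : LlS) (hProper : ProperS) : ChainS := by
  intro n hn
  obtain ⟨c, hc⟩ : ∃ c, c = Real.exp (2 * -(n : ℝ)) := ⟨_, rfl⟩
  have c0 : 0 < c := hc ▸ Real.exp_pos _
  have c1 : c ≤ 1 := by
    rw [hc]
    exact Real.exp_le_one_iff.2 (by have := Nat.cast_nonneg (α := ℝ) n; linarith)
  refine ⟨c / 4, by positivity, fun Ω ρ d hM x hx x' hx' p p' D D' h1 h2 h3 => ?_⟩
  obtain ⟨v0, v1, v2, -⟩ := hVis n hn
  by_cases hdis : Disjoint (KB Ω d x D) (KB Ω d x' D')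
  · exfalso
    have k1 := KChainAux.cmp hPk hLl h3 (KB Ω d x D)
    rw [← hc] at k1
    have k2 : vis p' (KB Ω d x D) + vis p' (KB Ω d x' D') ≤ VV n := by
      rw [← v2 p', vis, vis, vis,
        ← lintegral_union (hProper n Ω ρ d hM x' hx' D').measurableSet hdis]
      exact lintegral_mono_set (subset_univ _)
    have k3 : ENNReal.ofReal (c * (1 - c / 4) + (1 - c / 4)) * VV n ≤ 1 * VV n := by
      rw [ENNReal.ofReal_add (by nlinarith) (by linarith), add_mul, ENNReal.ofReal_mul c0.le,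
        mul_assoc, one_mul]
      exact (add_le_add ((mul_le_mul_right h1 _).trans k1) h2).trans k2
    have k4 := ENNReal.ofReal_le_one.1 ((ENNReal.mul_le_mul_iff_left v0 v1).1 k3)
    nlinarith
  · obtain ⟨y, ⟨hy, y1⟩, -, y2⟩ := Set.not_disjoint_iff.1 hdis
    have := hM.tri x hx y hy x' hx'
    rw [hM.symm y x'] at this
    linarith

end Vale.Agent.P210
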