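import Vale.Agent.P210K.Stm

open Set Filter Topology MeasureTheory Metric
open scoped ENNReal NNReal ContDiff RealInnerProductSpace

namespace Vale.Agent.P210

namespace KCntAux

theorem ccov_mono {Y : Type} {D : Y → Y → ℝ} {k : ℕ} {A B : Set Y} {δ : ℝ} (h : A ⊆ B)
    (hB : CCov D k B δ) : CCov D k A δ := by
  obtain ⟨I, hI, x, t, h1, h2, h3⟩ := hB
  exact ⟨I, hI, x, t, h1, h2, fun z hz => h3 z (h hz)⟩

theorem semi {N : ℕ} {μ : Measure (W N)} {s : ℝ} {Φ : ℝ → E N → E N} (h : Flw μ s Φ)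
    (y : E N) (a t : ℝ) : Φ (t + a) y = Φ t (Φ a y) := by
  have h1 : Sol μ s (fun t => Φ (t + a) y) := fun t =>
    (h.sol y (t + a)).comp_add_const t a
  have h2 := h.uniq _ h1 t
  simpa only [zero_add] using h2

theorem iter {N : ℕ} {μ : Measure (W N)} {s : ℝ} {Φ : ℝ → E N → E N} (h : Flw μ s Φ)
    (y : E N) (H a : ℝ) (j : ℕ) : Φ (j * H + a) y = (Φ H)^[j] (Φ a y) := by
  induction j with
  | zero => simp
  | succ j ih =>
    rw [Function.iterate_succ_apply', ← ih, ← semi h]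
    congr 1
    push_cast
    ring

theorem logb {A F F' q g : ℝ} (hq : 0 < q) (hA : 0 < A) (hF : 0 < F) (hF' : 0 < F')
    (h1 : F ≤ A) (h2 : A ^ (1 / q) * Real.exp (-g) ≤ F' ^ (1 / q)) :
    Real.log F - Real.log F' ≤ q * g := by
  have h3 := Real.log_le_log (by positivity) h2
  rw [Real.log_mul (by positivity) (by positivity), Real.log_exp, Real.log_rpow hA,
    Real.log_rpow hF'] at h3
  have h4 := mul_le_mul_of_nonneg_left h3 hq.le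
  have h5 : q * (1 / q * Real.log A + -g) = Real.log A - q * g := by
    field_simp
    ring
  have h6 : q * (1 / q * Real.log F') = Real.log F' := by field_simp
  have h7 := Real.log_le_log hF h1
  linarith

end KCntAux

open KCntAux in
theorem pkCnt (hDo1 : Do1S) (hDo2 : Do2S) (hCovb : CovbS) (hCnt1 : Cnt1S) (hCnt2 : Cnt2S) (hDist : DistS) (hMom : MomS) (hHd : HdS) : CntS := by
  intro N k s q A δ hs hk hkN hq hA hδ
  obtain ⟨H, hH, ε₀, hε, h1⟩ := hDo1 N k s hs hk hkN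
  obtain ⟨C, hC, h2⟩ := hCovb N k ε₀ hε
  have l2 : 0 < Real.log 2 := Real.log_pos one_lt_two
  obtain ⟨ζ, hζ⟩ : ∃ ζ : ℝ, ζ = Real.log 2 / (N + 1) := ⟨_, rfl⟩
  have ζ0 : 0 < ζ := by rw [hζ]; positivity
  have ζ1 : N * ζ < Real.log 2 := by
    have : ((N : ℝ) + 1) * ζ = Real.log 2 := by rw [hζ]; field_simp
    linarith
  obtain ⟨ρ, hρ⟩ : ∃ ρ : ℝ, ρ = Real.exp (N * ζ) / 2 := ⟨_, rfl⟩
  have ρ0 : 0 < ρ := by rw [hρ]; positivity
  have ρ1 : ρ < 1 := by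
    have := Real.exp_lt_exp.2 ζ1
    rw [Real.exp_log two_pos] at this
    rw [hρ]; linarith
  have t1 : Tendsto (fun j : ℕ => C * Real.exp (N * 2) * ρ ^ j * (1 - ρ)⁻¹) atTop
      (𝓝 (C * Real.exp (N * 2) * 0 * (1 - ρ)⁻¹)) :=
    ((tendsto_pow_atTop_nhds_zero_of_lt_one ρ0.le ρ1).const_mul _).mul_const _
  rw [mul_zero, zero_mul] at t1
  obtain ⟨j₀, hj₀⟩ := (t1.eventually (ge_mem_nhds hδ)).exists
  obtain ⟨T, hT, h3⟩ := hCnt1 (A ^ (1 / q)) H (ζ / H * s * ζ / q) j₀ (by positivity) hH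
    (by positivity)
  refine ⟨T, hT, fun μ Φ hD hF p => ?_⟩
  have e : ∀ i : ℕ, C * Real.exp (N * (2 + ζ * ((j₀ + i : ℕ) : ℝ))) / 2 ^ (j₀ + i) =
      C * Real.exp (N * 2) * ρ ^ j₀ * ρ ^ i := fun i => by
    rw [mul_assoc (C * _), ← pow_add, hρ, div_pow, ← Real.exp_nat_mul, mul_add, Real.exp_add,
      show (N : ℝ) * (ζ * ((j₀ + i : ℕ) : ℝ)) = ((j₀ + i : ℕ) : ℝ) * (N * ζ) by ring]
    ring
  have hs1 : HasSum (fun i : ℕ => C * Real.exp (N * 2) * ρ ^ j₀ * ρ ^ i)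
      (C * Real.exp (N * 2) * ρ ^ j₀ * (1 - ρ)⁻¹) :=
    (hasSum_geometric_of_lt_one ρ0.le ρ1).mul_left _
  have key := hCnt2 N k ε₀ δ
    (fun i => (Φ H)^[j₀ + i] '' hball p (2 + ζ * ((j₀ + i : ℕ) : ℝ)))
    (fun i => C * Real.exp (N * 2) * ρ ^ j₀ * ρ ^ i)
    (fun i => by
      rw [← e]
      exact hDo2 N k ε₀ (Φ H) (h1 μ A Φ hD hF) _ _ _ (h2 p _ (by positivity)))
    hs1.summable (by rw [hs1.tsum_eq]; exact hj₀)
  refine ccov_mono ?_ key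
  rintro z ⟨⟨y, τ, τ0, hτ, rfl⟩, hz⟩
  obtain ⟨d1, d2⟩ := hDist N μ s A _ hD (hF.sol y)
  have F0 : ∀ w, 0 < FF μ s (lift w) := fun w => (hMom N μ s A hD w).2.2.2.1
  obtain ⟨j, j1, j2, j3⟩ := h3 (fun t => aa μ s q (Φ t y)) τ
    (fun a b hab => Real.rpow_le_rpow (F0 _).le (d1 hab) (by positivity))
    (fun t => ⟨Real.rpow_nonneg (F0 _).le _,
      Real.rpow_le_rpow (F0 _).le (hD.bdd _) (by positivity)⟩) τ0 hτ
  obtain ⟨i, rfl⟩ := Nat.exists_eq_add_of_le j1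
  refine mem_iUnion.2 ⟨i, Φ (τ - ((j₀ + i : ℕ) : ℝ) * H) y, ?_, ?_⟩
  · have b1 := logb hq hA (F0 (Φ τ y)) (F0 _) (hD.bdd _) j3
    have hj : (0 : ℝ) ≤ ((j₀ + i : ℕ) : ℝ) * H := by positivity
    have b2 := (d2 (τ - ((j₀ + i : ℕ) : ℝ) * H) τ (by linarith)).2 (ζ / H) (by positivity)
    have b3 := div_le_div_of_nonneg_right b1 (show 0 ≤ 2 * (ζ / H) * s by positivity)
    have b4 : q * (ζ / H * s * ζ / q * ((j₀ + i : ℕ) : ℝ)) / (2 * (ζ / H) * s) =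
        ζ * ((j₀ + i : ℕ) : ℝ) / 2 := by
      field_simp
    have b5 : ζ / H * (τ - (τ - ((j₀ + i : ℕ) : ℝ) * H)) / 2 = ζ * ((j₀ + i : ℕ) : ℝ) / 2 := by
      rw [sub_sub_cancel]
      field_simp
    have b6 := (hHd N).2.2.2.2.1 (Φ (τ - ((j₀ + i : ℕ) : ℝ) * H) y) (Φ τ y) p
    have b7 : hd (Φ τ y) p < 2 := hz
    show hd _ p < _
    linarith
  · rw [← iter hF, add_sub_cancel]

end Vale.Agent.P210
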