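import Vale.Agent.P210K.Stm

open Set Filter Topology MeasureTheory Metric
open scoped ENNReal NNReal ContDiff RealInnerProductSpace

namespace Vale.Agent.P210

namespace KCnt1Aux

theorem pieces {a : ℝ → ℝ} (ha : Monotone a) {H : ℝ} (hH : 0 < H) (τ : ℝ) (m : ℕ) :
    ∫ t in (τ - m * H)..τ, a t ≤ H * ∑ j ∈ Finset.range m, a (τ - j * H) := by
  induction m with
  | zero => simp
  | succ m ih =>
    rw [← intervalIntegral.integral_add_adjacent_intervals (b := τ - m * H)
      ha.intervalIntegrable ha.intervalIntegrable, Finset.sum_range_succ, mul_add, add_comm]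
    refine add_le_add ih ?_
    have h1 : τ - ((m + 1 : ℕ) : ℝ) * H ≤ τ - m * H := by push_cast; linarith
    refine (intervalIntegral.integral_mono_on h1 ha.intervalIntegrable
      (intervalIntegrable_const (c := a (τ - m * H))) fun t ht => ha ht.2).trans_eq ?_
    rw [intervalIntegral.integral_const, smul_eq_mul]
    push_cast
    ring

end KCnt1Aux

open KCnt1Aux in
theorem pkCnt1 : Cnt1S := by
  intro A H γ j₀ hA hH hγ
  have r0 : 0 < Real.exp (-γ) := Real.exp_pos _
  have r1 : Real.exp (-γ) < 1 := Real.exp_lt_one_iff.2 (by linarith)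
  have r2 : 0 < (1 - Real.exp (-γ))⁻¹ := inv_pos.2 (by linarith)
  refine ⟨H * (A * j₀ + A * (1 - Real.exp (-γ))⁻¹) + 1, by positivity, fun a τ ha hb hτ hT => ?_⟩
  by_contra hcon
  push Not at hcon
  set J : ℕ := ⌊τ / H⌋₊ with hJ
  have j1 : (J : ℝ) * H ≤ τ := (le_div_iff₀ hH).1 (Nat.floor_le (by positivity))
  have j2 : τ < ((J + 1 : ℕ) : ℝ) * H := by
    push_cast
    exact (div_lt_iff₀ hH).1 (Nat.lt_floor_add_one _)
  have h1 := pieces ha hH τ (J + 1)
  rw [← intervalIntegral.integral_add_adjacent_intervals (b := 0)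
    ha.intervalIntegrable ha.intervalIntegrable, hT] at h1
  have h2 : 0 ≤ ∫ t in (τ - ((J + 1 : ℕ) : ℝ) * H)..0, a t :=
    intervalIntegral.integral_nonneg (by linarith) fun t _ => (hb t).1
  have h3 : ∑ j ∈ Finset.range (J + 1), a (τ - j * H) ≤ ∑ j ∈ Finset.range (J + 1),
      ((if j < j₀ then A else 0) + A * Real.exp (-γ) ^ j) := by
    refine Finset.sum_le_sum fun j hj => ?_
    have hp : 0 ≤ A * Real.exp (-γ) ^ j := by positivity
    split_ifs with h
    · linarith [(hb (τ - j * H)).2]
    · have a1 : (j : ℝ) ≤ J := by exact_mod_cast Nat.lt_succ_iff.1 (Finset.mem_range.1 hj)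
      have a2 := hcon j (not_lt.1 h) ((mul_le_mul_of_nonneg_right a1 hH.le).trans j1)
      rw [zero_add, ← Real.exp_nat_mul]
      refine a2.le.trans_eq ?_
      congr 2
      ring
  have h4 : ∑ j ∈ Finset.range (J + 1), (if j < j₀ then A else 0) ≤ A * j₀ := by
    rw [← Finset.sum_filter, Finset.sum_const, nsmul_eq_mul, mul_comm]
    refine mul_le_mul_of_nonneg_left ?_ hA.le
    have : ((Finset.range (J + 1)).filter fun j => j < j₀).card ≤ (Finset.range j₀).card :=
      Finset.card_le_card fun j hj => Finset.mem_range.2 (Finset.mem_filter.1 hj).2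
    rw [Finset.card_range] at this
    exact_mod_cast this
  have h5 : ∑ j ∈ Finset.range (J + 1), Real.exp (-γ) ^ j ≤ (1 - Real.exp (-γ))⁻¹ :=
    ((summable_geometric_of_lt_one r0.le r1).sum_le_tsum _ fun _ _ => by positivity).trans_eq
      (tsum_geometric_of_lt_one r0.le r1)
  rw [Finset.sum_add_distrib, ← Finset.mul_sum] at h3
  have h6 := mul_le_mul_of_nonneg_left
    (h3.trans (add_le_add h4 (mul_le_mul_of_nonneg_left h5 hA.le))) hH.le
  linarith

end Vale.Agent.P210
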