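import Vale.Agent.P210K.Stm

open Set Filter Topology MeasureTheory Metric
open scoped ENNReal NNReal ContDiff RealInnerProductSpace

namespace Vale.Agent.P210

namespace KCovbAux

theorem net (hBox : BoxS) (N : ℕ) {ε : ℝ} (hε : 0 < ε) {R : ℝ} (hR : 0 ≤ R) :
    ∃ T : Finset (E N), (T.card : ℝ) ≤ (5 * (1 + (N + 1) / ε)) ^ N * Real.exp (N * R) ∧
      ∀ w : E N, ‖w‖ ≤ Real.exp R → ∃ c ∈ T, ‖w - c‖ < ε := by
  have he : 0 < Real.exp R := Real.exp_pos R
  have h1 : 1 ≤ Real.exp R := Real.one_le_exp hR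
  have hN : (0 : ℝ) < N + 1 := by positivity
  obtain ⟨T, hT, hc⟩ := hBox N (Real.exp R • ContinuousLinearMap.id ℝ (E N))
    (EuclideanSpace.basisFun (Fin N) ℝ) (fun _ => Real.exp R) (ε / (N + 1)) (by positivity)
    (fun _ => he.le) (fun i j => by
      have ho := orthonormal_iff_ite.1 (EuclideanSpace.basisFun (Fin N) ℝ).orthonormal i j
      simp only [smul_apply, ContinuousLinearMap.id_apply, real_inner_smul_left,
        real_inner_smul_right, ho]
      split_ifs <;> ring)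
  refine ⟨T, hT.trans ?_, fun w hw => ?_⟩
  · rw [Finset.prod_const, Finset.card_univ, Fintype.card_fin, Real.exp_nat_mul, ← mul_pow]
    refine pow_le_pow_left₀ (by positivity) ?_ _
    have h2 : 0 ≤ (N + 1) / ε := by positivity
    have h3 : Real.exp R / (ε / (N + 1)) = (N + 1) / ε * Real.exp R := by field_simp
    rw [mul_assoc, h3]
    refine mul_le_mul_of_nonneg_left (max_le ?_ ?_) (by norm_num)
    · nlinarith [mul_nonneg h2 he.le]
    · nlinarith
  · obtain ⟨c, hcT, hcc⟩ := hc ((Real.exp R)⁻¹ • w) (by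
      rw [norm_smul, norm_inv, Real.norm_of_nonneg he.le, inv_mul_le_iff₀ he, mul_one]
      exact hw)
    refine ⟨c, hcT, ?_⟩
    rw [smul_apply, ContinuousLinearMap.id_apply, smul_smul,
      mul_inv_cancel₀ he.ne', one_smul] at hcc
    refine hcc.trans_lt ?_
    rw [← mul_div_assoc, div_lt_iff₀ hN]
    nlinarith

theorem lift_inj {N : ℕ} {y z : E N} (h : lift y = lift z) : y = z := congrArg Prod.snd h

end KCovbAux

theorem pkCovb (hBox : BoxS) (hRef : RefS) (hLor : LorS) (hHd2 : Hd2S) : CovbS := by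
  intro N k ε hε
  refine ⟨(5 * (1 + (N + 1) / ε)) ^ N * ε ^ k, by positivity, fun y R hR => ?_⟩
  obtain ⟨T, hT, hc⟩ := KCovbAux.net hBox N hε hR
  obtain ⟨Rf, hL, hinv, hy, -⟩ := hRef N y
  obtain ⟨l1, l2, -⟩ := hLor N Rf hL
  obtain ⟨-, d2, d3, -⟩ := hHd2 N
  have hy0 : act Rf y = 0 := KCovbAux.lift_inj ((l1 y).symm.trans hy)
  have hact : ∀ z, act Rf (act Rf z) = z := fun z =>
    KCovbAux.lift_inj (by rw [← l1, ← l1, hinv])
  refine ⟨T.toList.map (fun c => (act Rf c, ε)), fun b hb => ?_, ?_, fun z hz => ?_⟩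
  · obtain ⟨c, -, rfl⟩ := List.mem_map.1 hb
    exact ⟨hε, le_rfl⟩
  · rw [List.map_map]
    have e : ((fun b : E N × ℝ => b.2 ^ k) ∘ fun c => (act Rf c, ε)) = fun _ => ε ^ k := rfl
    rw [e, Finset.sum_map_toList, Finset.sum_const, nsmul_eq_mul, mul_right_comm]
    exact mul_le_mul_of_nonneg_right hT (by positivity)
  · have hz' : hd z y < R := hz
    have h1 : ‖act Rf z‖ ≤ Real.exp R := by
      refine (d3 _).trans (Real.exp_le_exp.2 ?_)
      rw [← hy0, l2]
      exact hz'.le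
    obtain ⟨c, hcT, hcc⟩ := hc _ h1
    refine ⟨(act Rf c, ε), List.mem_map.2 ⟨c, Finset.mem_toList.2 hcT, rfl⟩, ?_⟩
    show hd z (act Rf c) < ε
    rw [← l2, hact]
    exact (d2 _ _).trans_lt hcc

end Vale.Agent.P210
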