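import Vale.Agent.P210K.Stm

open Set Filter Topology MeasureTheory Metric
open scoped ENNReal NNReal ContDiff RealInnerProductSpace

namespace Vale.Agent.P210

namespace KCsAux

variable {N : ℕ}

theorem lz_self (v : W N) : lz v v = ‖v.2‖ ^ 2 - v.1 ^ 2 := by
  rw [lz, real_inner_self_eq_norm_sq, sq v.1]

theorem key (y : E N) (v : W N) (h : lz v (lift y) = 0) :
    ‖v.2‖ ^ 2 ≤ lz v v * (1 + ‖y‖ ^ 2) ∧ v.1 ^ 2 * (1 + ‖y‖ ^ 2) ≤ ‖v.2‖ ^ 2 * ‖y‖ ^ 2 := by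
  have h1 : ⟪v.2, y⟫ = v.1 * √(1 + ‖y‖ ^ 2) := sub_eq_zero.1 h
  have h2 : √(1 + ‖y‖ ^ 2) ^ 2 = 1 + ‖y‖ ^ 2 := Real.sq_sqrt (by positivity)
  have h3 : ⟪v.2, y⟫ ^ 2 ≤ (‖v.2‖ * ‖y‖) ^ 2 :=
    sq_le_sq' (neg_le_of_abs_le (abs_real_inner_le_norm _ _)) (real_inner_le_norm _ _)
  rw [h1, mul_pow, h2, mul_pow] at h3
  rw [lz_self]
  exact ⟨by linarith, h3⟩

theorem nn (y : E N) (v : W N) (h : lz v (lift y) = 0) : 0 ≤ lz v v :=
  nonneg_of_mul_nonneg_left ((sq_nonneg _).trans (key y v h).1) (by positivity)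

theorem lz_comb (v w u : W N) (t : ℝ) : lz (t • v + w) u = t * lz v u + lz w u := by
  simp only [lz, Prod.fst_add, Prod.snd_add, Prod.smul_fst, Prod.smul_snd, inner_add_left,
    real_inner_smul_left, smul_eq_mul]
  ring

theorem lz_comm (v w : W N) : lz v w = lz w v := by
  rw [lz, lz, real_inner_comm, mul_comm]

end KCsAux

open KCsAux in
theorem pkCs : CsS := by
  intro N y
  refine ⟨?_, nn y, fun v h h0 => ?_, fun v w hv hw => ?_, fun p hp h0 => ?_⟩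
  · rw [lz_self]
    have h2 : √(1 + ‖y‖ ^ 2) ^ 2 = 1 + ‖y‖ ^ 2 := Real.sq_sqrt (by positivity)
    simp only [lift, h2]
    ring
  · have h1 := (key y v h).1
    rw [h0, zero_mul] at h1
    have h2 : ‖v.2‖ ^ 2 = 0 := le_antisymm h1 (sq_nonneg _)
    rw [lz_self, h2, zero_sub, neg_eq_zero] at h0
    exact Prod.ext (pow_eq_zero_iff two_ne_zero |>.1 h0)
      (norm_eq_zero.1 (pow_eq_zero_iff two_ne_zero |>.1 h2))
  · have h := discrim_le_zero (a := lz v v) (b := 2 * lz v w) (c := lz w w) fun t => by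
      have h1 := nn y (t • v + w) (by rw [lz_comb, hv, hw, mul_zero, add_zero])
      rw [lz_comb, lz_comm v, lz_comm w, lz_comb, lz_comb, lz_comm w v] at h1
      linarith
    rw [discrim] at h
    linarith
  · rw [lz_self] at hp
    refine Prod.ext ?_ rfl
    show p.1 = √(1 + ‖p.2‖ ^ 2)
    rw [show 1 + ‖p.2‖ ^ 2 = p.1 ^ 2 by linarith, Real.sqrt_sq h0.le]

end Vale.Agent.P210
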