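import Vale.Agent.P210K.Stm

open Set Filter Topology MeasureTheory Metric
open scoped ENNReal NNReal ContDiff RealInnerProductSpace

namespace Vale.Agent.P210

namespace KDecAux

variable {n : ℕ}

theorem wext {u v : W (n + 1)} (h1 : u.1 = v.1) (h2 : u.2 0 = v.2 0)
    (h3 : ∀ i : Fin n, u.2 i.succ = v.2 i.succ) : u = v := by
  refine Prod.ext h1 ?_
  ext i
  exact Fin.cases h2 h3 i

noncomputable def PL (n : ℕ) : E n →ₗ[ℝ] W (n + 1) where
  toFun y := (0, WithLp.toLp 2 (Fin.cons 0 (fun i => y i)))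
  map_add' y z := wext (by simp) (by simp) fun i => by simp
  map_smul' c y := wext (by simp) (by simp) fun i => by simp

noncomputable def TL (n : ℕ) : W (n + 1) →ₗ[ℝ] E n where
  toFun u := WithLp.toLp 2 (fun i => u.2 i.succ)
  map_add' u v := by
    ext i
    simp
  map_smul' c u := by
    ext i
    simp

noncomputable def AL (B : E n →L[ℝ] W (n + 1)) (e' f' : W (n + 1)) :
    W (n + 1) →ₗ[ℝ] W (n + 1) where
  toFun u := ((u.1 - u.2 0) / 2) • e' + (u.1 + u.2 0) • f' + B (TL n u)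
  map_add' u v := by
    simp only [Prod.fst_add, Prod.snd_add, PiLp.add_apply, map_add]
    module
  map_smul' c u := by
    simp only [Prod.smul_fst, Prod.smul_snd, PiLp.smul_apply, map_smul, smul_eq_mul,
      RingHom.id_apply]
    module

noncomputable def ee (n : ℕ) : W (n + 1) := (1, WithLp.toLp 2 (Fin.cons (-1) (fun _ => 0)))

noncomputable def ff (n : ℕ) : W (n + 1) :=
  (1 / 2, WithLp.toLp 2 (Fin.cons (1 / 2) (fun _ => 0)))

theorem T_ee : TL n (ee n) = 0 := by
  ext i
  simp [TL, ee]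

theorem T_ff : TL n (ff n) = 0 := by
  ext i
  simp [TL, ff]

theorem T_P (y : E n) : TL n (PL n y) = y := by
  ext i
  simp [TL, PL]

end KDecAux

open KDecAux in
theorem pkDec : DecS := by
  intro n
  refine ⟨LinearMap.toContinuousLinearMap (PL n), ee n, ff n, fun y => ?_, fun u => ?_,
    fun B e' f' => ⟨LinearMap.toContinuousLinearMap (AL B e' f'), ?_, ?_, fun y => ?_⟩⟩
  · refine wext ?_ ?_ fun i => ?_
    · simp [LL, PL, ee, ff]
      ring
    · simp [LL, PL, ee, ff]
      ring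
    · simp [LL, PL, ee, ff]
  · refine ⟨(u.1 - u.2 0) / 2, u.1 + u.2 0, TL n u, wext ?_ ?_ fun i => ?_⟩
    · simp [PL, ee, ff]
      ring
    · simp [PL, ee, ff]
      ring
    · simp [PL, TL, ee, ff]
  · show (((ee n).1 - (ee n).2 0) / 2) • e' + ((ee n).1 + (ee n).2 0) • f' + B (TL n (ee n)) = e'
    rw [T_ee]
    simp [ee]
  · show (((ff n).1 - (ff n).2 0) / 2) • e' + ((ff n).1 + (ff n).2 0) • f' + B (TL n (ff n)) = f'
    rw [T_ff]
    have h : (2⁻¹ : ℝ) + 2⁻¹ = 1 := by norm_num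
    simp [ff, h]
  · show (((PL n y).1 - (PL n y).2 0) / 2) • e' + ((PL n y).1 + (PL n y).2 0) • f' +
      B (TL n (PL n y)) = B y
    rw [T_P]
    simp [PL]

end Vale.Agent.P210
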