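import Vale.Agent.P210K.Stm

open Set Filter Topology MeasureTheory Metric
open scoped ENNReal NNReal ContDiff RealInnerProductSpace

namespace Vale.Agent.P210

namespace KDerAux

open Asymptotics

theorem gen {X : Type} [NormedAddCommGroup X] [NormedSpace ℝ X] {p : ℝ → X} {V : X} {t C : ℝ}
    {f : ℝ → ℝ} (L : X →L[ℝ] ℝ) (hp : HasDerivAt p V t)
    (h : ∀ᶠ u in 𝓝 t, |f u - f t - L (p u - p t)| ≤ C * ‖p u - p t‖ ^ 2) :
    HasDerivAt f (L V) t := by
  have h1 : (fun u => ‖p u - p t‖) =O[𝓝 t] fun u => u - t := hp.isBigO_sub.norm_left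
  have h2 : (fun u => ‖p u - p t‖) =o[𝓝 t] fun _ => (1 : ℝ) := by
    rw [isLittleO_one_iff]
    exact tendsto_iff_norm_sub_tendsto_zero.1 hp.continuousAt
  have h3 : (fun u => f u - f t - L (p u - p t)) =O[𝓝 t] fun u => ‖p u - p t‖ * ‖p u - p t‖ := by
    refine IsBigO.of_bound C ?_
    filter_upwards [h] with u hu
    rwa [Real.norm_eq_abs, Real.norm_of_nonneg (by positivity), ← sq]
  have h4 := h3.trans_isLittleO (h2.mul_isBigO h1)
  have h5 : HasDerivAt (fun u => f u - f t - L (p u - p t)) 0 t := by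
    rw [hasDerivAt_iff_isLittleO]
    simpa using h4
  have h6 : HasDerivAt (fun u => L (p u - p t)) (L V) t :=
    L.hasFDerivAt.comp_hasDerivAt t (hp.sub_const (p t))
  have h7 := (h5.fun_add h6).add_const (f t)
  simpa using h7

theorem lin {N : ℕ} (s : ℝ) (n : W N) : ∃ L : W N →L[ℝ] ℝ, ∀ v, L v = s * lz n v :=
  ⟨s • ((innerSL ℝ n.2).comp (ContinuousLinearMap.snd ℝ ℝ (E N)) -
    n.1 • ContinuousLinearMap.fst ℝ ℝ (E N)), fun v => by simp [lz]⟩

theorem alg {N : ℕ} (n p : W N) (c : ℝ) (h1 : lz (c • n) p = -1) (h2 : lz p p = -1) :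
    c * lz n (c • n - p) = lz (c • n - p) (c • n - p) := by
  simp only [lz, Prod.smul_snd, Prod.smul_fst, Prod.snd_sub, Prod.fst_sub, inner_sub_left,
    inner_sub_right, real_inner_smul_left, real_inner_smul_right, smul_eq_mul,
    real_inner_comm n.2 p.2] at h1 h2 ⊢
  linear_combination h1 - h2

end KDerAux

open KDerAux in
theorem pkDer (hTay1 : Tay1S) (hMom : MomS) (hMom2 : Mom2S) (hCs : CsS) : DerS := by
  intro N μ s A α hD hS
  have hc : Continuous α :=
    continuous_snd.comp (continuous_iff_continuousAt.2 fun t => (hS t).continuousAt)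
  refine ⟨hc, fun t => ?_⟩
  obtain ⟨C, -, hC⟩ := hTay1 N s (‖α t‖ + 1) hD.pos
  obtain ⟨L, hL⟩ := lin s (N1 μ s (lift (α t)))
  have hF := (hMom N μ s A hD (α t)).2.2.2.1
  have h1 : HasDerivAt (fun t => FF μ s (lift (α t))) _ t :=
    gen (C := C * FF μ s (lift 0)) L (hS t) (by
      filter_upwards [hc.norm.continuousAt.eventually_lt_const (lt_add_one ‖α t‖)] with u hu
      rw [hL]
      exact (hC μ A hD (α t) (α u) (by linarith) hu.le).2.1)
  refine (h1.log hF.ne').congr_deriv ?_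
  rw [hL, mm, ← alg _ _ _ (hMom2 N μ s A hD (α t)).1 (hCs N (α t)).1]
  ring

end Vale.Agent.P210
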