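import Vale.Agent.P210K.Stm

open Set Filter Topology MeasureTheory Metric
open scoped ENNReal NNReal ContDiff RealInnerProductSpace

namespace Vale.Agent.P210

namespace KDetAux

theorem tr {k : ℕ} (A B : Matrix (Fin k) (Fin k) ℝ) :
    Matrix.trace (A.adjugate * B) = ∑ σ : Equiv.Perm (Fin k), ((Equiv.Perm.sign σ : ℤ) : ℝ) *
      ∑ j, (∏ i ∈ Finset.univ.erase j, A (σ i) i) • B (σ j) j := by
  have h1 : ∀ j, (A.adjugate * B) j j = (A.updateCol j fun i => B i j).det := fun j => by
    rw [← Matrix.cramer_apply, Matrix.cramer_eq_adjugate_mulVec]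
    rfl
  have h2 : ∀ (j : Fin k) (σ : Equiv.Perm (Fin k)),
      ∏ i, (A.updateCol j fun i => B i j) (σ i) i =
        (∏ i ∈ Finset.univ.erase j, A (σ i) i) • B (σ j) j := fun j σ => by
    rw [← Finset.prod_erase_mul _ _ (Finset.mem_univ j), Matrix.updateCol_self, smul_eq_mul]
    refine congrArg (· * B (σ j) j) (Finset.prod_congr rfl fun i hi => ?_)
    exact Matrix.updateCol_ne (Finset.ne_of_mem_erase hi)
  simp only [Matrix.trace, Matrix.diag_apply, h1, Matrix.det_apply', h2, Finset.mul_sum]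
  exact Finset.sum_comm

end KDetAux

theorem pkDet : DetS := by
  intro k G G' t h
  rw [KDetAux.tr]
  simp only [Matrix.det_apply']
  exact HasDerivAt.fun_sum fun σ _ =>
    (HasDerivAt.fun_finsetProd fun i _ => h (σ i) i).const_mul _

end Vale.Agent.P210
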