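import Vale.Agent.P210K.Stm

open Set Filter Topology MeasureTheory Metric
open scoped ENNReal NNReal ContDiff RealInnerProductSpace

namespace Vale.Agent.P210

namespace KDistAux

lemma lz_cont {N : ℕ} : Continuous (fun v : W N => lz v v) := by
  unfold lz
  exact (continuous_snd.inner continuous_snd).sub (continuous_fst.mul continuous_fst)

lemma lz_smul {N : ℕ} (c : ℝ) (v : W N) : lz (c • v) (c • v) = c ^ 2 * lz v v := by
  unfold lz
  simp only [Prod.smul_snd, Prod.smul_fst, real_inner_smul_left, real_inner_smul_right,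
    smul_eq_mul]
  ring

lemma sqrt_le_amgm (X θ : ℝ) (hX : 0 ≤ X) (hθ : 0 < θ) :
    Real.sqrt X ≤ X / (2 * θ) + θ / 2 := by
  have h1 : Real.sqrt X ^ 2 = X := Real.sq_sqrt hX
  have h2 : X / (2 * θ) + θ / 2 - Real.sqrt X = (Real.sqrt X - θ) ^ 2 / (2 * θ) := by
    field_simp
    nlinarith [h1]
  have h3 : 0 ≤ (Real.sqrt X - θ) ^ 2 / (2 * θ) := by positivity
  linarith

lemma core {N : ℕ} (hHd : HdS) (hHd2 : Hd2S) (α : ℝ → E N) (V : ℝ → W N)
    (hc : Continuous α) (hV : ∀ t, HasDerivAt (fun t => lift (α t)) (V t) t)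
    (B B' : ℝ → ℝ) (a b : ℝ) (hab : a ≤ b) (hB : ∀ t, HasDerivAt B (B' t) t)
    (hBa : 0 ≤ B a) (hle : ∀ t, Real.sqrt (lz (V t) (V t)) ≤ B' t) :
    hd (α a) (α b) ≤ B b := by
  obtain ⟨-, h0, hsym, -, htri, hcont⟩ := hHd N
  have hp : Continuous (fun t => (α a, α t)) := continuous_const.prodMk hc
  have hf : Continuous (fun t => hd (α a) (α t)) := by
    have h := hcont.comp hp
    simpa only [Function.comp_def] using h
  have hBc : Continuous B := continuous_iff_continuousAt.2 fun t => (hB t).continuousAt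
  refine image_le_of_liminf_slope_right_le_deriv_boundary (f := fun t => hd (α a) (α t))
    (a := a) (b := b) hf.continuousOn (B := B) (B' := B') ?_ hBc.continuousOn
    (fun x _ => (hB x).hasDerivWithinAt) ?_ ⟨hab, le_rfl⟩
  · show hd (α a) (α a) ≤ B a
    rw [h0]; exact hBa
  · intro x _ r hr
    have h1 : Tendsto (slope (fun t => lift (α t)) x) (𝓝[>] x) (𝓝 (V x)) :=
      (hasDerivAt_iff_tendsto_slope_left_right.1 (hV x)).2
    have h2 : Tendsto (fun z => Real.sqrt (lz (slope (fun t => lift (α t)) x z)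
        (slope (fun t => lift (α t)) x z))) (𝓝[>] x) (𝓝 (Real.sqrt (lz (V x) (V x)))) := by
      have h := ((lz_cont (N := N)).tendsto (V x)).comp h1
      simp only [Function.comp_def] at h
      exact h.sqrt
    have h3 := h2.eventually (gt_mem_nhds (lt_of_le_of_lt (hle x) hr))
    refine Filter.Eventually.frequently ?_
    filter_upwards [h3, self_mem_nhdsWithin] with z hz hxz
    have hxz' : 0 < z - x := sub_pos.2 hxz
    refine lt_of_le_of_lt ?_ hz
    rw [slope_def_module, slope_def_module, lz_smul, Real.sqrt_mul (sq_nonneg _),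
      Real.sqrt_sq (inv_pos.2 hxz').le, smul_eq_mul]
    refine mul_le_mul_of_nonneg_left ?_ (inv_pos.2 hxz').le
    have h4 := htri (α a) (α x) (α z)
    have h5 := (hHd2 N).1 (α z) (α x)
    rw [hsym (α x) (α z)] at h4
    linarith

end KDistAux

theorem pkDist (hDer : DerS) (hHd : HdS) (hHd2 : Hd2S) (hMom : MomS) (hMom2 : Mom2S) : DistS := by
  intro N μ s A α hD hS
  obtain ⟨hc, hL⟩ := hDer N μ s A α hD hS
  have hs : 0 < s := hD.pos
  have hF : ∀ t, 0 < FF μ s (lift (α t)) := fun t => (hMom N μ s A hD (α t)).2.2.2.1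
  have hV0 : ∀ t, 0 ≤ lz (mm μ s (lift (α t)) - lift (α t)) (mm μ s (lift (α t)) - lift (α t)) :=
    fun t => (hMom2 N μ s A hD (α t)).2.2.1
  have hV1 : ∀ t, lz (mm μ s (lift (α t)) - lift (α t)) (mm μ s (lift (α t)) - lift (α t)) ≤ 1 :=
    fun t => (hMom2 N μ s A hD (α t)).2.2.2.1
  refine ⟨?_, fun a b hab => ⟨?_, fun θ hθ => ?_⟩⟩
  · have hm : Monotone (fun t => Real.log (FF μ s (lift (α t)))) := by
      refine monotone_of_deriv_nonneg (fun t => (hL t).differentiableAt) fun t => ?_
      rw [(hL t).deriv]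
      exact mul_nonneg hs.le (hV0 t)
    intro a b hab
    exact (Real.log_le_log_iff (hF a) (hF b)).1 (hm hab)
  · refine KDistAux.core hHd hHd2 α _ hc hS (fun t => t - a) (fun _ => 1) a b hab
      (fun t => (hasDerivAt_id t).sub_const a) (by simp) fun t => ?_
    exact Real.sqrt_le_one.2 (hV1 t)
  · refine KDistAux.core hHd hHd2 α _ hc hS
      (fun t => (Real.log (FF μ s (lift (α t))) - Real.log (FF μ s (lift (α a)))) / (2 * θ * s) +
        θ * (t - a) / 2)
      (fun t => s * lz (mm μ s (lift (α t)) - lift (α t)) (mm μ s (lift (α t)) - lift (α t)) /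
        (2 * θ * s) + θ * 1 / 2) a b hab
      (fun t => (((hL t).sub_const _).div_const _).add
        ((((hasDerivAt_id t).sub_const a).const_mul θ).div_const 2)) (by simp) fun t => ?_
    have h1 := KDistAux.sqrt_le_amgm _ θ (hV0 t) hθ
    have h2 : s * lz (mm μ s (lift (α t)) - lift (α t)) (mm μ s (lift (α t)) - lift (α t)) /
        (2 * θ * s) = lz (mm μ s (lift (α t)) - lift (α t)) (mm μ s (lift (α t)) - lift (α t)) /
        (2 * θ) := by
      field_simp
    rw [h2, mul_one]
    exact h1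

end Vale.Agent.P210
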