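import Vale.Agent.P210K.Stm

open Set Filter Topology MeasureTheory Metric
open scoped ENNReal NNReal ContDiff RealInnerProductSpace

namespace Vale.Agent.P210

namespace KDo0Aux

theorem lift_zero (N : ℕ) : lift (0 : E N) = ((1 : ℝ), (0 : E N)) := by
  simp [lift]

theorem fst_zero {N : ℕ} (R : W N →L[ℝ] W N) (hR : IsLor R) (y : E N)
    (hy : R (lift y) = lift 0) (v : W N) (hv : lz v (lift y) = 0) : (R v).1 = 0 := by
  have h := hR.iso v (lift y)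
  rw [hy, hv, lift_zero] at h
  simp [lz] at h
  exact h

theorem inner_eq {N : ℕ} (R : W N →L[ℝ] W N) (hR : IsLor R) (v w : W N) (hv : (R v).1 = 0) :
    ⟪(R v).2, (R w).2⟫ = lz v w := by
  rw [← hR.iso v w]
  simp [lz, hv]

theorem consts (C : ℝ) (hC : 0 < C) (k : ℕ) (hk : 0 < k) :
    ∃ η : ℝ, 0 < η ∧ η < 1 ∧ C * η ≤ 1 / 4 ∧ 2 ^ k * C * η ^ k ≤ 1 / 4 := by
  have h2 : (1 : ℝ) ≤ 2 ^ k := one_le_pow₀ (by norm_num)
  have hD : 0 < 2 ^ k * C := by positivity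
  have hden : (0 : ℝ) < 2 + 4 * (2 ^ k * C) := by positivity
  have h0 : 0 < 1 / (2 + 4 * (2 ^ k * C)) := by positivity
  have h1 : 1 / (2 + 4 * (2 ^ k * C)) < 1 := by
    rw [div_lt_one hden]; linarith
  have h3 : 2 ^ k * C * (1 / (2 + 4 * (2 ^ k * C))) ≤ 1 / 4 := by
    rw [mul_one_div, div_le_div_iff₀ hden (by norm_num)]; linarith
  refine ⟨_, h0, h1, ?_, ?_⟩
  · have : C ≤ 2 ^ k * C := by nlinarith
    exact le_trans (mul_le_mul_of_nonneg_right this h0.le) h3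
  · have : (1 / (2 + 4 * (2 ^ k * C))) ^ k ≤ 1 / (2 + 4 * (2 ^ k * C)) :=
      pow_le_of_le_one h0.le h1.le hk.ne'
    exact le_trans (mul_le_mul_of_nonneg_left this hD.le) h3

theorem consts2 (C M : ℝ) (hC : 0 < C) (hM : 1 ≤ M) (k : ℕ) :
    ∃ l : ℝ, 0 < l ∧ l ≤ 1 ∧ C * l ≤ 1 / 4 ∧ 2 ^ k * C * (M ^ k * l) ≤ 1 / 4 := by
  have h2 : (1 : ℝ) ≤ 2 ^ k := one_le_pow₀ (by norm_num)
  have hM2 : (1 : ℝ) ≤ M ^ k := one_le_pow₀ hM
  have hD : 0 < 2 ^ k * C * M ^ k := by positivity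
  have hden : (0 : ℝ) < 1 + 4 * (2 ^ k * C * M ^ k) := by positivity
  have h0 : 0 < 1 / (1 + 4 * (2 ^ k * C * M ^ k)) := by positivity
  have h1 : 1 / (1 + 4 * (2 ^ k * C * M ^ k)) ≤ 1 := by
    rw [div_le_one hden]; linarith
  have h3 : 2 ^ k * C * M ^ k * (1 / (1 + 4 * (2 ^ k * C * M ^ k))) ≤ 1 / 4 := by
    rw [mul_one_div, div_le_div_iff₀ hden (by norm_num)]; linarith
  refine ⟨_, h0, h1, ?_, ?_⟩
  · have h4 : C ≤ 2 ^ k * C := by nlinarith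
    have h5 : 2 ^ k * C ≤ 2 ^ k * C * M ^ k := le_mul_of_one_le_right (by positivity) hM2
    exact le_trans (mul_le_mul_of_nonneg_right (h4.trans h5) h0.le) h3
  · rw [← mul_assoc]; exact h3

theorem cov_of {N k : ℕ} (hLor : LorS) (hHd2 : Hd2S) (R : W N →L[ℝ] W N) (hR : IsLor R)
    (hRR : ∀ v, R (R v) = v) (T : Finset (E N)) (r ε : ℝ) (hr : 0 < r) (hε : 0 < ε)
    (hr2 : r ≤ 1 / 2) (hT : 2 ^ k * (T.card * r ^ k) ≤ 1 / 2) (A : Set (E N))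
    (hA : ∀ z ∈ A, ∃ c ∈ T, ‖act R z - (2 * ε) • c‖ < 2 * ε * r) :
    Cov k ε A (ε ^ k / 2) := by
  obtain ⟨h1, h2, -⟩ := hLor N R hR
  refine ⟨T.toList.map (fun c => (act R ((2 * ε) • c), 2 * ε * r)), ?_, ?_, ?_⟩
  · intro b hb
    obtain ⟨c, -, rfl⟩ := List.mem_map.1 hb
    refine ⟨by positivity, ?_⟩
    show 2 * ε * r ≤ ε
    nlinarith
  · have e : ((T.toList.map (fun c => (act R ((2 * ε) • c), 2 * ε * r))).map
        (fun b => b.2 ^ k)).sum = T.card * (2 * ε * r) ^ k := by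
      rw [List.map_map]
      simp [Function.comp_def, List.map_const', List.sum_replicate]
    rw [e]
    have e2 : (T.card : ℝ) * (2 * ε * r) ^ k = ε ^ k * (2 ^ k * (T.card * r ^ k)) := by
      rw [mul_pow, mul_pow]; ring
    rw [e2]
    have : 0 < ε ^ k := by positivity
    nlinarith
  · intro z hz
    obtain ⟨c, hc, hlt⟩ := hA z hz
    refine ⟨(act R ((2 * ε) • c), 2 * ε * r), List.mem_map.2 ⟨c, Finset.mem_toList.2 hc, rfl⟩, ?_⟩
    show hd z (act R ((2 * ε) • c)) < 2 * ε * r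
    have e : act R (act R ((2 * ε) • c)) = (2 * ε) • c := by
      show (R (lift (act R ((2 * ε) • c)))).2 = _
      rw [← h1, hRR]
      rfl
    rw [← h2, e]
    exact lt_of_le_of_lt ((hHd2 N).2.1 _ _) hlt

end KDo0Aux

open KDo0Aux in
theorem pkDo0 (hVar1 : Var1S) (hVar2 : Var2S) (hGram : GramS) (hEll : EllS) (hRef : RefS) (hLor : LorS) (hHd : HdS) (hHd2 : Hd2S) (hDist : DistS) : Do0S := by
  intro N k s hs hsk hkN
  have hk0 : 0 < k := by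
    have : (0 : ℝ) < k := by linarith
    exact_mod_cast this
  have hkR : (0 : ℝ) < k := by exact_mod_cast hk0
  obtain ⟨C, hC, hE⟩ := hEll N k hk0 hkN
  obtain ⟨η, hη0, hη1, hη2, hη3⟩ := consts C hC k hk0
  have hc : (0 : ℝ) < k - 1 - s := by linarith
  have hlog : Real.log η < 0 := Real.log_neg hη0 hη1
  obtain ⟨H, hH⟩ : ∃ H : ℝ, H = k * (-Real.log η) / (k - 1 - s) := ⟨_, rfl⟩
  have hH0 : 0 < H := by
    rw [hH]
    exact div_pos (mul_pos hkR (by linarith)) hc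
  have hexp : Real.exp (-(2 * (k - 1 - s)) * H) = (η ^ k) ^ 2 := by
    have : -(2 * (k - 1 - s)) * H = ((k * 2 : ℕ) : ℝ) * Real.log η := by
      rw [hH]; push_cast; field_simp
    rw [this, Real.exp_nat_mul, Real.exp_log hη0, pow_mul]
  obtain ⟨C1, hC1, hV1⟩ := hVar1 N s H hs hH0
  obtain ⟨C2, hC2, hV2⟩ := hVar2 N s H hs hH0
  obtain ⟨Rb, hRb⟩ : ∃ Rb : ℝ, Rb = 2 * (1 + Real.exp H) := ⟨_, rfl⟩
  have hRb0 : 0 < Rb := by rw [hRb]; positivity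
  obtain ⟨l, hl0, hl1, hl2, hl3⟩ := consts2 C (max 1 (Rb * C1)) hC (le_max_left _ _) k
  have hD : 0 < 2 * Rb * (C1 + C2) := by positivity
  refine ⟨H, hH0, min (1 / 2) (l / (2 * Rb * (C1 + C2))), lt_min (by norm_num) (by positivity),
    min_le_left _ _, ?_⟩
  intro μ A α hDat hα hα0 ε hε hεle
  have hε1 : ε ≤ 1 / 2 := hεle.trans (min_le_left _ _)
  have hε2 : ε * (2 * Rb * (C1 + C2)) ≤ l := (le_div_iff₀ hD).1 (hεle.trans (min_le_right _ _))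
  obtain ⟨Y, hY, hYn⟩ := hV1 μ A α hDat hα hα0
  obtain ⟨R, hR, hRR, hRy, hRn⟩ := hRef N (α H)
  have hαH : ‖α H‖ ≤ Real.exp H := by
    have h1 := ((hDist N μ s A α hDat hα).2 0 H hH0.le).1
    rw [hα0, (hHd N).2.2.1, sub_zero] at h1
    exact ((hHd2 N).2.2.1 _).trans (Real.exp_le_exp.2 h1)
  have hRn' : ∀ v, ‖R v‖ ≤ Rb * ‖v‖ := by
    intro v
    refine (hRn v).trans (mul_le_mul_of_nonneg_right ?_ (norm_nonneg _))
    rw [hRb]; linarith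
  obtain ⟨hG1, hG2⟩ := hGram N k μ s A α Y hDat hα hα0 hY H hH0.le
  obtain ⟨L, hL⟩ : ∃ L : E N →L[ℝ] E N, ∀ u, L u = (R (Y H ((0 : ℝ), u))).2 :=
    ⟨(ContinuousLinearMap.snd ℝ ℝ (E N)).comp (R.comp ((Y H).comp
      (ContinuousLinearMap.inr ℝ ℝ (E N)))), fun u => rfl⟩
  have hLn : ∀ u, ‖L u‖ ≤ max 1 (Rb * C1) * ‖u‖ := by
    intro u
    rw [hL]
    have h1 : ‖(((0 : ℝ), u) : W N)‖ = ‖u‖ := by simp [Prod.norm_def]
    have h2 := hYn ((0 : ℝ), u)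
    rw [h1] at h2
    calc ‖(R (Y H ((0 : ℝ), u))).2‖ ≤ ‖R (Y H ((0 : ℝ), u))‖ := norm_snd_le _
      _ ≤ Rb * ‖Y H ((0 : ℝ), u)‖ := hRn' _
      _ ≤ Rb * (C1 * ‖u‖) := mul_le_mul_of_nonneg_left h2 hRb0.le
      _ = Rb * C1 * ‖u‖ := by ring
      _ ≤ _ := mul_le_mul_of_nonneg_right (le_max_right _ _) (norm_nonneg _)
  have hdet : ∀ u : Fin k → E N, Orthonormal ℝ u →
      (gramE fun i => L (u i)).det ≤ (η ^ k) ^ 2 := by
    intro u hu
    have e : (gramE fun i => L (u i)) = gram fun i => Y H ((0 : ℝ), u i) := by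
      ext i j
      show ⟪L (u i), L (u j)⟫ = lz (Y H ((0 : ℝ), u i)) (Y H ((0 : ℝ), u j))
      rw [hL, hL]
      exact inner_eq R hR _ _ (fst_zero R hR (α H) hRy _ (hG1 _))
    rw [e, ← hexp]
    exact hG2 u hu
  obtain ⟨T, r, hr0, hr1, hT, hcov⟩ := hE L η (max 1 (Rb * C1)) l hη0 (le_max_left _ _) hl0 hl1
    hLn hdet
  refine cov_of hLor hHd2 R hR hRR T r ε hr0 hε (by nlinarith) ?_ _ ?_
  · have h2 : (0 : ℝ) < 2 ^ k := by positivity
    calc (2 : ℝ) ^ k * (T.card * r ^ k) ≤ 2 ^ k * (C * (η ^ k + max 1 (Rb * C1) ^ k * l)) :=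
          mul_le_mul_of_nonneg_left hT h2.le
      _ = 2 ^ k * C * η ^ k + 2 ^ k * C * (max 1 (Rb * C1) ^ k * l) := by ring
      _ ≤ 1 / 2 := by linarith
  · rintro z ⟨β, hβ, hβ0, rfl⟩
    have hw1 : ‖β 0‖ ≤ 1 := by linarith
    have h1 := hV2 μ A α β Y hDat hα hβ hα0 hw1 hY
    have h2 := (hHd2 N).2.2.2.2.2 (β 0)
    obtain ⟨e1, he1⟩ : ∃ e1, e1 = lift (β H) - lift (α H) - Y H (lift (β 0) - lift 0) := ⟨_, rfl⟩
    obtain ⟨e2, he2⟩ : ∃ e2, e2 = lift (β 0) - lift 0 - ((0 : ℝ), β 0) := ⟨_, rfl⟩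
    rw [← he1] at h1
    rw [← he2] at h2
    have hdec : lift (β H) = lift (α H) + Y H ((0 : ℝ), β 0) + (Y H e2 + e1) := by
      rw [he1, he2, map_sub (Y H) (lift (β 0) - lift 0)]
      abel
    have hact : act R (β H) = L (β 0) + (R (Y H e2 + e1)).2 := by
      show (R (lift (β H))).2 = _
      rw [hdec, map_add R, map_add R, hRy, lift_zero, hL]
      simp
    have hw2 : ‖β 0‖ ^ 2 ≤ (2 * ε) ^ 2 := pow_le_pow_left₀ (norm_nonneg _) hβ0 2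
    have herr : ‖(R (Y H e2 + e1)).2‖ ≤ 2 * ε * l := by
      have h3 : ‖Y H e2 + e1‖ ≤ (C1 + C2) * ‖β 0‖ ^ 2 := by
        have h4 := hYn e2
        have h5 := mul_le_mul_of_nonneg_left h2 hC1.le
        have h6 := norm_add_le (Y H e2) e1
        linarith
      calc ‖(R (Y H e2 + e1)).2‖ ≤ ‖R (Y H e2 + e1)‖ := norm_snd_le _
        _ ≤ Rb * ‖Y H e2 + e1‖ := hRn' _
        _ ≤ Rb * ((C1 + C2) * (2 * ε) ^ 2) := mul_le_mul_of_nonneg_left
            (h3.trans (mul_le_mul_of_nonneg_left hw2 (by positivity))) hRb0.le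
        _ = 2 * ε * (ε * (2 * Rb * (C1 + C2))) := by ring
        _ ≤ 2 * ε * l := mul_le_mul_of_nonneg_left hε2 (by positivity)
    have h2e : (0 : ℝ) < 2 * ε := by positivity
    obtain ⟨c, hc, hlt⟩ := hcov ((2 * ε)⁻¹ • β 0) ((2 * ε)⁻¹ • (R (Y H e2 + e1)).2)
      (by
        rw [norm_smul, Real.norm_eq_abs, abs_of_pos (inv_pos.2 h2e), inv_mul_le_iff₀ h2e]
        linarith)
      (by
        rw [norm_smul, Real.norm_eq_abs, abs_of_pos (inv_pos.2 h2e), inv_mul_le_iff₀ h2e]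
        exact herr)
    refine ⟨c, hc, ?_⟩
    have e : act R (β H) - (2 * ε) • c = (2 * ε) • (L ((2 * ε)⁻¹ • β 0) +
        (2 * ε)⁻¹ • (R (Y H e2 + e1)).2 - c) := by
      rw [hact, map_smul, smul_sub, smul_add, smul_inv_smul₀ h2e.ne', smul_inv_smul₀ h2e.ne']
    rw [e, norm_smul, Real.norm_eq_abs, abs_of_pos h2e]
    exact mul_lt_mul_of_pos_left hlt h2e

end Vale.Agent.P210
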