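import Vale.Agent.P210K.Stm

open Set Filter Topology MeasureTheory Metric
open scoped ENNReal NNReal ContDiff RealInnerProductSpace

namespace Vale.Agent.P210

namespace KDo1Aux

theorem cov_map {N k : ℕ} {ε c : ℝ} {A B : Set (E N)} (f : E N → E N)
    (hf : ∀ y z, hd (f y) (f z) = hd y z) (hA : Cov k ε A c) (hB : ∀ z ∈ B, ∃ w ∈ A, z = f w) :
    Cov k ε B c := by
  obtain ⟨l, h1, h2, h3⟩ := hA
  refine ⟨l.map fun b => (f b.1, b.2), fun b hb => ?_, ?_, fun z hz => ?_⟩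
  · obtain ⟨b', hb', rfl⟩ := List.mem_map.1 hb
    exact h1 b' hb'
  · rw [List.map_map]
    exact h2
  · obtain ⟨w, hw, rfl⟩ := hB z hz
    obtain ⟨b, hb, hwb⟩ := h3 w hw
    refine ⟨(f b.1, b.2), List.mem_map.2 ⟨b, hb, rfl⟩, ?_⟩
    change hd (f w) (f b.1) < b.2
    rw [hf]
    exact hwb

end KDo1Aux

theorem pkDo1 (hDo0 : Do0S) (hRef : RefS) (hLor : LorS) (hMap : MapS) (hHd : HdS) (hHd2 : Hd2S) : Do1S := by
  intro N k s hs hk hN
  obtain ⟨H, hH, ε₀, hε₀, hhalf, h0⟩ := hDo0 N k s hs hk hN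
  refine ⟨H, hH, ε₀, hε₀, fun μ A Φ hD hF y ε hε hεε => ?_⟩
  obtain ⟨R, hR, hRR, hRy, _⟩ := hRef N y
  obtain ⟨l1, l2, _⟩ := hLor N R hR
  obtain ⟨m1, _, m3⟩ := hMap N μ s A R hD hR
  have hy : act R y = 0 := by
    unfold act
    rw [hRy]
    rfl
  have hinv : ∀ z, act R (act R z) = z := fun z => by
    change (R (lift (act R z))).2 = z
    rw [← l1, hRR]
    rfl
  have hc := h0 (Measure.map R μ) A (fun t => act R (Φ t y)) m1 (m3 _ (hF.sol y))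
    (by rw [hF.zero, hy]) ε hε hεε
  refine KDo1Aux.cov_map (act R) l2 hc ?_
  rintro _ ⟨z, hz, rfl⟩
  refine ⟨act R (Φ H z), ⟨fun t => act R (Φ t z), m3 _ (hF.sol z), ?_, rfl⟩, (hinv _).symm⟩
  change ‖act R (Φ 0 z)‖ ≤ 2 * ε
  rw [hF.zero]
  have hz' : hd z y < ε := hz
  have e : hd (act R z) 0 = hd z y := by rw [← hy, l2]
  have := (hHd2 N).2.2.2.1 (act R z) (by rw [e]; linarith)
  have _ := hHd
  rw [e] at this
  linarith

end Vale.Agent.P210
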