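import Vale.Agent.P210K.Stm

open Set Filter Topology MeasureTheory Metric
open scoped ENNReal NNReal ContDiff RealInnerProductSpace

namespace Vale.Agent.P210

namespace KDo2Aux

theorem step_list {N k : ℕ} {ε₀ : ℝ} {T : E N → E N}
    (h : ∀ y ε, 0 < ε → ε ≤ ε₀ → Cov k ε (T '' hball y ε) (ε ^ k / 2)) (l : List (E N × ℝ))
    (hl : ∀ b ∈ l, 0 < b.2 ∧ b.2 ≤ ε₀) :
    Cov k ε₀ (T '' {z | ∃ b ∈ l, z ∈ hball b.1 b.2}) ((l.map fun b => b.2 ^ k).sum / 2) := by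
  induction l with
  | nil => exact ⟨[], by simp, by simp, by simp⟩
  | cons a l ih =>
    obtain ⟨l₂, p1, p2, p3⟩ := ih fun b hb => hl b (List.mem_cons_of_mem _ hb)
    have ha := hl a List.mem_cons_self
    obtain ⟨l₁, q1, q2, q3⟩ := h a.1 a.2 ha.1 ha.2
    refine ⟨l₁ ++ l₂, fun b hb => ?_, ?_, ?_⟩
    · rcases List.mem_append.1 hb with hb | hb
      · exact ⟨(q1 b hb).1, (q1 b hb).2.trans ha.2⟩
      · exact p1 b hb
    · rw [List.map_append, List.sum_append, List.map_cons, List.sum_cons]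
      linarith
    · rintro _ ⟨z, ⟨b, hb, hz⟩, rfl⟩
      rcases List.mem_cons.1 hb with rfl | hb
      · obtain ⟨c, hc, hc'⟩ := q3 _ ⟨z, hz, rfl⟩
        exact ⟨c, List.mem_append_left _ hc, hc'⟩
      · obtain ⟨c, hc, hc'⟩ := p3 _ ⟨z, ⟨b, hb, hz⟩, rfl⟩
        exact ⟨c, List.mem_append_right _ hc, hc'⟩

theorem step {N k : ℕ} {ε₀ : ℝ} {T : E N → E N}
    (h : ∀ y ε, 0 < ε → ε ≤ ε₀ → Cov k ε (T '' hball y ε) (ε ^ k / 2)) {A : Set (E N)} {c : ℝ}
    (hA : Cov k ε₀ A c) : Cov k ε₀ (T '' A) (c / 2) := by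
  obtain ⟨l, p1, p2, p3⟩ := hA
  obtain ⟨l', q1, q2, q3⟩ := step_list h l p1
  exact ⟨l', q1, by linarith, fun z hz => q3 z (image_mono (fun y hy => p3 y hy) hz)⟩

end KDo2Aux

theorem pkDo2 : Do2S := by
  intro N k ε₀ T h j A c hA
  induction j with
  | zero => simpa using hA
  | succ j ih =>
    rw [Function.iterate_succ', image_comp, pow_succ, ← div_div]
    exact KDo2Aux.step h ih

end Vale.Agent.P210
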