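import Vale.Agent.P210K.Stm

open Set Filter Topology MeasureTheory Metric
open scoped ENNReal NNReal ContDiff RealInnerProductSpace

namespace Vale.Agent.P210

namespace KEllAux

theorem prod_cast {N k : ℕ} (hk : k ≤ N) (f : Fin N → ℝ) (h : ∀ i : Fin N, k ≤ i.val → f i = 1) :
    ∏ i, f i = ∏ i : Fin k, f (Fin.castLE hk i) := by
  have e : ∏ i : Fin k, f (Fin.castLE hk i) =
      ∏ i ∈ Finset.univ.map (Fin.castLEEmb hk), f i := by
    rw [Finset.prod_map]
    rfl
  rw [e]
  refine (Finset.prod_subset (Finset.subset_univ _) fun i _ hi => h i ?_).symm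
  by_contra hc
  exact hi (Finset.mem_map.2 ⟨⟨i.val, not_le.1 hc⟩, Finset.mem_univ _, rfl⟩)

theorem prod_bd {k : ℕ} (s : Fin (k + 1) → ℝ) {P M l : ℝ} (hs : Antitone s) (hP : ∏ i, s i ≤ P)
    (hP0 : 0 ≤ P) (hM : 1 ≤ M) (hl : 0 < l) (hl1 : l ≤ 1) (hsM : ∀ i, s i ≤ M) :
    ∏ i, max (max (s (Fin.last k)) l) (s i) ≤ P + M ^ (k + 1) * l := by
  have h0 : 0 ≤ M ^ (k + 1) * l := by positivity
  rcases le_total l (s (Fin.last k)) with h | h
  · rw [max_eq_left h, Finset.prod_congr rfl fun i _ => max_eq_right (hs (Fin.le_last i))]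
    linarith
  · rw [max_eq_right h, Fin.prod_univ_castSucc, max_eq_left h]
    have h1 : ∏ i : Fin k, max l (s i.castSucc) ≤ M ^ k := by
      refine (Finset.prod_le_prod (g := fun _ => M) (fun i _ => hl.le.trans (le_max_left _ _))
        fun i _ => max_le (hl1.trans hM) (hsM _)).trans (le_of_eq ?_)
      simp
    have h2 : M ^ k ≤ M ^ (k + 1) := pow_le_pow_right₀ hM (Nat.le_succ k)
    have h3 := mul_le_mul_of_nonneg_right (h1.trans h2) hl.le
    linarith

end KEllAux

theorem pkEll (hSvd : SvdS) (hBox : BoxS) : EllS := by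
  intro N k hk0 hk
  obtain ⟨k, rfl⟩ : ∃ k', k = k' + 1 := ⟨k - 1, by omega⟩
  refine ⟨5 ^ N * ((N : ℝ) + 2) ^ (k + 1) + ((N : ℝ) + 2), by positivity, ?_⟩
  intro L η M l hη hM hl hl1 hL hdet
  obtain ⟨b, σ, anti, nn, hσ⟩ := hSvd N L
  obtain ⟨s, hs⟩ : ∃ s : Fin (k + 1) → ℝ, s = fun i => σ (Fin.castLE hk i) := ⟨_, rfl⟩
  have hs' : ∀ i, σ (Fin.castLE hk i) = s i := fun i => by rw [hs]
  have sa : Antitone s := fun i j hij => by
    rw [← hs', ← hs']
    exact anti hij
  have s0 : ∀ i, 0 ≤ s i := fun i => by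
    rw [← hs']
    exact nn _
  have hM' : ∀ i, σ i ≤ M := fun i => by
    have h1 := hσ i i
    rw [if_pos rfl, real_inner_self_eq_norm_sq] at h1
    have h2 := hL (b i)
    rw [b.orthonormal.1 i, mul_one] at h2
    have h3 : σ i = ‖L (b i)‖ := (sq_eq_sq₀ (nn i) (norm_nonneg _)).1 h1.symm
    linarith
  have hP : ∏ i, s i ≤ η ^ (k + 1) := by
    have h1 := hdet (fun i => b (Fin.castLE hk i))
      (b.orthonormal.comp _ (Fin.castLE_injective hk))
    have h2 : (gramE fun i => L (b (Fin.castLE hk i))) = Matrix.diagonal fun i => s i ^ 2 := by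
      ext i j
      rw [gramE, Matrix.of_apply, hσ, Matrix.diagonal_apply, hs']
      simp only [Fin.castLE_inj]
    rw [h2, Matrix.det_diagonal, Finset.prod_pow] at h1
    exact (sq_le_sq₀ (Finset.prod_nonneg fun i _ => s0 i) (by positivity)).1 h1
  have hm : s (Fin.last k) ≤ η := by
    have h1 : s (Fin.last k) ^ (k + 1) ≤ ∏ i, s i := by
      refine le_of_eq_of_le ?_ (Finset.prod_le_prod (f := fun _ => s (Fin.last k))
        (fun i _ => s0 _) fun i _ => sa (Fin.le_last i))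
      simp
    exact (pow_le_pow_iff_left₀ (s0 _) hη.le (Nat.succ_ne_zero k)).1 (h1.trans hP)
  obtain ⟨lam, hlam⟩ : ∃ lam, lam = max (s (Fin.last k)) l := ⟨_, rfl⟩
  have l1 : l ≤ lam := hlam ▸ le_max_right _ _
  have l2 : s (Fin.last k) ≤ lam := hlam ▸ le_max_left _ _
  have l0 : 0 < lam := hl.trans_le l1
  have l3 : lam ≤ η + l := hlam ▸ max_le (by linarith) (by linarith)
  obtain ⟨T, hT, hc⟩ := hBox N L b σ lam l0 nn hσ
  have p0 : (0 : ℝ) ≤ 5 ^ N * ((N : ℝ) + 2) ^ (k + 1) := by positivity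
  have n0 : (0 : ℝ) < (N : ℝ) + 2 := by positivity
  refine ⟨T, ((N : ℝ) + 2) * lam, by positivity, ?_, ?_, fun u e hu he => ?_⟩
  · exact mul_le_mul (by linarith) l3 l0.le (by positivity)
  · have e1 : ∏ i, max 1 (σ i / lam) = ∏ i, max 1 (s i / lam) := by
      rw [KEllAux.prod_cast hk (fun i => max 1 (σ i / lam)) fun i hi => ?_]
      · simp only [hs']
      · refine max_eq_left ((div_le_one l0).2 (le_trans ?_ l2))
        rw [← hs']
        refine anti ?_
        rw [Fin.le_def]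
        simp only [Fin.val_castLE, Fin.val_last]
        omega
    have e2 : (∏ i, max 1 (s i / lam)) * lam ^ (k + 1) = ∏ i, max lam (s i) := by
      have : lam ^ (k + 1) = ∏ _i : Fin (k + 1), lam := by simp
      rw [this, ← Finset.prod_mul_distrib]
      refine Finset.prod_congr rfl fun i _ => ?_
      rw [max_mul_of_nonneg _ _ l0.le, one_mul, div_mul_cancel₀ _ l0.ne']
    have e3 : ∏ i, max lam (s i) ≤ η ^ (k + 1) + M ^ (k + 1) * l := by
      rw [hlam]
      exact KEllAux.prod_bd s sa hP (by positivity) hM hl hl1 fun i => by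
        rw [← hs']
        exact hM' _
    rw [Finset.prod_mul_distrib, Finset.prod_const, Finset.card_univ, Fintype.card_fin, e1] at hT
    have q0 : 0 ≤ η ^ (k + 1) + M ^ (k + 1) * l := by positivity
    calc (T.card : ℝ) * (((N : ℝ) + 2) * lam) ^ (k + 1)
        ≤ (5 ^ N * ∏ i, max 1 (s i / lam)) * (((N : ℝ) + 2) * lam) ^ (k + 1) :=
          mul_le_mul_of_nonneg_right hT (by positivity)
      _ = 5 ^ N * ((N : ℝ) + 2) ^ (k + 1) * ∏ i, max lam (s i) := by
          rw [← e2, mul_pow]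
          ring
      _ ≤ 5 ^ N * ((N : ℝ) + 2) ^ (k + 1) * (η ^ (k + 1) + M ^ (k + 1) * l) :=
          mul_le_mul_of_nonneg_left e3 p0
      _ ≤ _ := mul_le_mul_of_nonneg_right (by linarith) q0
  · obtain ⟨c, hcT, hcu⟩ := hc u hu
    refine ⟨c, hcT, ?_⟩
    have h1 : L u + e - c = (L u - c) + e := by abel
    have h2 := norm_add_le (L u - c) e
    rw [h1]
    nlinarith

end Vale.Agent.P210
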