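import Vale.Agent.P210K.Stm

open Set Filter Topology MeasureTheory Metric
open scoped ENNReal NNReal ContDiff RealInnerProductSpace

namespace Vale.Agent.P210

namespace KEndPAux

theorem sq {X : Type} [TopologicalSpace X] (f : X → ℝ) (D : X → X → ℝ) (s : ℝ)
    (hc : ∀ y, Continuous (D y)) (h0 : ∀ y, D y y = 0) (hs : ∀ y z, D y z = D z y)
    (hf : ∀ y z, f z ≤ Real.exp (s * D y z) * f y) : Continuous f := by
  refine continuous_iff_continuousAt.2 fun y => ?_
  have hc := hc y
  have hu : Tendsto (fun z => Real.exp (s * D y z) * f y) (𝓝 y) (𝓝 (f y)) := by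
    have : Continuous (fun z => Real.exp (s * D y z) * f y) := by fun_prop
    simpa [h0] using this.tendsto y
  have hl : Tendsto (fun z => Real.exp (-(s * D y z)) * f y) (𝓝 y) (𝓝 (f y)) := by
    have : Continuous (fun z => Real.exp (-(s * D y z)) * f y) := by fun_prop
    simpa [h0] using this.tendsto y
  refine tendsto_of_tendsto_of_tendsto_of_le_of_le hl hu (fun z => ?_) (fun z => hf y z)
  have h1 := hf z y
  rw [hs z y] at h1
  have h2 := mul_le_mul_of_nonneg_left h1 (Real.exp_pos (-(s * D y z))).le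
  rwa [← mul_assoc, ← Real.exp_add, neg_add_cancel, Real.exp_zero, one_mul] at h2

theorem contF (hMom2 : Mom2S) (hHd : HdS) {N : ℕ} {μ : Measure (W N)} {s A : ℝ}
    (h : Dat μ s A) : Continuous (fun y : E N => FF μ s (lift y)) := by
  obtain ⟨-, h0, hs, -, -, hc⟩ := hHd N
  refine sq _ hd s (fun y => ?_) h0 hs (fun y z => (hMom2 N μ s A h y).2.2.2.2.2 z)
  have h1 : Continuous (fun z : E N => (y, z)) := Continuous.prodMk_right y
  have h2 := Continuous.comp hc h1
  exact h2

end KEndPAux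

theorem pkEnd (hStop : StopS) (hMap : MapS) (hMom : MomS) (hMom2 : Mom2S) (hDist : DistS) (hHd : HdS) (hHd2 : Hd2S) : EndS := by
  intro N μ s q A T Φ h hΦ hq hT
  have hF0 : ∀ y, 0 < FF μ s (lift y) := fun y => (hMom N μ s A h y).2.2.2.1
  have hac : Continuous (aa μ s q) :=
    (KEndPAux.contF hMom2 hHd h).rpow_const (fun y => Or.inl (hF0 y).ne')
  obtain ⟨τ, hτc, hτ, hτu⟩ := hStop N (fun t y => aa μ s q (Φ t y)) T hT
    (hac.comp_continuousOn hΦ.cont) (fun t y => Real.rpow_pos_of_pos (hF0 _) _)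
    (fun y a b hab => Real.rpow_le_rpow (hF0 _).le ((hDist N μ s A _ h (hΦ.sol y)).1 hab)
      (by positivity))
  refine ⟨fun y => Φ (τ y) y, ?_, fun y => ⟨τ y, (hτ y).1, (hτ y).2, rfl⟩, fun R hR hμ => ?_⟩
  · exact hΦ.cont.comp_continuous (hτc.prodMk continuous_id) (fun y => ⟨(hτ y).1, mem_univ _⟩)
  obtain ⟨-, h2, h3⟩ := hMap N μ s A R h hR
  rw [hμ] at h2 h3
  have he : ∀ t y, Φ t (act R y) = act R (Φ t y) := by
    intro t y
    have := hΦ.uniq _ (h3 _ (hΦ.sol y)) t
    simp only [hΦ.zero] at this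
    exact this.symm
  have ha : ∀ t y, aa μ s q (Φ t (act R y)) = aa μ s q (Φ t y) := by
    intro t y
    rw [he, aa, aa, h2]
  refine ⟨fun y => ?_, ?_⟩
  · have : τ y = τ (act R y) := hτu _ _ (hτ y).1 (by simpa only [ha] using (hτ y).2)
    change Φ (τ (act R y)) (act R y) = _
    rw [← this, he]
  · rintro z ⟨y, u, h4, h5, rfl⟩
    exact ⟨act R y, u, h4, by simpa only [ha] using h5, (he u y).symm⟩

end Vale.Agent.P210
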