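import Vale.Agent.P210K.Stm

open Set Filter Topology MeasureTheory Metric
open scoped ENNReal NNReal ContDiff RealInnerProductSpace

namespace Vale.Agent.P210

namespace KEqvAux

variable {n : ℕ} {Ω : Set (E n)} {ρ : E n → ℝ} {d : E n → E n → ℝ}

theorem ac (Ω : Set (E n)) (ρ : E n → ℝ) (q : ℝ) : nu Ω ρ q ≪ volume.restrict Ω :=
  withDensity_absolutelyContinuous _ _

theorem ae_mem (h : Met Ω ρ d) (q : ℝ) : ∀ᵐ y ∂(nu Ω ρ q), y ∈ Ω :=
  (ac Ω ρ q).ae_le (ae_restrict_mem h.op.measurableSet)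

theorem sg_meas (hLl : LlS) (h : Met Ω ρ d) : AEMeasurable (sg ρ) (volume.restrict Ω) := by
  have h1 : ContinuousOn (sg ρ) Ω :=
    h.cont.smul (hLl n).2.2.1.continuous.continuousOn
  exact h1.aemeasurable h.op.measurableSet

/-- The Poisson kernel. -/
noncomputable def pk (n : ℕ) (p : E (n + 1)) (ξ : W (n + 1)) : ℝ≥0∞ :=
  ENNReal.ofReal ((-lz (lift p) ξ) ^ (-(n : ℝ)))

theorem pk_meas (p : E (n + 1)) : Measurable (pk n p) := by
  have h1 : Continuous fun ξ : W (n + 1) => -lz (lift p) ξ := by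
    unfold lz
    fun_prop
  exact (h1.measurable.pow_const _).ennreal_ofReal

theorem lz_smul (u v : W (n + 1)) (a : ℝ) : lz u (a • v) = a * lz u v := by
  simp only [lz, Prod.smul_snd, Prod.smul_fst, real_inner_smul_right, smul_eq_mul]
  ring

theorem vis_eq (hLl : LlS) (h : Met Ω ρ d) (p : E (n + 1)) {U : Set (E n)} (hU : MeasurableSet U)
    (hs : U ⊆ Ω) : vis p U = ∫⁻ y, U.indicator (fun y => pk n p (sg ρ y)) y ∂(nu Ω ρ n) := by
  have h1 : AEMeasurable (fun y => ENNReal.ofReal (ρ y ^ (n : ℝ))) (volume.restrict Ω) :=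
    ((h.cont.aemeasurable h.op.measurableSet).pow_const _).ennreal_ofReal
  have h2 : AEMeasurable (fun y => pk n p (sg ρ y)) (volume.restrict Ω) :=
    (pk_meas p).comp_aemeasurable (sg_meas hLl h)
  rw [lintegral_indicator hU, nu, setLIntegral_withDensity_eq_lintegral_mul₀ h1 h2 hU,
    Measure.restrict_restrict hU, inter_eq_left.2 hs, vis]
  refine setLIntegral_congr_fun hU fun y hy => ?_
  have h3 := h.pos y (hs hy)
  show _ = ENNReal.ofReal (ρ y ^ (n : ℝ)) * pk n p (sg ρ y)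
  rw [pk, ← ENNReal.ofReal_mul (Real.rpow_nonneg h3.le _), sg, lz_smul, ← mul_neg,
    Real.rpow_neg_natCast, Real.rpow_neg_natCast, Real.rpow_natCast, mul_zpow, ← mul_assoc,
    zpow_neg (ρ y), zpow_natCast, mul_inv_cancel₀ (pow_ne_zero _ h3.ne'), one_mul]

end KEqvAux

open KEqvAux in
theorem pkEqv (hSt0 : St0S) (hLor : LorS) (hLl : LlS) (hProper : ProperS) : EqvS := by
  intro n Ω ρ d φ A hn h hS
  have hae := ae_mem h n
  have hφ : AEMeasurable φ (nu Ω ρ n) :=
    (hS.cont.aemeasurable h.op.measurableSet).mono_ac (ac Ω ρ n)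
  have hsg : AEMeasurable (sg ρ) (nu Ω ρ n) := (sg_meas hLl h).mono_ac (ac Ω ρ n)
  refine ⟨?_, fun x hx r hr => ?_, fun x hx p D => ?_⟩
  · have e1 : Measure.map A (mu Ω ρ) = Measure.map (A ∘ sg ρ) (nu Ω ρ n) :=
      AEMeasurable.map_map_of_aemeasurable A.continuous.measurable.aemeasurable hsg
    have e2 : Measure.map (sg ρ) (Measure.map φ (nu Ω ρ n)) =
        Measure.map (sg ρ ∘ φ) (nu Ω ρ n) :=
      AEMeasurable.map_map_of_aemeasurable (hS.vol.symm ▸ hsg) hφ
    rw [hS.vol] at e2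
    rw [e1, mu, e2]
    exact Measure.map_congr (hae.mono fun y hy => (hS.sig y hy).symm)
  · have i1 := (hSt0 n Ω ρ d hn h (φ x) (hS.bij.mapsTo hx) r hr).1
    have i2 := (hSt0 n Ω ρ d hn h x hx r hr).1
    have e1 := integral_map hφ (f := fun y => max 0 (r - d (φ x) y) • sg ρ y)
      (hS.vol.symm ▸ i1.aestronglyMeasurable)
    rw [hS.vol] at e1
    rw [bar, bar, e1, ← A.integral_comp_comm i2]
    refine integral_congr_ae (hae.mono fun y hy => ?_)
    show max 0 (r - d (φ x) (φ y)) • sg ρ (φ y) = A (max 0 (r - d x y) • sg ρ y)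
    rw [hS.dist x hx y hy, hS.sig y hy, map_smul]
  · have m1 := (hProper n Ω ρ d h (φ x) (hS.bij.mapsTo hx) D).measurableSet
    have m2 := (hProper n Ω ρ d h x hx D).measurableSet
    have m3 : AEMeasurable ((KB Ω d (φ x) D).indicator fun y => pk n (act A p) (sg ρ y))
        (nu Ω ρ n) := ((pk_meas _).comp_aemeasurable hsg).indicator m1
    have e1 := lintegral_map' (hS.vol.symm ▸ m3) hφ
    rw [hS.vol] at e1
    rw [vis_eq hLl h _ m1 fun y hy => hy.1, vis_eq hLl h _ m2 fun y hy => hy.1, e1]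
    refine lintegral_congr_ae (hae.mono fun y hy => ?_)
    have e2 : φ y ∈ KB Ω d (φ x) D ↔ y ∈ KB Ω d x D := by
      simp only [KB, mem_setOf_eq, hS.dist x hx y hy, hy, hS.bij.mapsTo hy]
    show (KB Ω d (φ x) D).indicator (fun y => pk n (act A p) (sg ρ y)) (φ y) =
      (KB Ω d x D).indicator (fun y => pk n p (sg ρ y)) y
    by_cases k : y ∈ KB Ω d x D
    · rw [indicator_of_mem k, indicator_of_mem (e2.2 k), pk, pk, hS.sig y hy,
        ← (hLor _ A hS.lor).1 p, hS.lor.iso]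
    · rw [indicator_of_notMem k, indicator_of_notMem fun g => k (e2.1 g)]

end Vale.Agent.P210
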