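import Vale.Agent.P210K.Stm

open Set Filter Topology MeasureTheory Metric
open scoped ENNReal NNReal ContDiff RealInnerProductSpace

namespace Vale.Agent.P210

namespace KFlcAux

variable {X : Type} [NormedAddCommGroup X] [NormedSpace ℝ X] {f : X → X} {Φ : ℝ → X → X} {C : ℝ}

theorem cont (hd : ∀ y t, HasDerivAt (fun t => Φ t y) (f (Φ t y)) t) (y : X) :
    Continuous fun t => Φ t y :=
  continuous_iff_continuousAt.2 fun t => (hd y t).continuousAt

theorem bdd (hC : ∀ y, ‖f y‖ ≤ C * (1 + ‖y‖)) (h0 : ∀ y, Φ 0 y = y)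
    (hd : ∀ y t, HasDerivAt (fun t => Φ t y) (f (Φ t y)) t) {δ T : ℝ} {y : X} (hy : ‖y‖ ≤ δ)
    {t : ℝ} (ht : t ∈ Icc 0 T) : ‖Φ t y‖ ≤ gronwallBound δ |C| |C| T := by
  have h1 := norm_le_gronwallBound_of_norm_deriv_right_le (f := fun t => Φ t y)
    (f' := fun t => f (Φ t y)) (δ := δ) (K := |C|) (ε := |C|) (a := 0) (b := T)
    (cont hd y).continuousOn (fun x _ => (hd y x).hasDerivWithinAt) (by rw [h0]; exact hy)
    (fun x _ => by
      have h2 := hC (Φ x y)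
      have h3 : C * (1 + ‖Φ x y‖) ≤ |C| * (1 + ‖Φ x y‖) :=
        mul_le_mul_of_nonneg_right (le_abs_self C) (by positivity)
      linarith) t ht
  refine h1.trans (gronwallBound_mono ((norm_nonneg y).trans hy) (abs_nonneg C) (abs_nonneg C) ?_)
  rw [sub_zero]
  exact ht.2

theorem lip (hL : ∀ R : ℝ, ∃ K : ℝ≥0, LipschitzOnWith K f (closedBall 0 R))
    (hC : ∀ y, ‖f y‖ ≤ C * (1 + ‖y‖)) (h0 : ∀ y, Φ 0 y = y)
    (hd : ∀ y t, HasDerivAt (fun t => Φ t y) (f (Φ t y)) t) (δ T : ℝ) :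
    ∃ L : ℝ, ∀ y y' : X, ‖y‖ ≤ δ → ‖y'‖ ≤ δ → ∀ t ∈ Icc 0 T,
      dist (Φ t y) (Φ t y') ≤ dist y y' * L := by
  obtain ⟨K, hK⟩ := hL (gronwallBound δ |C| |C| T)
  refine ⟨Real.exp (K * T), fun y y' hy hy' t ht => ?_⟩
  have h1 := dist_le_of_trajectories_ODE_of_mem (v := fun _ => f)
    (s := fun _ => closedBall 0 (gronwallBound δ |C| |C| T)) (K := K)
    (f := fun t => Φ t y) (g := fun t => Φ t y') (a := 0) (b := T) (δ := dist y y')
    (fun _ _ => hK) (cont hd y).continuousOn (fun x _ => (hd y x).hasDerivWithinAt)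
    (fun x hx => mem_closedBall_zero_iff.2 (bdd hC h0 hd hy (Ico_subset_Icc_self hx)))
    (cont hd y').continuousOn (fun x _ => (hd y' x).hasDerivWithinAt)
    (fun x hx => mem_closedBall_zero_iff.2 (bdd hC h0 hd hy' (Ico_subset_Icc_self hx)))
    (by rw [h0, h0]) t ht
  refine h1.trans (mul_le_mul_of_nonneg_left (Real.exp_le_exp.2 ?_) dist_nonneg)
  rw [sub_zero]
  exact mul_le_mul_of_nonneg_left ht.2 K.2

end KFlcAux

theorem pkFlc : FlcS := by
  intro X _ _ f Φ C hL hC h0 hd z hz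
  obtain ⟨L, hLip⟩ := KFlcAux.lip hL hC h0 hd (‖z.2‖ + 1) (z.1 + 1)
  have a1 : Tendsto (fun w : ℝ × X => dist w.2 z.2 * L + dist (Φ w.1 z.2) (Φ z.1 z.2))
      (𝓝 z) (𝓝 0) := by
    have c1 : Continuous
        (fun w : ℝ × X => dist w.2 z.2 * L + dist (Φ w.1 z.2) (Φ z.1 z.2)) :=
      ((continuous_snd.dist continuous_const).mul continuous_const).add
        (((KFlcAux.cont hd z.2).comp continuous_fst).dist continuous_const)
    simpa using c1.tendsto z
  have a2 : ∀ᶠ w in 𝓝 z, w.1 < z.1 + 1 :=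
    continuous_fst.continuousAt.eventually_lt continuousAt_const (by simp)
  have a3 : ∀ᶠ w in 𝓝 z, ‖w.2‖ < ‖z.2‖ + 1 :=
    continuous_snd.norm.continuousAt.eventually_lt continuousAt_const (by simp)
  rw [ContinuousWithinAt, tendsto_iff_dist_tendsto_zero]
  refine squeeze_zero' (Eventually.of_forall fun _ => dist_nonneg) ?_
    (a1.mono_left nhdsWithin_le_nhds)
  filter_upwards [self_mem_nhdsWithin, mem_nhdsWithin_of_mem_nhds a2,
    mem_nhdsWithin_of_mem_nhds a3] with w hw h2 h3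
  have h4 := hLip w.2 z.2 h3.le (by linarith) w.1 ⟨hw.1, h2.le⟩
  have h5 := dist_triangle (Φ w.1 w.2) (Φ w.1 z.2) (Φ z.1 z.2)
  linarith

end Vale.Agent.P210
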