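import Vale.Agent.P210K.Stm

open Set Filter Topology MeasureTheory Metric
open scoped ENNReal NNReal ContDiff RealInnerProductSpace

namespace Vale.Agent.P210

theorem pkFlo : FloS := by
  intro n s q M s0 q0 M1
  have M0 : 0 < M := by linarith
  refine ⟨((M ^ 2) ^ s) ^ (1 / q), by positivity, fun ν p x h k hp g1 k1 k2 => ?_⟩
  have h0 := hp.1
  have r0 : (0 : ℝ) < 2 ^ k := zpow_pos two_pos k
  have a : ENNReal.ofReal ((M ^ 2 * h) ^ (-s)) * ν (ball x ((2 : ℝ) ^ k)) ≤ GG ν s p := by
    rw [← setLIntegral_const]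
    refine (setLIntegral_mono' measurableSet_ball fun y hy => ENNReal.ofReal_le_ofReal ?_).trans
      (setLIntegral_le_lintegral _ _)
    rw [hp.2 y]
    refine Real.rpow_le_rpow_of_nonpos (by positivity) ?_ (by linarith)
    have b : ‖y - x‖ ^ 2 ≤ (M * h) ^ 2 :=
      pow_le_pow_left₀ (norm_nonneg _) ((mem_ball_iff_norm.1 hy).le.trans k2) 2
    have c : 1 * h ^ 2 ≤ M ^ 2 * h ^ 2 :=
      mul_le_mul_of_nonneg_right (one_le_pow₀ M1) (sq_nonneg h)
    rw [div_le_iff₀ (by positivity)]
    nlinarith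
  have b := ENNReal.toReal_mono g1 a
  rw [ENNReal.toReal_mul, ENNReal.toReal_ofReal (by positivity), Real.rpow_neg (by positivity),
    inv_mul_le_iff₀ (by positivity), Real.mul_rpow (by positivity) h0.le] at b
  rw [bF, ← Real.mul_rpow (by positivity) ENNReal.toReal_nonneg]
  refine Real.rpow_le_rpow (by positivity) ?_ (by positivity)
  rw [div_le_iff₀ (by positivity), mul_right_comm]
  exact b.trans (mul_le_mul_of_nonneg_right (mul_le_mul_of_nonneg_left
    (Real.rpow_le_rpow h0.le k1 s0.le) (by positivity)) ENNReal.toReal_nonneg)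

end Vale.Agent.P210
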