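import Vale.Agent.P210K.Stm

open Set Filter Topology MeasureTheory Metric
open scoped ENNReal NNReal ContDiff RealInnerProductSpace

namespace Vale.Agent.P210

namespace KFrepAux

theorem lz_smul {N : ℕ} (u v : W N) (c : ℝ) : lz u (c • v) = c * lz u v := by
  simp only [lz, Prod.smul_snd, Prod.smul_fst, inner_smul_right, smul_eq_mul]
  ring

theorem lz_smul2 {N : ℕ} (v : W N) (c : ℝ) : lz (c • v) (c • v) = c * c * lz v v := by
  simp only [lz, Prod.smul_snd, Prod.smul_fst, inner_smul_right, real_inner_smul_left, smul_eq_mul]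
  ring

theorem lz_cont {N : ℕ} (u : W N) : Continuous (fun ξ : W N => -lz u ξ) := by
  unfold lz
  fun_prop

theorem nul_meas {N : ℕ} : MeasurableSet {ξ : W N | Nul ξ} := by
  have h1 : Continuous (fun ξ : W N => lz ξ ξ) := by
    unfold lz
    fun_prop
  have h2 : IsClosed {ξ : W N | lz ξ ξ = 0} := isClosed_eq h1 continuous_const
  have h3 : IsOpen {ξ : W N | 0 < ξ.1} := isOpen_lt continuous_const continuous_fst
  exact h2.measurableSet.inter h3.measurableSet

theorem dens_meas {n : ℕ} {Ω : Set (E n)} {ρ : E n → ℝ} (hΩ : IsOpen Ω) (hρ : ContinuousOn ρ Ω)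
    (q : ℝ) : AEMeasurable (fun y => ENNReal.ofReal (ρ y ^ q)) (volume.restrict Ω) :=
  ((hρ.aemeasurable hΩ.measurableSet).pow_const q).ennreal_ofReal

theorem sg_meas {n : ℕ} {Ω : Set (E n)} {ρ : E n → ℝ} (hΩ : IsOpen Ω) (hρ : ContinuousOn ρ Ω)
    (hL : Continuous (LL : E n → W (n + 1))) (q : ℝ) : AEMeasurable (sg ρ) (nu Ω ρ q) := by
  have h : ContinuousOn (sg ρ) Ω := hρ.smul hL.continuousOn
  exact (h.aemeasurable hΩ.measurableSet).mono' (withDensity_absolutelyContinuous _ _)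

theorem lift0 {N : ℕ} (ξ : W N) : -lz (lift (0 : E N)) ξ = ξ.1 := by
  simp [lz, lift]

end KFrepAux

open KFrepAux in
theorem pkFrep (hLl : LlS) (hPk : PkS) : FrepS := by
  intro n Ω ρ q A hΩ hne hρ hpos hs hA hG
  obtain ⟨-, hN, hC, -, -⟩ := hLl n
  have hL : Continuous (LL : E n → W (n + 1)) := hC.continuous
  have hsg := sg_meas hΩ hρ hL (n : ℝ)
  have hm : ∀ u : W (n + 1), Measurable (fun ξ : W (n + 1) => (-lz u ξ) ^ (-((n : ℝ) - q))) :=
    fun u => (lz_cont u).measurable.pow_const _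
  have hfin : ∀ r : ℝ, ∀ᵐ y ∂(volume.restrict Ω), ENNReal.ofReal (ρ y ^ r) < ⊤ :=
    fun r => Eventually.of_forall fun y => ENNReal.ofReal_lt_top
  have key : ∀ p : E (n + 1),
      ∫⁻ ξ, ENNReal.ofReal ((-lz (lift p) ξ) ^ (-((n : ℝ) - q))) ∂(mu Ω ρ)
        = GG (nu Ω ρ q) (n - q) p := by
    intro p
    unfold mu GG
    rw [lintegral_map' (hm _).ennreal_ofReal.aemeasurable hsg]
    unfold nu
    rw [lintegral_withDensity_eq_lintegral_mul_non_measurable₀ _ (dens_meas hΩ hρ _) (hfin _),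
      lintegral_withDensity_eq_lintegral_mul_non_measurable₀ _ (dens_meas hΩ hρ _) (hfin _)]
    apply lintegral_congr_ae
    filter_upwards [ae_restrict_mem hΩ.measurableSet] with y hy
    have hr := hpos y hy
    have hp : 0 < -lz (lift p) (LL y) := ((hPk _ _ (hN y)).2 p).1
    simp only [Pi.mul_apply, sg]
    rw [lz_smul, ← mul_neg, Real.mul_rpow hr.le hp.le,
      ← ENNReal.ofReal_mul (Real.rpow_nonneg hr.le _),
      ← ENNReal.ofReal_mul (Real.rpow_nonneg hr.le _), ← mul_assoc, ← Real.rpow_add hr]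
    have e : (n : ℝ) + -((n : ℝ) - q) = q := by ring
    rw [e]
  have hnul : ∀ᵐ ξ ∂(mu Ω ρ), Nul ξ := by
    unfold mu
    rw [ae_map_iff hsg nul_meas]
    have h1 : ∀ᵐ y ∂(nu Ω ρ n), y ∈ Ω :=
      (withDensity_absolutelyContinuous _ _).ae_le (ae_restrict_mem hΩ.measurableSet)
    filter_upwards [h1] with y hy
    have hr := hpos y hy
    refine ⟨?_, ?_⟩
    · unfold sg
      rw [lz_smul2, (hN y).1, mul_zero]
    · have := (hN y).2
      simp only [sg, Prod.smul_fst, smul_eq_mul]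
      exact mul_pos hr this
  have hnn : ∀ p : E (n + 1),
      0 ≤ᵐ[mu Ω ρ] fun ξ : W (n + 1) => (-lz (lift p) ξ) ^ (-((n : ℝ) - q)) := by
    intro p
    filter_upwards [hnul] with ξ hξ
    exact Real.rpow_nonneg ((hPk _ _ hξ).2 p).1.le _
  have hF : ∀ p, FF (mu Ω ρ) (n - q) (lift p) = (GG (nu Ω ρ q) (n - q) p).toReal := by
    intro p
    unfold FF
    rw [integral_eq_lintegral_of_nonneg_ae (hnn p) (hm _).aestronglyMeasurable, key p]
  refine ⟨⟨hs, hnul, ?_, ?_, ?_⟩, hF⟩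
  · intro h0
    have h1 : nu Ω ρ n = 0 := by
      unfold mu at h0
      exact (Measure.map_eq_zero_iff hsg).mp h0
    unfold nu at h1
    rw [withDensity_eq_zero_iff (dens_meas hΩ hρ _)] at h1
    have h2 : ∀ᵐ y ∂(volume.restrict Ω), False := by
      filter_upwards [h1, ae_restrict_mem hΩ.measurableSet] with y hy hy'
      have h3 : 0 < ρ y ^ (n : ℝ) := Real.rpow_pos_of_pos (hpos y hy') _
      simp only [Pi.zero_apply, ENNReal.ofReal_eq_zero] at hy
      linarith
    rw [Filter.eventually_false_iff_eq_bot, ae_eq_bot, Measure.restrict_eq_zero] at h2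
    exact (hΩ.measure_pos volume hne).ne' h2
  · have e : (fun ξ : W (n + 1) => ξ.1 ^ (-((n : ℝ) - q)))
        = fun ξ : W (n + 1) => (-lz (lift (0 : E (n + 1))) ξ) ^ (-((n : ℝ) - q)) := by
      funext ξ
      rw [lift0]
    rw [e]
    refine ⟨(hm _).aestronglyMeasurable, ?_⟩
    rw [hasFiniteIntegral_iff_ofReal (hnn 0), key 0]
    exact lt_of_le_of_lt (hG 0) ENNReal.ofReal_lt_top
  · intro y
    rw [hF y]
    exact ENNReal.toReal_le_of_le_ofReal hA.le (hG y)

end Vale.Agent.P210
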