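import Vale.Agent.P210K.Stm

open Set Filter Topology MeasureTheory Metric
open scoped ENNReal NNReal ContDiff RealInnerProductSpace

namespace Vale.Agent.P210

namespace KFullAux

theorem summ (f : ℤ → ℝ) (h0 : ∀ k, 0 ≤ f k) (M : ℝ) (k₀ : ℤ)
    (h : ∀ k ≤ k₀, f k ≤ M * (2 : ℝ) ^ k) (K : ℤ) : Summable (fun i : ℕ => f (K - i)) := by
  rw [← summable_nat_add_iff (K - k₀).toNat]
  have hg : Summable (fun i : ℕ => (M * (2 : ℝ) ^ (K - ((K - k₀).toNat : ℤ))) * (1 / 2 : ℝ) ^ i) :=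
    summable_geometric_two.mul_left _
  refine Summable.of_nonneg_of_le (fun i => h0 _) (fun i => ?_) hg
  have hk : K - ((i + (K - k₀).toNat : ℕ) : ℤ) ≤ k₀ := by
    push_cast
    have := Int.self_le_toNat (K - k₀)
    omega
  refine (h _ hk).trans (le_of_eq ?_)
  have e : K - ((i + (K - k₀).toNat : ℕ) : ℤ) = (K - ((K - k₀).toNat : ℤ)) + (-(i : ℤ)) := by
    push_cast
    ring
  rw [e, zpow_add₀ (by norm_num : (2 : ℝ) ≠ 0), zpow_neg, zpow_natCast, one_div, inv_pow]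
  ring

theorem zero_of (a v : ℝ≥0∞) (hv : v ≠ ⊤) (h : ∀ lam : ℝ, 0 < lam → a ≤ v / ENNReal.ofReal lam) :
    a = 0 := by
  have ht : Tendsto (fun m : ℕ => v * ((m : ℝ≥0∞))⁻¹) atTop (𝓝 (v * 0)) :=
    ENNReal.Tendsto.const_mul ENNReal.tendsto_inv_nat_nhds_zero (Or.inr hv)
  rw [mul_zero] at ht
  refine le_antisymm (ge_of_tendsto ht ?_) bot_le
  filter_upwards [eventually_gt_atTop 0] with m hm
  have := h m (by exact_mod_cast hm)
  rwa [ENNReal.ofReal_natCast, div_eq_mul_inv] at this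

end KFullAux

theorem pkFull (hMark2 : Mark2S) (hApr : AprS) (hSmall : SmallS) : FullS := by
  intro n q A Ω ρ d hq hA hM hne hν
  obtain ⟨o, ho⟩ := hne
  have hq0 : 0 < q := by linarith
  obtain ⟨C, hC, hmk⟩ := hMark2 n q hq
  obtain ⟨h1, h2, -, -, h5⟩ := hApr n (nu Ω ρ q) (n - q) q A hq0 hA hν
  obtain ⟨r, hr, M, k₀, hs⟩ := hSmall n Ω ρ q (aF (nu Ω ρ q) (n - q) q) hq0 hM.op hM.cont hM.pos
    h2 h5 o ho
  have hfin : ∀ x r, nu Ω ρ q (ball x r) ≠ ⊤ := by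
    intro x r
    rcases le_or_gt r 0 with h | h
    · rw [ball_eq_empty.2 h, measure_empty]
      exact ENNReal.zero_ne_top
    · exact ne_top_of_le_ne_top ENNReal.ofReal_ne_top (hν x r h)
  have hb0 : ∀ k : ℤ, 0 ≤ bF (nu Ω ρ q) (n - q) q o k := by
    intro k
    unfold bF
    exact Real.rpow_nonneg (div_nonneg ENNReal.toReal_nonneg
      (Real.rpow_nonneg (zpow_nonneg (by norm_num) _) _)) _
  have hsum : ∀ K : ℤ, Summable (fun i : ℕ => bF (nu Ω ρ q) (n - q) q o (K - i)) :=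
    KFullAux.summ _ hb0 M k₀ (fun k hk => (h1 o k).trans (hs o (mem_ball_self hr) k hk))
  have hz : ∀ K : ℕ, volume (ball o ((2 : ℝ) ^ (K : ℤ)) \ Ω) = 0 := by
    intro K
    refine KFullAux.zero_of _ (volume (ball o ((2 : ℝ) ^ (K : ℤ)))) measure_ball_lt_top.ne ?_
    intro lam hl
    have ht : 0 ≤ ∑' i : ℕ, bF (nu Ω ρ q) (n - q) q o ((K : ℤ) - i) :=
      tsum_nonneg fun i => hb0 _
    refine le_trans (measure_mono ?_) (hmk Ω ρ d hM hfin o ho K
      ((∑' i : ℕ, bF (nu Ω ρ q) (n - q) q o ((K : ℤ) - i)) + 1) lam hl (by linarith) (hsum K)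
      (by linarith))
    intro y hy
    exact ⟨hy.1, fun h => hy.2 h.1⟩
  refine measure_mono_null ?_ (measure_iUnion_null hz)
  intro y hy
  obtain ⟨K, hK⟩ := pow_unbounded_of_one_lt (dist y o) (by norm_num : (1 : ℝ) < 2)
  refine mem_iUnion.2 ⟨K, ?_, hy⟩
  rw [mem_ball, zpow_natCast]
  exact hK

end Vale.Agent.P210
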