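import Vale.Agent.P210K.Stm

open Set Filter Topology MeasureTheory Metric
open scoped ENNReal NNReal ContDiff RealInnerProductSpace

namespace Vale.Agent.P210

namespace KGlobAux

theorem uniq {X : Type} [NormedAddCommGroup X] [NormedSpace ℝ X] {f : ℝ → X → X}
    (hL : ∀ R : ℝ, ∃ K : ℝ≥0, ∀ t ∈ Icc (-R) R, LipschitzOnWith K (f t) (closedBall 0 R))
    {α β : ℝ → X} {T : ℝ} (hα : ∀ t ∈ Ioo (-T) T, HasDerivAt α (f t (α t)) t)
    (hβ : ∀ t ∈ Ioo (-T) T, HasDerivAt β (f t (β t)) t) (h0 : α 0 = β 0) :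
    EqOn α β (Ioo (-T) T) := by
  intro t ht
  have h1 : |t| < T := abs_lt.2 ht
  obtain ⟨S, hS1, hS2⟩ := exists_between h1
  have hS0 : 0 < S := (abs_nonneg t).trans_lt hS1
  have hsub : Icc (-S) S ⊆ Ioo (-T) T := Icc_subset_Ioo (by linarith) hS2
  obtain ⟨A, hA⟩ := isCompact_Icc.exists_bound_of_continuousOn
    (HasDerivAt.continuousOn fun s hs => hα s (hsub hs))
  obtain ⟨B, hB⟩ := isCompact_Icc.exists_bound_of_continuousOn
    (HasDerivAt.continuousOn fun s hs => hβ s (hsub hs))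
  obtain ⟨K, hK⟩ := hL (max S (max A B))
  have m1 : S ≤ max S (max A B) := le_max_left _ _
  have m2 : A ≤ max S (max A B) := (le_max_left _ _).trans (le_max_right _ _)
  have m3 : B ≤ max S (max A B) := (le_max_right _ _).trans (le_max_right _ _)
  refine ODE_solution_unique_of_mem_Ioo (v := f) (s := fun _ => closedBall 0 (max S (max A B)))
    (K := K) (a := -S) (b := S) (t₀ := 0) (fun s hs => hK s ⟨by linarith [hs.1], by linarith [hs.2]⟩)
    ⟨by linarith, hS0⟩ (fun s hs => ⟨hα s (hsub (Ioo_subset_Icc_self hs)), ?_⟩)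
    (fun s hs => ⟨hβ s (hsub (Ioo_subset_Icc_self hs)), ?_⟩) h0 (abs_lt.1 hS1)
  · exact mem_closedBall_zero_iff.2 ((hA s (Ioo_subset_Icc_self hs)).trans m2)
  · exact mem_closedBall_zero_iff.2 ((hB s (Ioo_subset_Icc_self hs)).trans m3)

theorem glue {X : Type} [NormedAddCommGroup X] [NormedSpace ℝ X] {f : ℝ → X → X}
    (hL : ∀ R : ℝ, ∃ K : ℝ≥0, ∀ t ∈ Icc (-R) R, LipschitzOnWith K (f t) (closedBall 0 R))
    {y : X} (h : ∀ T : ℝ, 0 < T → ∃ α : ℝ → X, α 0 = y ∧
      ∀ t ∈ Ioo (-T) T, HasDerivAt α (f t (α t)) t) :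
    ∃ α : ℝ → X, α 0 = y ∧ ∀ t, HasDerivAt α (f t (α t)) t := by
  choose a ha0 ha using fun s : ℝ => h (|s| + 1) (by positivity)
  refine ⟨fun t => a t t, ha0 0, fun t => ?_⟩
  have e : (fun s => a s s) =ᶠ[𝓝 t] a t := by
    have h1 : ∀ᶠ s in 𝓝 t, |s| < |t| + 1 :=
      continuous_abs.continuousAt.eventually_lt continuousAt_const (by linarith)
    filter_upwards [h1] with s hs
    have m1 := min_le_left (|s| + 1) (|t| + 1)
    have m2 := min_le_right (|s| + 1) (|t| + 1)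
    exact uniq hL (T := min (|s| + 1) (|t| + 1))
      (fun r hr => ha s r ⟨by linarith [hr.1], by linarith [hr.2]⟩)
      (fun r hr => ha t r ⟨by linarith [hr.1], by linarith [hr.2]⟩)
      ((ha0 s).trans (ha0 t).symm) (abs_lt.1 (lt_min (by linarith) hs))
  exact (ha t t (abs_lt.1 (by linarith))).congr_of_eventuallyEq e

end KGlobAux

theorem pkGlob (hGlob1 : Glob1S) : GlobS := by
  intro X _ _ _ f hL hc hC
  refine ⟨fun y => KGlobAux.glue hL fun T hT => ?_, fun α β hα hβ h0 => funext fun t => ?_⟩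
  · exact hGlob1 X f hL hc hC y T hT
  · exact KGlobAux.uniq hL (T := |t| + 1) (fun s _ => hα s) (fun s _ => hβ s) h0
      (abs_lt.1 (by linarith))

end Vale.Agent.P210
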