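import Vale.Agent.P210K.Stm

open Set Filter Topology MeasureTheory Metric
open scoped ENNReal NNReal ContDiff RealInnerProductSpace

namespace Vale.Agent.P210

namespace KGlob1Aux

theorem chi_lip (c a b : ℝ) : |max 0 (min 1 (c - a)) - max 0 (min 1 (c - b))| ≤ |a - b| := by
  rw [max_comm 0, max_comm 0]
  refine (abs_max_sub_max_le_abs _ _ _).trans ((abs_min_sub_min_le_max _ _ _ _).trans ?_)
  rw [sub_self, abs_zero, max_eq_right (abs_nonneg _), sub_sub_sub_cancel_left, abs_sub_comm]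

theorem apriori {X : Type} [NormedAddCommGroup X] [NormedSpace ℝ X] {α α' : ℝ → X} {C T : ℝ}
    (hC : 0 ≤ C) (h : ∀ t ∈ Icc (-T) T, HasDerivWithinAt α (α' t) (Icc (-T) T) t)
    (hb : ∀ t ∈ Icc (-T) T, ‖α' t‖ ≤ C * (1 + ‖α t‖)) {t : ℝ} (ht : t ∈ Icc 0 T) :
    ‖α t‖ ≤ gronwallBound ‖α 0‖ C C T := by
  have hs : Icc 0 T ⊆ Icc (-T) T := Icc_subset_Icc_left (by linarith [ht.1, ht.2])
  refine (norm_le_gronwallBound_of_norm_deriv_right_le (f' := α') (K := C) (ε := C)
    (fun x hx => ((h x (hs hx)).continuousWithinAt).mono hs) (fun x hx => ?_) le_rfl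
    (fun x hx => ?_) t ht).trans (gronwallBound_mono (norm_nonneg _) hC hC (by linarith [ht.2]))
  · exact (h x (hs (Ico_subset_Icc_self hx))).mono_of_mem_nhdsWithin
      (mem_of_superset (Icc_mem_nhdsGE hx.2) (Icc_subset_Icc_left (hs (Ico_subset_Icc_self hx)).1))
  · linarith [hb x (hs (Ico_subset_Icc_self hx))]

end KGlob1Aux

theorem pkGlob1 : Glob1S := by
  intro X _ _ _ f h1 h2 h3 y T hT
  obtain ⟨C0, hC0⟩ := h3 T
  obtain ⟨C, hC, hf⟩ : ∃ C : ℝ, 0 ≤ C ∧ ∀ t ∈ Icc (-T) T, ∀ z, ‖f t z‖ ≤ C * (1 + ‖z‖) :=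
    ⟨|C0|, abs_nonneg _, fun t ht z => (hC0 t ht z).trans
      (mul_le_mul_of_nonneg_right (le_abs_self _) (by positivity))⟩
  obtain ⟨R0, hR0⟩ : ∃ R0, R0 = gronwallBound ‖y‖ C C T := ⟨_, rfl⟩
  have hR : 0 ≤ R0 := by
    have := gronwallBound_mono (norm_nonneg y) hC hC hT.le
    rw [gronwallBound_x0, ← hR0] at this
    exact (norm_nonneg _).trans this
  let χ : X → ℝ := fun z => max 0 (min 1 (R0 + 1 - ‖z‖))
  have c0 : ∀ z, 0 ≤ χ z := fun z => le_max_left _ _
  have c1 : ∀ z, χ z ≤ 1 := fun z => max_le zero_le_one (min_le_left _ _)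
  have hg : ∀ t ∈ Icc (-T) T, ∀ z, ‖χ z • f t z‖ ≤ C * (1 + ‖z‖) := fun t ht z => by
    rw [norm_smul, Real.norm_of_nonneg (c0 z)]
    exact (mul_le_of_le_one_left (norm_nonneg _) (c1 z)).trans (hf t ht z)
  let L : ℝ≥0 := ⟨C * (R0 + 2), by positivity⟩
  let a : ℝ≥0 := ⟨L * T, by positivity⟩
  obtain ⟨K, hK⟩ := h1 (max T (‖y‖ + a))
  have hs : closedBall y a ⊆ closedBall 0 (max T (‖y‖ + a)) := closedBall_subset_closedBall' (by
    rw [dist_zero_right, add_comm]
    exact le_max_right _ _)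
  have hs' : Icc (-T) T ⊆ Icc (-max T (‖y‖ + a)) (max T (‖y‖ + a)) :=
    Icc_subset_Icc (neg_le_neg (le_max_left _ _)) (le_max_left _ _)
  let M : ℝ≥0 := ⟨C * (1 + max T (‖y‖ + a)), by positivity⟩
  have hP : IsPicardLindelof (fun t z => χ z • f t z) (tmin := -T) (tmax := T)
      ⟨0, by linarith, hT.le⟩ y a 0 L (M + K) := by
    refine ⟨fun t ht => LipschitzOnWith.of_dist_le_mul fun u hu v hv => ?_,
      fun z _ => ((h2 z).const_smul (χ z)).continuousOn, fun t ht z _ => ?_, ?_⟩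
    · have e : χ u • f t u - χ v • f t v = (χ u - χ v) • f t u + χ v • (f t u - f t v) := by
        module
      have k1 : |χ u - χ v| ≤ ‖u - v‖ := (KGlob1Aux.chi_lip _ _ _).trans (abs_norm_sub_norm_le u v)
      have k2 : ‖f t u‖ ≤ M := (hf t ht u).trans (mul_le_mul_of_nonneg_left
        (add_le_add_right (mem_closedBall_zero_iff.1 (hs hu)) 1) hC)
      have k3 := (hK t (hs' ht)).dist_le_mul u (hs hu) v (hs hv)
      rw [dist_eq_norm, dist_eq_norm] at k3 ⊢
      rw [e]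
      refine (norm_add_le _ _).trans ?_
      rw [norm_smul, norm_smul, Real.norm_of_nonneg (c0 v), Real.norm_eq_abs, NNReal.coe_add]
      have k4 := mul_le_mul k1 k2 (norm_nonneg _) (norm_nonneg _)
      have k5 := mul_le_of_le_one_left (norm_nonneg (f t u - f t v)) (c1 v)
      linarith
    · show _ ≤ C * (R0 + 2)
      by_cases k : ‖z‖ ≤ R0 + 1
      · exact (hg t ht z).trans (mul_le_mul_of_nonneg_left (by linarith) hC)
      · have : χ z = 0 := max_eq_left ((min_le_right _ _).trans (by linarith))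
        rw [this, zero_smul, norm_zero]
        positivity
    · show (L : ℝ) * max (T - 0) (0 - -T) ≤ L * T - 0
      simp
  obtain ⟨α, a0, hα⟩ := hP.exists_eq_forall_mem_Icc_hasDerivWithinAt₀
  have a0 : α 0 = y := a0
  refine ⟨α, a0, fun t ht => ?_⟩
  have hb : ‖α t‖ ≤ R0 := by
    rw [hR0, ← a0]
    rcases le_total 0 t with k | k
    · exact KGlob1Aux.apriori hC hα (fun s hs => hg s hs _) ⟨k, ht.2.le⟩
    · have hn : ∀ s ∈ Icc (-T) T, -s ∈ Icc (-T) T := fun s hs =>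
        ⟨neg_le_neg hs.2, by linarith [hs.1]⟩
      have := KGlob1Aux.apriori (α := fun s => α (-s))
        (α' := fun s => (-1 : ℝ) • χ (α (-s)) • f (-s) (α (-s))) hC
        (fun s hs => (hα _ (hn s hs)).scomp s (hasDerivWithinAt_neg s _) hn)
        (fun s hs => by
          rw [neg_one_smul, norm_neg]
          exact hg _ (hn s hs) _) (t := -t) ⟨by linarith, by linarith [ht.1]⟩
      simpa using this
  have e : χ (α t) = 1 := by
    simp only [χ]
    rw [min_eq_left (by linarith), max_eq_right zero_le_one]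
  have := (hα t (Ioo_subset_Icc_self ht)).hasDerivAt (Icc_mem_nhds ht.1 ht.2)
  rwa [e, one_smul] at this

end Vale.Agent.P210
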