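import Vale.Agent.P210K.Stm

open Set Filter Topology MeasureTheory Metric
open scoped ENNReal NNReal ContDiff RealInnerProductSpace

namespace Vale.Agent.P210

namespace KGlueAux

theorem exists_net (Y : Type) [PseudoMetricSpace Y] [TopologicalSpace.SeparableSpace Y] :
    ∃ P : Set Y, P.Countable ∧ (∀ p ∈ P, ∀ q ∈ P, p ≠ q → 1 / 2 ≤ dist p q) ∧
      ∀ y, ∃ p ∈ P, dist y p < 1 := by
  obtain ⟨P, -, hd, hc⟩ := Vitali.exists_disjoint_subfamily_covering_enlargement
    (fun y : Y => ball y (1 / 2 : ℝ)) univ (fun _ => (1 : ℝ)) 2 (by norm_num)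
    (fun _ _ => zero_le_one) 1 (fun _ _ => le_rfl)
    (fun a _ => ⟨a, mem_ball_self (by norm_num)⟩)
  refine ⟨P, hd.countable_of_isOpen (fun _ _ => isOpen_ball)
    (fun a _ => ⟨a, mem_ball_self (by norm_num)⟩), ?_, ?_⟩
  · intro p hp q hq hne
    by_contra hlt
    rw [not_le] at hlt
    have h1 : Disjoint (ball p (1 / 2 : ℝ)) (ball q (1 / 2 : ℝ)) := hd hp hq hne
    exact Set.disjoint_left.1 h1 (mem_ball_self (by norm_num)) (mem_ball.2 hlt)
  · intro y
    obtain ⟨p, hp, ⟨w, hw1, hw2⟩, -⟩ := hc y (mem_univ _)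
    refine ⟨p, hp, ?_⟩
    have h1 : dist w y < 1 / 2 := hw1
    have h2 : dist w p < 1 / 2 := hw2
    have h3 := dist_triangle_left y p w
    linarith

theorem encard_le {Y : Type} [PseudoMetricSpace Y] {M : ℕ} (hP : PackB (dist : Y → Y → ℝ) 4 M)
    {P : Set Y} (hs : ∀ p ∈ P, ∀ q ∈ P, p ≠ q → 1 / 2 ≤ dist p q) (y : Y) :
    ({p : P | dist (p : Y) y ≤ 4} : Set P).encard ≤ (M : ℕ∞) := by
  classical
  by_contra hlt
  rw [not_le] at hlt
  obtain ⟨T, hT, hc⟩ := Set.exists_subset_encard_eq hlt.le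
  have hfin : T.Finite := Set.finite_of_encard_eq_coe hc
  have hcard : hfin.toFinset.card = M := by
    have h1 := hfin.encard_eq_coe_toFinset_card
    rw [hc] at h1
    exact_mod_cast h1.symm
  let e : hfin.toFinset ≃ Fin M := hfin.toFinset.equivFinOfCardEq hcard
  let z : ℕ → Y := fun c => if h : c < M then ((e.symm ⟨c, h⟩ : hfin.toFinset) : P) else y
  have hz : ∀ c (h : c < M), z c = ((e.symm ⟨c, h⟩ : hfin.toFinset) : P) := fun c h => dif_pos h
  obtain ⟨c, c', hcc, hc', hd⟩ := hP y z (fun c h => by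
    rw [hz c h]
    exact hT (hfin.mem_toFinset.1 (e.symm ⟨c, h⟩).2))
  have hc0 : c < M := hcc.trans hc'
  rw [hz c hc0, hz c' hc'] at hd
  have hne : (((e.symm ⟨c', hc'⟩ : hfin.toFinset) : P) : Y) ≠
      ((e.symm ⟨c, hc0⟩ : hfin.toFinset) : P) := by
    intro h
    have h1 := e.symm.injective (Subtype.ext (Subtype.ext h))
    have h2 : c' = c := congrArg Fin.val h1
    omega
  have := hs _ ((e.symm ⟨c', hc'⟩ : hfin.toFinset) : P).2 _
    ((e.symm ⟨c, hc0⟩ : hfin.toFinset) : P).2 hne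
  linarith

end KGlueAux

theorem pkGlue : GlueS := by
  intro Y _ _ M k δ Z hk hδ hδ1 hP hC
  classical
  obtain ⟨P, hPc, hs, hn⟩ := KGlueAux.exists_net Y
  choose J hJ x t ht hsum hcov using hC
  have hle : ∀ p i, t p i ^ k ≤ δ := fun p i =>
    (ENNReal.ofReal_le_ofReal_iff hδ.le).1
      ((ENNReal.le_tsum (f := fun i => ENNReal.ofReal (t p i ^ k)) i).trans (hsum p))
  have ht1 : ∀ p i, t p i ≤ 1 := fun p i => by
    by_contra h
    rw [not_le] at h
    have h1 := one_lt_pow₀ h hk.ne'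
    have h2 := hle p i
    linarith
  have : Countable P := hPc.to_subtype
  refine ⟨Σ p : P, {i : J p // dist (x p i) p < 2}, inferInstance, fun a => x a.1 a.2,
    fun a => t a.1 a.2, fun a => ⟨ht _ _, hle _ _⟩, ?_, ?_⟩
  · intro z
    unfold WtG
    rw [ENNReal.tsum_sigma']
    have key : ∀ p : P, (∑' b : {i : J p // dist (x p i) p < 2},
        ((fun a : Σ p : P, {i : J p // dist (x p i) p < 2} => x a.1 a.2) ⁻¹' ball z (1 / 2)).indicator
          (fun a : Σ p : P, {i : J p // dist (x p i) p < 2} => ENNReal.ofReal (t a.1 a.2 ^ k))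
          ⟨p, b⟩) ≤
        ({p : P | dist (p : Y) z ≤ 4} : Set P).indicator (fun _ => ENNReal.ofReal δ) p := by
      intro p
      by_cases hp : dist (p : Y) z ≤ 4
      · rw [Set.indicator_of_mem (show p ∈ ({p : P | dist (p : Y) z ≤ 4} : Set P) from hp)]
        refine le_trans (ENNReal.tsum_le_tsum fun b => Set.indicator_le_self _ _ _) ?_
        exact (ENNReal.tsum_comp_le_tsum_of_injective Subtype.val_injective
          (fun i => ENNReal.ofReal (t p i ^ k))).trans (hsum p)
      · refine le_trans (le_of_eq ?_) bot_le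
        refine ENNReal.tsum_eq_zero.2 fun b => Set.indicator_of_notMem ?_ _
        intro hb
        apply hp
        have h1 : dist (x p b) z < 1 / 2 := hb
        have h2 := b.2
        have h3 := dist_triangle_left (p : Y) z (x p b)
        linarith
    refine (ENNReal.tsum_le_tsum key).trans ?_
    rw [← tsum_subtype, ENNReal.tsum_set_const, ENNReal.ofReal_mul (Nat.cast_nonneg M),
      ENNReal.ofReal_natCast]
    refine mul_le_mul_left ?_ _
    have h1 := KGlueAux.encard_le hP hs z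
    exact_mod_cast ENat.toENNReal_le.2 h1
  · intro z hz
    obtain ⟨p, hp, hzp⟩ := hn z
    obtain ⟨i, hi⟩ := hcov p z ⟨hz, mem_ball.2 (by linarith)⟩
    refine ⟨⟨⟨p, hp⟩, ⟨i, ?_⟩⟩, mem_ball.2 hi⟩
    have h1 := ht1 p i
    have h3 := dist_triangle_left (x p i) p z
    show dist (x p i) p < 2
    linarith

end Vale.Agent.P210
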