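import Vale.Agent.P210K.Stm

open Set Filter Topology MeasureTheory Metric
open scoped ENNReal NNReal ContDiff RealInnerProductSpace

namespace Vale.Agent.P210

namespace KGramAux

theorem dlz {N : ℕ} {a b : ℝ → W N} {a' b' : W N} {t : ℝ} (ha : HasDerivAt a a' t)
    (hb : HasDerivAt b b' t) :
    HasDerivAt (fun t => lz (a t) (b t)) (lz a' (b t) + lz (a t) b') t := by
  have a1 : HasDerivAt (fun t => (a t).1) a'.1 t :=
    (ContinuousLinearMap.fst ℝ ℝ (E N)).hasFDerivAt.comp_hasDerivAt t ha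
  have a2 : HasDerivAt (fun t => (a t).2) a'.2 t :=
    (ContinuousLinearMap.snd ℝ ℝ (E N)).hasFDerivAt.comp_hasDerivAt t ha
  have b1 : HasDerivAt (fun t => (b t).1) b'.1 t :=
    (ContinuousLinearMap.fst ℝ ℝ (E N)).hasFDerivAt.comp_hasDerivAt t hb
  have b2 : HasDerivAt (fun t => (b t).2) b'.2 t :=
    (ContinuousLinearMap.snd ℝ ℝ (E N)).hasFDerivAt.comp_hasDerivAt t hb
  refine ((a2.inner ℝ b2).sub (a1.mul b1)).congr_deriv ?_
  unfold lz
  ring

theorem ode0 {g : ℝ → ℝ} (h : ∀ t, HasDerivAt g (-2 * g t) t) (h0 : g 0 = 0) (t : ℝ) :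
    g t = 0 := by
  have h1 : ∀ t, HasDerivAt (fun t => Real.exp (2 * t) * g t) 0 t := fun t => by
    have e : HasDerivAt (fun t => Real.exp (2 * t)) (Real.exp (2 * t) * (2 * 1)) t :=
      ((hasDerivAt_id t).const_mul 2).exp
    exact (e.mul (h t)).congr_deriv (by ring)
  have h2 := is_const_of_deriv_eq_zero (fun t => (h1 t).differentiableAt)
    (fun t => (h1 t).deriv) t 0
  rw [h0, mul_zero] at h2
  exact (mul_eq_zero.1 h2).resolve_left (Real.exp_pos _).ne'

theorem cmp {f f' : ℝ → ℝ} {c : ℝ} (hf : ∀ t, HasDerivAt f (f' t) t) (h0 : f 0 = 1)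
    (h : ∀ t, 0 < f t → f' t ≤ c * f t) {t : ℝ} (ht : 0 ≤ t) : f t ≤ Real.exp (c * t) := by
  have key : ∀ ε : ℝ, 0 < ε → f t ≤ Real.exp ((c + ε) * t) := fun ε hε => by
    refine image_le_of_deriv_right_lt_deriv_boundary (a := 0) (b := t) (f' := f')
      (B := fun t => Real.exp ((c + ε) * t))
      (B' := fun t => Real.exp ((c + ε) * t) * ((c + ε) * 1))
      (fun x _ => (hf x).continuousAt.continuousWithinAt) (fun x _ => (hf x).hasDerivWithinAt)
      (by simp [h0]) (fun x => ((hasDerivAt_id x).const_mul (c + ε)).exp) (fun x _ e => ?_)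
      ⟨ht, le_rfl⟩
    have hp : 0 < f x := by rw [e]; exact Real.exp_pos _
    have := h x hp
    rw [← e]
    nlinarith
  have hc : Continuous fun ε : ℝ => Real.exp ((c + ε) * t) := by fun_prop
  have hl : Tendsto (fun ε : ℝ => Real.exp ((c + ε) * t)) (𝓝[>] 0) (𝓝 (Real.exp (c * t))) := by
    simpa using (hc.tendsto 0).mono_left nhdsWithin_le_nhds
  exact ge_of_tendsto hl (eventually_of_mem self_mem_nhdsWithin key)

end KGramAux

open KGramAux in
theorem pkGram (hDet : DetS) (hGrt : GrtS) (hMom2 : Mom2S) (hCs : CsS) : GramS := by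
  intro N k μ s A α Y hD hS h0 hV
  have h1 : ∀ (u : E N) (t : ℝ), lz (Y t ((0 : ℝ), u)) (lift (α t)) = 0 := fun u => by
    refine ode0 (fun t => ?_) ?_
    · exact (dlz (hV.2 t _) (hS t)).congr_deriv ((hMom2 N μ s A hD (α t)).2.2.2.2.1 _)
    · rw [hV.1, h0]
      simp [lz, lift]
  refine fun t ht => ⟨fun u => h1 u t, fun u hu => ?_⟩
  refine cmp (f := fun t => (gram fun i => Y t ((0 : ℝ), u i)).det)
    (fun t => hDet k (fun t => gram fun i => Y t ((0 : ℝ), u i)) (Matrix.of fun i j =>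
      lz (BB μ s (lift (α t)) (Y t ((0 : ℝ), u i))) (Y t ((0 : ℝ), u j)) +
        lz (Y t ((0 : ℝ), u i)) (BB μ s (lift (α t)) (Y t ((0 : ℝ), u j)))) t
      fun i j => dlz (hV.2 t _) (hV.2 t _)) ?_
    (fun t hp => hGrt N k μ s A (α t) _ hD (fun i => h1 (u i) t) hp) ht
  have e : (gram fun i => Y 0 ((0 : ℝ), u i)) = 1 := by
    ext i j
    rw [Matrix.one_apply, ← orthonormal_iff_ite.1 hu i j]
    simp [gram, lz, hV.1]
  simp only [e, Matrix.det_one]

end Vale.Agent.P210
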