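import Vale.Agent.P210K.Stm

open Set Filter Topology MeasureTheory Metric
open scoped ENNReal NNReal ContDiff RealInnerProductSpace

namespace Vale.Agent.P210

namespace KGrtAux

variable {N : ℕ}

lemma lz_comm (u v : W N) : lz u v = lz v u := by
  simp only [lz, real_inner_comm, mul_comm]

lemma lz_sub (u v w : W N) : lz (u - v) w = lz u w - lz v w := by
  simp only [lz, Prod.snd_sub, Prod.fst_sub, inner_sub_left]
  ring

lemma lz_smul (a : ℝ) (u w : W N) : lz (a • u) w = a * lz u w := by
  simp only [lz, Prod.smul_snd, Prod.smul_fst, real_inner_smul_left, smul_eq_mul]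
  ring

lemma int_lz {μ : Measure (W N)} {f : W N → W N} (h : Integrable f μ) (w : W N) :
    Integrable (fun ξ => lz (f ξ) w) μ :=
  (h.snd.inner_const w.2).sub (h.fst.mul_const w.1)

end KGrtAux

open KGrtAux in
theorem pkGrt (hBes : BesS) (hMom : MomS) (hPk : PkS) : GrtS := by
  intro N k μ s A y v hD hv hdet
  obtain ⟨m1, -, m3, m4, -, m6, -⟩ := hMom N μ s A hD y
  obtain ⟨b1, b2⟩ := hBes N k y v hv hdet
  have hI : ∀ i j, Integrable
      (fun ξ => (-lz (lift y) ξ) ^ (-s - 2) * lz ξ (v i) * lz ξ (v j)) μ := fun i j => by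
    have := int_lz (m3 (v i)) (v j)
    simp only [lz_smul] at this
    exact this
  have h1 : ∑ i, ∑ j, (gram v).adjugate i j * lz (N2 μ s (lift y) (v j)) (v i) ≤
      FF μ s (lift y) * (gram v).det := by
    have e : ∑ i, ∑ j, (gram v).adjugate i j * lz (N2 μ s (lift y) (v j)) (v i) =
        ∫ ξ, ∑ i, ∑ j, (gram v).adjugate i j *
          ((-lz (lift y) ξ) ^ (-s - 2) * lz ξ (v j) * lz ξ (v i)) ∂μ := by
      rw [integral_finsetSum Finset.univ fun i _ =>
        integrable_finsetSum Finset.univ fun j _ => (hI j i).const_mul ((gram v).adjugate i j)]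
      refine Finset.sum_congr rfl fun i _ => ?_
      rw [integral_finsetSum Finset.univ fun j _ => (hI j i).const_mul ((gram v).adjugate i j)]
      refine Finset.sum_congr rfl fun j _ => ?_
      rw [integral_const_mul, m6]
    rw [e, FF, ← integral_mul_const]
    refine integral_mono_ae (integrable_finsetSum _ fun i _ =>
      integrable_finsetSum _ fun j _ => (hI j i).const_mul _) (m1.mul_const _) ?_
    filter_upwards [hD.nul] with ξ hξ
    have hp : 0 < -lz (lift y) ξ := ((hPk N ξ hξ).2 y).1
    have hb := b2 ξ hξ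
    have e1 : ∑ i, ∑ j, (gram v).adjugate i j *
        ((-lz (lift y) ξ) ^ (-s - 2) * lz ξ (v j) * lz ξ (v i)) =
        (-lz (lift y) ξ) ^ (-s - 2) *
          ∑ i, ∑ j, (gram v).adjugate i j * (lz ξ (v j) * lz ξ (v i)) := by
      simp only [Finset.mul_sum]
      exact Finset.sum_congr rfl fun i _ => Finset.sum_congr rfl fun j _ => by ring
    have e2 : (-lz (lift y) ξ) ^ (-s) = (-lz (lift y) ξ) ^ (-s - 2) * (-lz (lift y) ξ) ^ 2 := by
      rw [← Real.rpow_two, ← Real.rpow_add hp]
      exact congrArg _ (by ring)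
    rw [e1, e2, mul_assoc]
    exact mul_le_mul_of_nonneg_left hb (Real.rpow_nonneg hp.le _)
  have h2 := b1 fun i => lz (mm μ s (lift y)) (v i)
  have h3 : ∑ i, ∑ j, (gram v).adjugate i j * lz (v j) (v i) = k * (gram v).det := by
    have := congrArg Matrix.trace (Matrix.adjugate_mul (gram v))
    rw [Matrix.trace_smul, Matrix.trace_one, Fintype.card_fin, smul_eq_mul, mul_comm] at this
    rw [← this]
    rfl
  have sy : ∀ i j, lz (N2 μ s (lift y) (v i)) (v j) = lz (N2 μ s (lift y) (v j)) (v i) := by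
    intro i j
    rw [m6, m6]
    exact integral_congr_ae (Eventually.of_forall fun ξ => by ring)
  have h4 : Matrix.trace ((gram v).adjugate * Matrix.of fun i j =>
      lz (BB μ s (lift y) (v i)) (v j) + lz (v i) (BB μ s (lift y) (v j))) =
      2 * ((s + 1) * (FF μ s (lift y))⁻¹) *
        ∑ i, ∑ j, (gram v).adjugate i j * lz (N2 μ s (lift y) (v j)) (v i) -
      2 * s * ∑ i, ∑ j, (gram v).adjugate i j *
        (lz (mm μ s (lift y)) (v j) * lz (mm μ s (lift y)) (v i)) -
      2 * ∑ i, ∑ j, (gram v).adjugate i j * lz (v j) (v i) := by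
    simp only [Matrix.trace, Matrix.diag, Matrix.mul_apply, Matrix.of_apply, Finset.mul_sum,
      ← Finset.sum_sub_distrib]
    refine Finset.sum_congr rfl fun i _ => Finset.sum_congr rfl fun j _ => ?_
    rw [lz_comm (v j) (BB μ s (lift y) (v i))]
    simp only [BB, lz_sub, lz_smul]
    rw [sy i j, lz_comm (v i) (v j)]
    ring
  rw [h4, h3]
  have hs := hD.pos
  have h5 : 2 * ((s + 1) * (FF μ s (lift y))⁻¹) *
      ∑ i, ∑ j, (gram v).adjugate i j * lz (N2 μ s (lift y) (v j)) (v i) ≤
      2 * (s + 1) * (gram v).det := by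
    refine (mul_le_mul_of_nonneg_left h1 (by positivity)).trans (le_of_eq ?_)
    field_simp
  nlinarith [mul_nonneg hs.le h2]

end Vale.Agent.P210
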