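import Vale.Agent.P210K.Stm

open Set Filter Topology MeasureTheory Metric
open scoped ENNReal NNReal ContDiff RealInnerProductSpace

namespace Vale.Agent.P210

namespace KHdAux

variable {N : ℕ}

theorem comm (u v : W N) : lz u v = lz v u := by
  rw [lz, lz, real_inner_comm, mul_comm]

theorem lin (p q r : W N) (a : ℝ) : lz (p + a • q) r = lz p r + a * lz q r := by
  simp only [lz, Prod.snd_add, Prod.fst_add, Prod.smul_snd, Prod.smul_fst, inner_add_left,
    real_inner_smul_left, smul_eq_mul]
  ring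

theorem perp {q : W N} (h : lz q q = -1) (p : W N) : lz (p + lz p q • q) q = 0 := by
  rw [lin, h]
  ring

theorem proj {q : W N} (h : lz q q = -1) (p r : W N) :
    lz (p + lz p q • q) (r + lz r q • q) = lz p r + lz p q * lz r q := by
  rw [comm, lin, comm q, perp h, comm r, lin, comm q r]
  ring

theorem pos (y z : E N) : 0 < -lz (lift y) (lift z) := by
  have h : ∀ y : E N, ‖y‖ < Real.sqrt (1 + ‖y‖ ^ 2) := fun y =>
    Real.lt_sqrt_of_sq_lt (by linarith)
  have := mul_lt_mul'' (h y) (h z) (norm_nonneg _) (norm_nonneg _)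
  have := real_inner_le_norm y z
  simp only [lz, lift]
  linarith

end KHdAux

theorem pkHd (hCs : CsS) : HdS := by
  intro N
  have h1 : ∀ y z : E N, 1 ≤ -lz (lift y) (lift z) := fun y z => by
    have a := (hCs N z).2.1 _ (KHdAux.perp (hCs N z).1 (lift y))
    rw [KHdAux.proj (hCs N z).1, (hCs N y).1] at a
    nlinarith [KHdAux.pos y z]
  refine ⟨h1, fun y => by rw [hd, (hCs N y).1, neg_neg, Real.arcosh_zero],
    fun y z => by rw [hd, hd, KHdAux.comm], fun y z => Real.arcosh_nonneg (h1 y z),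
    fun x y z => ?_, Real.continuousOn_arcosh.comp_continuous ?_ fun z => h1 z.1 z.2⟩
  · have hq := (hCs N y).1
    have a := (hCs N y).2.2.2.1 _ _ (KHdAux.perp hq (lift x)) (KHdAux.perp hq (lift z))
    rw [KHdAux.proj hq, KHdAux.proj hq, KHdAux.proj hq, (hCs N x).1, (hCs N z).1,
      KHdAux.comm (lift z)] at a
    have b1 := h1 x y
    have b2 := h1 y z
    rw [← Real.arcosh_cosh (add_nonneg (Real.arcosh_nonneg b1) (Real.arcosh_nonneg b2) :
      0 ≤ hd x y + hd y z), hd, Real.arcosh_le_arcosh (KHdAux.pos x z) (Real.cosh_pos _),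
      Real.cosh_add, hd, hd, Real.cosh_arcosh b1, Real.cosh_arcosh b2, Real.sinh_arcosh b1,
      Real.sinh_arcosh b2, ← Real.sqrt_mul (by nlinarith)]
    have c := Real.neg_sqrt_le_of_sq_le (a.trans_eq (show _ = ((-lz (lift x) (lift y)) ^ 2 - 1) *
      ((-lz (lift y) (lift z)) ^ 2 - 1) by ring))
    linarith
  · simp only [lz, lift]
    fun_prop

end Vale.Agent.P210
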