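import Vale.Agent.P210K.Stm

open Set Filter Topology MeasureTheory Metric
open scoped ENNReal NNReal ContDiff RealInnerProductSpace

namespace Vale.Agent.P210

namespace KHd2Aux

theorem cosh_ge {d : ℝ} (hd : 0 ≤ d) : d ^ 2 ≤ 2 * Real.cosh d - 2 := by
  have h1 : Real.cosh d = Real.cosh (d / 2) ^ 2 + Real.sinh (d / 2) ^ 2 := by
    rw [← Real.cosh_two_mul]
    congr 1
    ring
  have h2 : d / 2 ≤ Real.sinh (d / 2) := Real.self_le_sinh_iff.2 (by linarith)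
  rw [Real.cosh_sq] at h1
  nlinarith

theorem sinh_le {d : ℝ} (h0 : 0 ≤ d) (h1 : d ≤ 1) : Real.sinh d ≤ 2 * d := by
  have h2 := (abs_le.1 (Real.abs_exp_sub_one_sub_id_le (x := d) (by rwa [abs_of_nonneg h0]))).2
  have h3 := Real.add_one_le_exp (-d)
  rw [Real.sinh_eq]
  nlinarith

theorem sqrt_lip (a b : ℝ) : |Real.sqrt (1 + a ^ 2) - Real.sqrt (1 + b ^ 2)| ≤ |a - b| := by
  have h1 : Real.sqrt (1 + a ^ 2) ^ 2 = 1 + a ^ 2 := Real.sq_sqrt (by positivity)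
  have h2 : Real.sqrt (1 + b ^ 2) ^ 2 = 1 + b ^ 2 := Real.sq_sqrt (by positivity)
  have h3 : 1 + a * b ≤ Real.sqrt (1 + a ^ 2) * Real.sqrt (1 + b ^ 2) := by
    rw [← Real.sqrt_mul (by positivity)]
    exact Real.le_sqrt_of_sq_le (by nlinarith [sq_nonneg (a - b)])
  exact sq_le_sq.1 (by nlinarith)

variable {N : ℕ}

theorem lz_sub (y z : E N) : lz (lift y - lift z) (lift y - lift z) =
    ‖y - z‖ ^ 2 - (Real.sqrt (1 + ‖y‖ ^ 2) - Real.sqrt (1 + ‖z‖ ^ 2)) ^ 2 := by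
  simp only [lz, lift, Prod.fst_sub, Prod.snd_sub, real_inner_self_eq_norm_sq]
  ring

theorem lz_sub' (y z : E N) : lz (lift y - lift z) (lift y - lift z) =
    2 * -lz (lift y) (lift z) - 2 := by
  have h1 : Real.sqrt (1 + ‖y‖ ^ 2) ^ 2 = 1 + ‖y‖ ^ 2 := Real.sq_sqrt (by positivity)
  have h2 : Real.sqrt (1 + ‖z‖ ^ 2) ^ 2 = 1 + ‖z‖ ^ 2 := Real.sq_sqrt (by positivity)
  rw [lz_sub, norm_sub_sq_real]
  simp only [lz, lift]
  nlinarith

theorem sinh_hd (y : E N) : Real.sinh (hd y 0) = ‖y‖ := by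
  have h1 : -lz (lift y) (lift (0 : E N)) = Real.sqrt (1 + ‖y‖ ^ 2) := by simp [lz, lift]
  rw [hd, h1, Real.sinh_arcosh (Real.le_sqrt_of_sq_le (by nlinarith [sq_nonneg ‖y‖])),
    Real.sq_sqrt (by positivity), add_sub_cancel_left, Real.sqrt_sq (norm_nonneg _)]

end KHd2Aux

open KHd2Aux

theorem pkHd2 (hCs : CsS) (hHd : HdS) : Hd2S := by
  intro N
  obtain ⟨h1, -, -, h4, -, -⟩ := hHd N
  have a1 : ∀ y z : E N, hd y z ≤ Real.sqrt (lz (lift y - lift z) (lift y - lift z)) := by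
    intro y z
    refine Real.le_sqrt_of_sq_le ?_
    have h := cosh_ge (h4 y z)
    rw [lz_sub']
    rwa [show Real.cosh (hd y z) = -lz (lift y) (lift z) from Real.cosh_arcosh (h1 y z)] at h
  refine ⟨a1, fun y z => (a1 y z).trans ?_, fun y => ?_, fun y hy => ?_, fun y z => ⟨?_, ?_⟩,
    fun y => ?_⟩
  · rw [lz_sub]
    exact Real.sqrt_le_iff.2 ⟨norm_nonneg _, sub_le_self _ (sq_nonneg _)⟩
  · rw [← sinh_hd y, Real.sinh_eq]
    linarith [Real.exp_pos (hd y 0), Real.exp_pos (-hd y 0)]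
  · rw [← sinh_hd y]
    exact sinh_le (h4 y 0) hy
  · rw [Prod.norm_def]
    exact max_le ((sqrt_lip ‖y‖ ‖z‖).trans (abs_norm_sub_norm_le y z)) le_rfl
  · exact norm_snd_le (lift y - lift z)
  · have b1 : 1 ≤ Real.sqrt (1 + ‖y‖ ^ 2) := Real.le_sqrt_of_sq_le (by nlinarith [sq_nonneg ‖y‖])
    have b2 : Real.sqrt (1 + ‖y‖ ^ 2) ≤ 1 + ‖y‖ ^ 2 :=
      Real.sqrt_le_iff.2 ⟨by positivity, by nlinarith [sq_nonneg ‖y‖, sq_nonneg (‖y‖ ^ 2)]⟩
    have e : lift y - lift 0 - ((0 : ℝ), y) = (Real.sqrt (1 + ‖y‖ ^ 2) - 1, 0) := by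
      simp [lift]
    rw [e, Prod.norm_def]
    refine max_le ?_ (by simp)
    rw [Real.norm_of_nonneg (by linarith)]
    linarith

end Vale.Agent.P210
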