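import Vale.Agent.P210K.Stm

open Set Filter Topology MeasureTheory Metric
open scoped ENNReal NNReal ContDiff RealInnerProductSpace

namespace Vale.Agent.P210

namespace KInvdAux

theorem small (R r ε : ℝ) (hR : 0 < R) (hε : 0 < ε) :
    ∃ e > 0, (R + e) * (r / R + e) ≤ r + ε := by
  have hc : Continuous (fun e : ℝ => (R + e) * (r / R + e)) := by fun_prop
  have h0 : (fun e : ℝ => (R + e) * (r / R + e)) 0 < r + ε := by
    have : R * (r / R) = r := by field_simp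
    simp only [add_zero]
    linarith
  have h1 : ∀ᶠ e in 𝓝 (0 : ℝ), (fun e : ℝ => (R + e) * (r / R + e)) e < r + ε :=
    hc.continuousAt.eventually_lt continuousAt_const h0
  have h2 : ∀ᶠ e in 𝓝[>] (0 : ℝ), (fun e : ℝ => (R + e) * (r / R + e)) e < r + ε :=
    h1.filter_mono nhdsWithin_le_nhds
  obtain ⟨e, he, he0⟩ := (h2.and self_mem_nhdsWithin).exists
  exact ⟨e, he0, he.le⟩

theorem ug {n : ℕ} (Ω : Set (E n)) (ρ : E n → ℝ) (φ : E n → E n) (g : E n → ℝ)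
    (hop : IsOpen Ω) (hpos : ∀ x ∈ Ω, 0 < ρ x) (hφ : Iso Ω ρ φ) (hg : UG Ω ρ g) :
    UG Ω ρ (fun y => g (φ y)) := by
  intro y hy ε hε
  have hφy : φ y ∈ Ω := hφ.bij.mapsTo hy
  have hR : 0 < ρ (φ y) := hpos _ hφy
  obtain ⟨e, he, hle⟩ := small (ρ (φ y)) (ρ y) ε hR hε
  have hd : DifferentiableAt ℝ φ y :=
    (hφ.smooth.contDiffAt (hop.mem_nhds hy)).differentiableAt (by simp)
  have h1 : ∀ᶠ z in 𝓝 y, |g (φ z) - g (φ y)| ≤ (ρ (φ y) + e) * ‖φ z - φ y‖ :=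
    hd.continuousAt.tendsto.eventually (hg _ hφy e he)
  have h2 : ∀ᶠ z in 𝓝 y, ‖φ z - φ y - fderiv ℝ φ y (z - y)‖ ≤ e * ‖z - y‖ :=
    hd.hasFDerivAt.isLittleO.def he
  filter_upwards [h1, h2] with z hz1 hz2
  have h3 : ‖fderiv ℝ φ y (z - y)‖ = ρ y / ρ (φ y) * ‖z - y‖ := by
    have := hφ.conf y hy (z - y)
    field_simp
    linarith
  have h4 : ‖φ z - φ y‖ ≤ (ρ y / ρ (φ y) + e) * ‖z - y‖ := by
    have h5 : ‖φ z - φ y‖ ≤ ‖φ z - φ y - fderiv ℝ φ y (z - y)‖ + ‖fderiv ℝ φ y (z - y)‖ := by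
      have := norm_add_le (φ z - φ y - fderiv ℝ φ y (z - y)) (fderiv ℝ φ y (z - y))
      rwa [sub_add_cancel] at this
    rw [add_mul]
    linarith
  calc |g (φ z) - g (φ y)| ≤ (ρ (φ y) + e) * ‖φ z - φ y‖ := hz1
    _ ≤ (ρ (φ y) + e) * ((ρ y / ρ (φ y) + e) * ‖z - y‖) :=
        mul_le_mul_of_nonneg_left h4 (by linarith)
    _ = (ρ (φ y) + e) * (ρ y / ρ (φ y) + e) * ‖z - y‖ := by ring
    _ ≤ (ρ y + ε) * ‖z - y‖ := mul_le_mul_of_nonneg_right hle (norm_nonneg _)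

end KInvdAux

theorem pkInvd (hLoc : LocS) : InvdS := by
  intro n Ω ρ d φ hM hφ x hx y hy
  have hφx : φ x ∈ Ω := hφ.bij.mapsTo hx
  have h1 : UG Ω ρ (d (φ x)) := (hLoc n Ω ρ d hM).2.2.1 _ hφx
  have h2 := hM.lb _ (KInvdAux.ug Ω ρ φ (d (φ x)) hM.op hM.pos hφ h1) x hx y hy
  simp only [hM.self, sub_zero] at h2
  exact h2

end Vale.Agent.P210
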