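import Vale.Agent.P210K.Stm

open Set Filter Topology MeasureTheory Metric
open scoped ENNReal NNReal ContDiff RealInnerProductSpace

namespace Vale.Agent.P210

namespace KInvmAux

theorem det_conf {n : ℕ} (L : E n →L[ℝ] E n) {a b : ℝ} (ha : 0 < a) (hb : 0 < b)
    (h : ∀ v, a * ‖L v‖ = b * ‖v‖) : |L.det| * a ^ n = b ^ n := by
  let f : E n →ₗᵢ[ℝ] E n :=
    ⟨(a / b) • (L : E n →ₗ[ℝ] E n), fun v => by
      rw [LinearMap.smul_apply, norm_smul, Real.norm_of_nonneg (by positivity),
        ContinuousLinearMap.coe_coe, div_mul_eq_mul_div, h v, mul_div_cancel_left₀ _ hb.ne']⟩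
  have h1 : ((a / b) • (L : E n →ₗ[ℝ] E n)).normDet = 1 := f.normDet_eq_one
  rw [LinearMap.normDet_smul, LinearMap.normDet_eq_abs_det, finrank_euclideanSpace_fin,
    Real.norm_of_nonneg (by positivity), div_pow, div_mul_eq_mul_div,
    div_eq_one_iff_eq (by positivity)] at h1
  rw [← h1, mul_comm]

end KInvmAux

open KInvmAux in
theorem pkInvm : InvmS := by
  intro n Ω ρ φ hΩ hρ hpos h
  have hm := hΩ.measurableSet
  have hφ : AEMeasurable φ (volume.restrict Ω) := h.smooth.continuousOn.aemeasurable hm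
  have hg : AEMeasurable (fun y => ENNReal.ofReal (ρ y ^ (n : ℝ))) (volume.restrict Ω) := by
    simp only [Real.rpow_natCast]
    exact ENNReal.measurable_ofReal.comp_aemeasurable ((hρ.pow n).aemeasurable hm)
  have hd : ∀ x ∈ Ω, HasFDerivWithinAt φ (fderiv ℝ φ x) Ω x := fun x hx =>
    ((h.smooth.differentiableOn (by simp)).differentiableAt
      (hΩ.mem_nhds hx)).hasFDerivAt.hasFDerivWithinAt
  refine Measure.ext_of_lintegral _ fun f hf => ?_
  unfold nu
  rw [lintegral_map' hf.aemeasurable (hφ.mono_ac (withDensity_absolutelyContinuous _ _)),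
    lintegral_withDensity_eq_lintegral_mul₀ hg (g := fun x => f (φ x)) (hf.comp_aemeasurable hφ),
    lintegral_withDensity_eq_lintegral_mul₀ hg hf.aemeasurable]
  have e := lintegral_image_eq_lintegral_abs_det_fderiv_mul volume hm hd h.bij.injOn
    ((fun y => ENNReal.ofReal (ρ y ^ (n : ℝ))) * f)
  rw [h.bij.image_eq] at e
  rw [e]
  refine setLIntegral_congr_fun hm fun x hx => ?_
  simp only [Pi.mul_apply, Real.rpow_natCast]
  rw [← mul_assoc, ← ENNReal.ofReal_mul (abs_nonneg _),
    det_conf _ (hpos _ (h.bij.mapsTo hx)) (hpos x hx) (h.conf x hx)]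

end Vale.Agent.P210
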