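import Vale.Agent.P210K.Stm

open Set Filter Topology MeasureTheory Metric
open scoped ENNReal NNReal ContDiff RealInnerProductSpace

namespace Vale.Agent.P210

namespace KIterGAux

open Classical in
theorem card_succ (p : ℕ → Prop) (c : ℕ) :
    ((Finset.range (c + 1)).filter p).card =
      if p c then ((Finset.range c).filter p).card + 1 else ((Finset.range c).filter p).card := by
  rw [Finset.range_add_one, Finset.filter_insert]
  by_cases h : p c
  · rw [if_pos h, if_pos h, Finset.card_insert_of_notMem]
    simp
  · rw [if_neg h, if_neg h]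

open Classical in
theorem ind (hStep : StepGS) (Y : Type) [PseudoMetricSpace Y] (ε : ℝ) (I : Type)
    (hI : Countable I) (x : I → Y) (t : I → ℝ) (wt : I → ℝ≥0∞) (Z : ℕ → Set Y) (h0 : 0 < ε)
    (ht : ∀ i, 0 < t i ∧ t i ≤ ε / 10) (hZ : ∀ c, (Z c).PairwiseDisjoint (fun z => ball z ε))
    (c : ℕ) :
    ∃ r : ℕ → Y → ℝ, (∀ c' < c, ∀ z, ε / 4 ≤ r c' z ∧ r c' z ≤ ε / 2) ∧ ∀ (z : Y) (u : ℝ),
      WtG x (fun i => wt i * ENNReal.ofReal (1 / t i) ^
        ((Finset.range c).filter (fun c' => HitG (Z c') (r c') x t i)).card) (ball z u) ≤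
        ENNReal.ofReal (1 + 16 / ε) ^ c * WtG x wt (ball z (u + 4 * ε * c)) := by
  induction c with
  | zero =>
    refine ⟨fun _ _ => 0, fun c' hc' => absurd hc' (Nat.not_lt_zero _), fun z u => ?_⟩
    simp
  | succ c ih =>
    obtain ⟨r, hr, hw⟩ := ih
    obtain ⟨r0, hr0, hs⟩ := hStep Y ε I hI x t
      (fun i => wt i * ENNReal.ofReal (1 / t i) ^
        ((Finset.range c).filter (fun c' => HitG (Z c') (r c') x t i)).card) (Z c) h0 ht (hZ c)
    refine ⟨Function.update r c r0, fun c' hc' => ?_, fun z u => ?_⟩
    · rcases Nat.lt_succ_iff_lt_or_eq.mp hc' with h | h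
      · rw [Function.update_of_ne h.ne]
        exact hr c' h
      · subst h
        rw [Function.update_self]
        exact hr0
    · have e1 : (fun i => wt i * ENNReal.ofReal (1 / t i) ^
          ((Finset.range (c + 1)).filter
            (fun c' => HitG (Z c') (Function.update r c r0 c') x t i)).card) =
          (fun i => if HitG (Z c) r0 x t i then
            (wt i * ENNReal.ofReal (1 / t i) ^
              ((Finset.range c).filter (fun c' => HitG (Z c') (r c') x t i)).card) *
              ENNReal.ofReal (1 / t i)
            else wt i * ENNReal.ofReal (1 / t i) ^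
              ((Finset.range c).filter (fun c' => HitG (Z c') (r c') x t i)).card) := by
        funext i
        have e2 : (Finset.range c).filter
            (fun c' => HitG (Z c') (Function.update r c r0 c') x t i) =
            (Finset.range c).filter (fun c' => HitG (Z c') (r c') x t i) := by
          apply Finset.filter_congr
          intro c' hc'
          rw [Function.update_of_ne (Finset.mem_range.mp hc').ne]
        rw [card_succ (fun c' => HitG (Z c') (Function.update r c r0 c') x t i) c, e2]
        simp only [Function.update_self]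
        by_cases h : HitG (Z c) r0 x t i
        · rw [if_pos h, if_pos h, pow_succ, mul_assoc]
        · rw [if_neg h, if_neg h]
      rw [e1]
      refine (hs z u).trans ?_
      have h2 := hw z (u + 4 * ε)
      have e3 : u + 4 * ε + 4 * ε * c = u + 4 * ε * ((c + 1 : ℕ) : ℝ) := by push_cast; ring
      rw [e3] at h2
      rw [pow_succ', mul_assoc]
      exact mul_le_mul_right h2 _

end KIterGAux

theorem pkIterG (hStepG : StepGS) : IterGS := by
  intro Y _ M ε I hI x t wt Z h0 hM ht hZ
  obtain ⟨r, hr, hw⟩ := KIterGAux.ind hStepG Y ε I hI x t wt Z h0 ht hZ M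
  refine ⟨r, hr, fun i => ?_⟩
  have h2 := hw (x i) (1 / 2 - 4 * ε * M)
  rw [sub_add_cancel] at h2
  refine le_trans ?_ h2
  unfold WtG
  refine le_trans ?_ (ENNReal.le_tsum i)
  rw [Set.indicator_of_mem]
  exact mem_ball_self (sub_pos.2 hM)

end Vale.Agent.P210
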