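import Vale.Agent.P210K.Stm

open Set Filter Topology MeasureTheory Metric
open scoped ENNReal NNReal ContDiff RealInnerProductSpace

namespace Vale.Agent.P210

namespace KLaAux

variable {N n : ℕ}

theorem lz_comm (u v : W N) : lz u v = lz v u := by
  unfold lz
  rw [real_inner_comm]
  ring

theorem lz_add (u v w : W N) : lz u (v + w) = lz u v + lz u w := by
  unfold lz
  simp only [Prod.fst_add, Prod.snd_add, inner_add_right]
  ring

theorem lz_smul (u v : W N) (c : ℝ) : lz u (c • v) = c * lz u v := by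
  unfold lz
  simp only [Prod.smul_fst, Prod.smul_snd, inner_smul_right, smul_eq_mul]
  ring

theorem lz_zero (u : W N) : lz u 0 = 0 := by
  unfold lz
  simp

theorem lz_sub (u v w : W N) : lz u (v - w) = lz u v - lz u w := by
  unfold lz
  simp only [Prod.fst_sub, Prod.snd_sub, inner_sub_right]
  ring

theorem lz_sum (u : W N) (g : Fin n → ℝ) (v : Fin n → W N) :
    lz u (∑ i, g i • v i) = ∑ i, g i * lz u (v i) := by
  classical
  induction (Finset.univ : Finset (Fin n)) using Finset.induction_on with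
  | empty => simp [lz_zero]
  | insert a s ha ih => rw [Finset.sum_insert ha, Finset.sum_insert ha, lz_add, lz_smul, ih]

def fam (S θ : W N) (S₁ : Fin n → W N) : Option (Option (Fin n)) → W N
  | none => S
  | some none => θ
  | some (some k) => S₁ k

theorem sum_fam (S θ : W N) (S₁ : Fin n → W N) (g : Option (Option (Fin n)) → ℝ) :
    ∑ i, g i • fam S θ S₁ i =
      g none • S + (g (some none) • θ + ∑ k, g (some (some k)) • S₁ k) := by
  rw [Fintype.sum_option, Fintype.sum_option]
  rfl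

theorem coef (S θ : W N) (S₁ : Fin n → W N) (h0 : lz S S = 0) (h1 : ∀ i, lz S (S₁ i) = 0)
    (h2 : ∀ i j, lz (S₁ i) (S₁ j) = if i = j then 1 else 0) (h3 : lz S θ = -1)
    (h4 : ∀ k, lz θ (S₁ k) = 0) (a b : ℝ) (g : Fin n → ℝ) (w : W N)
    (hw : a • S + (b • θ + ∑ k, g k • S₁ k) = w) (hS : lz S w = 0)
    (hk : ∀ k, lz w (S₁ k) = 0) : b = 0 ∧ ∀ k, g k = 0 := by
  constructor
  · rw [← hw, lz_add, lz_add, lz_smul, lz_smul, lz_sum, h0, h3] at hS
    simp only [h1, mul_zero, Finset.sum_const_zero] at hS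
    linarith
  · intro k
    have h := hk k
    rw [lz_comm, ← hw, lz_add, lz_add, lz_smul, lz_smul, lz_sum, lz_comm _ S, h1,
      lz_comm _ θ, h4] at h
    simp only [h2, mul_ite, mul_one, mul_zero, Finset.sum_ite_eq, Finset.mem_univ, if_true] at h
    linarith

theorem mult (S θ : W (n + 1)) (S₁ : Fin n → W (n + 1)) (h0 : lz S S = 0)
    (h1 : ∀ i, lz S (S₁ i) = 0)
    (h2 : ∀ i j, lz (S₁ i) (S₁ j) = if i = j then 1 else 0) (h3 : lz S θ = -1)
    (h4 : ∀ k, lz θ (S₁ k) = 0) (w : W (n + 1)) (hS : lz S w = 0)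
    (hk : ∀ k, lz w (S₁ k) = 0) : ∃ a : ℝ, w = a • S := by
  have hli : LinearIndependent ℝ (fam S θ S₁) := by
    rw [Fintype.linearIndependent_iff]
    intro g hg
    rw [sum_fam] at hg
    obtain ⟨hb, hgk⟩ := coef S θ S₁ h0 h1 h2 h3 h4 _ _ _ 0 hg (lz_zero _)
      (fun k => by rw [lz_comm, lz_zero])
    have ha : g none = 0 := by
      have h5 : lz θ (g none • S + (g (some none) • θ + ∑ k, g (some (some k)) • S₁ k)) = 0 := by
        rw [hg, lz_zero]
      rw [lz_add, lz_add, lz_smul, lz_smul, lz_sum, lz_comm θ S, h3, hb] at h5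
      simp only [h4, mul_zero, Finset.sum_const_zero] at h5
      linarith
    rintro (_ | _ | k)
    · exact ha
    · exact hb
    · exact hgk k
  have hsp : Submodule.span ℝ (range (fam S θ S₁)) = ⊤ := by
    apply hli.span_eq_top_of_card_eq_finrank
    rw [Module.finrank_prod, finrank_euclideanSpace_fin, Module.finrank_self]
    simp only [Fintype.card_option, Fintype.card_fin]
    ring
  have hw : w ∈ Submodule.span ℝ (range (fam S θ S₁)) := by rw [hsp]; trivial
  obtain ⟨g, hg⟩ := (Submodule.mem_span_range_iff_exists_fun ℝ).1 hw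
  rw [sum_fam] at hg
  obtain ⟨hb, hgk⟩ := coef S θ S₁ h0 h1 h2 h3 h4 _ _ _ w hg hS hk
  refine ⟨g none, ?_⟩
  rw [← hg, hb]
  simp [hgk]

theorem third (hn : 3 ≤ n) (k l : Fin n) : ∃ i : Fin n, i ≠ k ∧ i ≠ l := by
  by_contra hc
  push Not at hc
  have h1 : (Finset.univ : Finset (Fin n)) ⊆ {k, l} := by
    intro i _
    by_cases h : i = k
    · simp [h]
    · simp [hc i h]
  have h2 := Finset.card_le_card h1
  have h3 : ({k, l} : Finset (Fin n)).card ≤ 2 := Finset.card_le_two
  rw [Finset.card_univ, Fintype.card_fin] at h2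
  omega

end KLaAux

open KLaAux in
theorem pkLa : LaS := by
  intro n S S₁ S₂ hn h0 h1 h2 h3 h4 h5
  let i0 : Fin n := ⟨0, by omega⟩
  have hθ : lz S (S₂ i0 i0) = -1 := by rw [h3, if_pos rfl]
  have hm : ∀ i j, ∃ a : ℝ, S₂ i j - (if i = j then (1 : ℝ) else 0) • S₂ i0 i0 = a • S := by
    intro i j
    apply mult S (S₂ i0 i0) S₁ h0 h1 h2 hθ (h4 i0 i0)
    · rw [lz_sub, lz_smul, hθ, h3]
      split_ifs <;> ring
    · intro k
      rw [lz_comm, lz_sub, lz_smul, lz_comm _ (S₂ i j), lz_comm _ (S₂ i0 i0), h4, h4]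
      ring
  choose h hh using hm
  have he : ∀ i j, S₂ i j = (if i = j then (1 : ℝ) else 0) • S₂ i0 i0 + h i j • S := by
    intro i j
    rw [← hh]
    abel
  have hp : ∀ i j k l, lz (S₂ i j) (S₂ k l) =
      (if i = j then (1 : ℝ) else 0) * (if k = l then (1 : ℝ) else 0) *
        lz (S₂ i0 i0) (S₂ i0 i0) - (if i = j then (1 : ℝ) else 0) * h k l -
        h i j * (if k = l then (1 : ℝ) else 0) := by
    intro i j k l
    have e1 : lz (S₂ i j) (S₂ i0 i0) =
        (if i = j then (1 : ℝ) else 0) * lz (S₂ i0 i0) (S₂ i0 i0) - h i j := by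
      rw [lz_comm, he i j, lz_add, lz_smul, lz_smul, lz_comm _ S, hθ]
      ring
    have e2 : lz (S₂ i j) S = -(if i = j then (1 : ℝ) else 0) := by
      rw [lz_comm, h3]
      split_ifs <;> ring
    rw [he k l, lz_add, lz_smul, lz_smul, e1, e2]
    ring
  have h00 : h i0 i0 = 0 := by
    have e := hh i0 i0
    rw [if_pos rfl, one_smul, sub_self] at e
    have e' : lz (S₂ i0 i0) (h i0 i0 • S) = 0 := by rw [← e, lz_zero]
    rw [lz_smul, lz_comm, hθ] at e'
    linarith
  have hd : ∀ i k, i ≠ k → h i i + h k k = lz (S₂ i0 i0) (S₂ i0 i0) := by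
    intro i k hik
    have e := h5 i i k k
    rw [hp i i k k, hp i k k i] at e
    simp only [if_true, if_neg hik, if_neg hik.symm] at e
    linarith
  have hd2 : ∀ i, 2 * h i i = lz (S₂ i0 i0) (S₂ i0 i0) := by
    intro i
    obtain ⟨k, hk, -⟩ := third hn i i
    obtain ⟨l, hl, hl'⟩ := third hn i k
    have a1 := hd k i hk
    have a2 := hd l i hl
    have a3 := hd l k hl'
    linarith
  have hc : lz (S₂ i0 i0) (S₂ i0 i0) = 0 := by rw [← hd2 i0, h00, mul_zero]
  have hz : ∀ k l, h k l = 0 := by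
    intro k l
    by_cases hkl : k = l
    · subst hkl
      have := hd2 k
      linarith
    · obtain ⟨i, hi, hi'⟩ := third hn k l
      have e := h5 i i k l
      rw [hp i i k l, hp i l k i] at e
      simp only [if_true, if_neg hkl, if_neg hi', if_neg hi.symm] at e
      linarith
  refine ⟨S₂ i0 i0, fun i j => ?_⟩
  rw [he i j, hz]
  split_ifs <;> simp

end Vale.Agent.P210
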