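import Vale.Agent.P210K.Stm

open Set Filter Topology MeasureTheory Metric
open scoped ENNReal NNReal ContDiff RealInnerProductSpace

namespace Vale.Agent.P210

namespace KLabelGAux

theorem uniq {Y : Type} [PseudoMetricSpace Y] {ε : ℝ} {Z : Set Y}
    (h : Z.PairwiseDisjoint fun z => ball z ε) (x : Y) :
    ∃ w, ∀ z ∈ Z, x ∈ ball z ε → z = w := by
  by_cases h1 : ∃ w ∈ Z, x ∈ ball w ε
  · obtain ⟨w, hw, hx⟩ := h1
    refine ⟨w, fun z hz hz' => ?_⟩
    by_contra hne
    exact Set.disjoint_left.1 (h hz hw hne) hz' hx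
  · exact ⟨x, fun z hz hz' => (h1 ⟨z, hz, hz'⟩).elim⟩

end KLabelGAux

theorem pkLabelG : LabelGS := by
  classical
  intro Y _ M k ε I x t Z r e0 e1 ht hZ hc hr hm
  have key : ∀ y, ∃ w, ∃ c < M, w ∈ Z c ∧ dist y w < r c w ∧
      ∀ c' < c, ∀ z ∈ Z c', ¬ dist y z < r c' z := fun y => by
    have h1 : ∃ c, c < M ∧ ∃ z ∈ Z c, dist y z < r c z := by
      obtain ⟨c, c1, z, hz, hy⟩ := hc y
      exact ⟨c, c1, z, hz, (mem_ball.1 hy).trans_le (hr c c1 z).1⟩
    obtain ⟨c1, w, hw, hy⟩ := Nat.find_spec h1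
    exact ⟨w, _, c1, hw, hy, fun c' hc' z hz hz' =>
      Nat.find_min h1 hc' ⟨hc'.trans c1, z, hz, hz'⟩⟩
  choose l hl using key
  refine ⟨l, fun y => ?_, fun i => ?_⟩
  · obtain ⟨c, c1, -, hy, -⟩ := hl y
    have h1 := (hr c c1 (l y)).2
    rw [dist_comm] at hy
    linarith
  · obtain ⟨t0, t1⟩ := ht i
    choose ζ hζ using fun c => KLabelGAux.uniq (hZ c) (x i)
    have h0 : ∃ c, M ≤ c ∨ ∃ z ∈ Z c, dist (x i) z + t i ≤ r c z := ⟨M, Or.inl le_rfl⟩
    refine ⟨(insert (Nat.find h0)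
      ((Finset.range M).filter fun c => HitG (Z c) (r c) x t i)).image ζ,
      Finset.card_image_le.trans ((Finset.card_insert_le _ _).trans (hm i)), fun y hy => ?_⟩
    have hy' := mem_ball.1 hy
    obtain ⟨c, c1, hw, hyw, hmin⟩ := hl y
    have h1 := dist_triangle_left (x i) (l y) y
    have h2 := (hr c c1 (l y)).2
    have h6 : l y = ζ c := hζ c _ hw (mem_ball.2 (by linarith))
    refine Finset.mem_image.2 ⟨c, ?_, h6.symm⟩
    rcases lt_trichotomy c (Nat.find h0) with h | h | h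
    · refine Finset.mem_insert_of_mem (Finset.mem_filter.2 ⟨Finset.mem_range.2 c1, l y, hw, ?_⟩)
      have h7 : r c (l y) < dist (x i) (l y) + t i :=
        not_le.1 fun h8 => Nat.find_min h0 h (Or.inr ⟨_, hw, h8⟩)
      exact abs_le.2 ⟨by linarith, by linarith⟩
    · exact h ▸ Finset.mem_insert_self _ _
    · rcases Nat.find_spec h0 with h7 | ⟨z, hz, h7⟩
      · omega
      · refine (hmin _ h z hz ?_).elim
        have h8 := dist_triangle y (x i) z
        linarith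

end Vale.Agent.P210
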