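import Vale.Agent.P210K.Stm

open Set Filter Topology MeasureTheory Metric
open scoped ENNReal NNReal ContDiff RealInnerProductSpace

namespace Vale.Agent.P210

namespace KLbAux

theorem lz_comm {N : ℕ} (u v : W N) : lz u v = lz v u := by
  rw [lz, lz, real_inner_comm, mul_comm]

theorem prod {n N : ℕ} {Ω : Set (E n)} (ho : IsOpen Ω) {f g : E n → W N}
    (hf : ContDiffOn ℝ ∞ f Ω) (hg : ContDiffOn ℝ ∞ g Ω) {c : ℝ}
    (h : ∀ y ∈ Ω, lz (f y) (g y) = c) {x : E n} (hx : x ∈ Ω) (l : Fin n) :
    lz (pv l f x) (g x) + lz (f x) (pv l g x) = 0 := by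
  have m := ho.mem_nhds hx
  have df := ((hf.contDiffAt m).differentiableAt (by simp)).hasFDerivAt
  have dg := ((hg.contDiffAt m).differentiableAt (by simp)).hasFDerivAt
  have d1 := (df.snd.inner ℝ dg.snd).sub (df.fst.mul dg.fst)
  have d2 : HasFDerivAt (fun y => lz (f y) (g y)) (0 : E n →L[ℝ] ℝ) x :=
    (hasFDerivAt_const c x).congr_of_eventuallyEq (eventually_of_mem m h)
  have e := congrArg (fun L : E n →L[ℝ] ℝ => L (EuclideanSpace.single l 1)) (d1.unique d2)
  simp only [ContinuousLinearMap.sub_apply, ContinuousLinearMap.comp_apply,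
    ContinuousLinearMap.prod_apply, fderivInnerCLM_apply, ContinuousLinearMap.add_apply,
    ContinuousLinearMap.smul_apply, ContinuousLinearMap.coe_snd', ContinuousLinearMap.coe_fst',
    ContinuousLinearMap.zero_apply, smul_eq_mul] at e
  simp only [lz, pv]
  linarith

end KLbAux

open KLbAux

theorem pkLb (hSymm : SymmS) : LbS := by
  intro n Ω S ho hS h0 h1
  obtain ⟨c1, s1⟩ := hSymm n _ Ω S ho hS
  have c2 := fun i => (hSymm n _ Ω (pv i S) ho (c1 i)).1
  have s2 := fun i => (hSymm n _ Ω (pv i S) ho (c1 i)).2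
  have p1 : ∀ x ∈ Ω, ∀ i, lz (S x) (pv i S x) = 0 := fun x hx i => by
    have := prod ho hS hS h0 hx i
    rw [lz_comm (pv i S x)] at this
    linarith
  have p3 : ∀ x ∈ Ω, ∀ i j k, lz (pv j (pv i S) x) (pv k S x) = 0 := fun x hx => by
    have a : ∀ i j k, lz (pv j (pv i S) x) (pv k S x) + lz (pv j (pv k S) x) (pv i S x) = 0 :=
      fun i j k => by
        have := prod ho (c1 i) (c1 k) (fun y hy => h1 y hy i k) hx j
        rwa [lz_comm (pv i S x)] at this
    intro i j k
    have a1 := a i j k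
    have a2 := a j k i
    have a3 := a k i j
    rw [s1 j k x hx] at a1
    rw [s1 k i x hx] at a2
    rw [s1 i j x hx] at a3
    linarith
  refine fun x hx => ⟨p1 x hx, fun i j => ?_, p3 x hx, fun i j k l => ?_⟩
  · have := prod ho hS (c1 i) (fun y hy => p1 y hy i) hx j
    rw [lz_comm (pv j S x), h1 x hx] at this
    split_ifs at this ⊢ <;> linarith
  · have a1 := prod ho (c2 i j) (c1 k) (fun y hy => p3 y hy i j k) hx l
    have a2 := prod ho (c2 i l) (c1 k) (fun y hy => p3 y hy i l k) hx j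
    rw [s2 i l j x hx] at a1
    linarith

end Vale.Agent.P210
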