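import Vale.Agent.P210K.Stm

open Set Filter Topology MeasureTheory Metric
open scoped ENNReal NNReal ContDiff RealInnerProductSpace

namespace Vale.Agent.P210

namespace KLdAux

variable {N n : ℕ}

theorem lz_comm (u v : W N) : lz u v = lz v u := by
  unfold lz
  rw [real_inner_comm, mul_comm]

/-- the Lorentz form as a linear map in the second slot -/
noncomputable def lzL (u : W N) : W N →ₗ[ℝ] ℝ where
  toFun v := lz u v
  map_add' v w := by
    simp only [lz, Prod.fst_add, Prod.snd_add, inner_add_right]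
    ring
  map_smul' c v := by
    simp only [lz, Prod.smul_fst, Prod.smul_snd, inner_smul_right, smul_eq_mul, RingHom.id_apply]
    ring

theorem lzL_apply (u v : W N) : lzL u v = lz u v := rfl

theorem lz_neg (u v : W N) : lz (-u) v = -lz u v := by
  rw [lz_comm, ← lzL_apply, map_neg, lzL_apply, lz_comm]

theorem iso_of (A : W N →L[ℝ] W N) (T : Set (W N)) (hT : Submodule.span ℝ T = ⊤)
    (h : ∀ u ∈ T, ∀ v ∈ T, lz (A u) (A v) = lz u v) (u v : W N) : lz (A u) (A v) = lz u v := by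
  have h1 : ∀ a ∈ T, ∀ b, lz (A a) (A b) = lz a b := by
    intro a ha b
    have h2 : (lzL (A a)).comp (A : W N →ₗ[ℝ] W N) = lzL a :=
      LinearMap.ext_on hT fun c hc => h a ha c hc
    exact LinearMap.congr_fun h2 b
  have h3 : (lzL (A u)).comp (A : W N →ₗ[ℝ] W N) = lzL u := by
    refine LinearMap.ext_on hT fun c hc => ?_
    change lz (A u) (A c) = lz u c
    rw [lz_comm, h1 c hc, lz_comm]
  exact LinearMap.congr_fun h3 v

theorem fd (Ω : Set (E n)) (hΩ : IsOpen Ω) (S : E n → W N) (e f : W N) (B : E n →L[ℝ] W N)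
    (h : ∀ x ∈ Ω, S x = (‖x‖ ^ 2 / 2) • e + B x + f) (x : E n) (hx : x ∈ Ω) (v : E n) :
    fderiv ℝ S x v = ⟪x, v⟫ • e + B v := by
  have h1 : S =ᶠ[𝓝 x] fun y => (‖y‖ ^ 2 / 2) • e + B y + f := by
    filter_upwards [hΩ.mem_nhds hx] with y hy using h y hy
  have h2 : HasFDerivAt (fun y : E n => ‖y‖ ^ 2) ((2 : ℕ) • innerSL ℝ x) x :=
    (hasStrictFDerivAt_norm_sq x).hasFDerivAt
  have h3 := (((h2.mul_const (1 / 2 : ℝ)).smul_const e).add B.hasFDerivAt).add_const f
  have h4 : (fun y : E n => (‖y‖ ^ 2 / 2) • e + B y + f) =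
      fun y : E n => ((fun y : E n => (‖y‖ ^ 2 * (1 / 2 : ℝ)) • e) + (B : E n → W N)) y + f := by
    funext y
    simp only [Pi.add_apply, mul_one_div]
  rw [h1.fderiv_eq, h4, h3.fderiv]
  simp only [ContinuousLinearMap.add_apply, ContinuousLinearMap.smulRight_apply,
    ContinuousLinearMap.smul_apply, innerSL_apply_apply, smul_eq_mul, nsmul_eq_mul]
  congr 2
  push_cast
  ring

theorem fd_sum (S : E n → W N) (x v : E n) : fderiv ℝ S x v = ∑ i, v i • pv i S x := by
  have h : v = ∑ i, v i • EuclideanSpace.single i (1 : ℝ) := by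
    ext j
    simp [Finset.sum_apply, Pi.single_apply]
  conv_lhs => rw [h]
  rw [map_sum]
  simp only [map_smul, pv]

end KLdAux

open KLdAux in
theorem pkLd (hLa : LaS) (hLb : LbS) (hLc : LcS) (hDec : DecS) (hSpan : SpanS) (hLl : LlS) (hPk : PkS) (hCs : CsS) : LdS := by
  intro n Ω S hn hΩ hc hS hN hO
  have hb := hLb n Ω S hΩ hS (fun x hx => (hN x hx).1) hO
  have h1 : ∀ x, ∃ θ : W (n + 1), x ∈ Ω →
      ∀ i j, pv j (pv i S) x = if i = j then θ else 0 := by
    intro x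
    by_cases hx : x ∈ Ω
    · obtain ⟨b1, b2, b3, b4⟩ := hb x hx
      obtain ⟨θ, hθ⟩ := hLa n (S x) (fun i => pv i S x) (fun i j => pv j (pv i S) x) hn
        (hN x hx).1 b1 (hO x hx) b2 b3 b4
      exact ⟨θ, fun _ => hθ⟩
    · exact ⟨0, fun h => absurd h hx⟩
  choose θ hθ using h1
  obtain ⟨e, f, B, he, hSq⟩ := hLc n Ω S θ (by omega) hΩ hc.isPreconnected hS hθ
  obtain ⟨P, e0, f0, hL, -, hA⟩ := hDec n
  obtain ⟨A, hAe, hAf, hAP⟩ := hA B e f
  have hSA : ∀ x ∈ Ω, S x = A (LL x) := by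
    intro x hx
    rw [hSq x hx, hL x, map_add, map_add, map_smul, hAe, hAf, hAP]
  have hpair : ∀ x ∈ Ω, ∀ y ∈ Ω, lz (S x) (S y) = lz (LL x) (LL y) := by
    intro x hx y hy
    obtain ⟨b1, b2, -, -⟩ := hb x hx
    have i0 : Fin n := ⟨0, by omega⟩
    have e1 : lz (S x) e = -1 := by
      have := b2 i0 i0
      rw [hθ x hx i0 i0, if_pos rfl, if_pos rfl, he x hx] at this
      exact this
    have e2 : lz (S x) (fderiv ℝ S x (y - x)) = 0 := by
      rw [fd_sum, ← lzL_apply, map_sum]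
      refine Finset.sum_eq_zero fun i _ => ?_
      rw [map_smul, lzL_apply, b1 i, smul_zero]
    have e3 : S y = S x + fderiv ℝ S x (y - x) + (‖x - y‖ ^ 2 / 2) • e := by
      have e4 : ‖y‖ ^ 2 / 2 = ‖x‖ ^ 2 / 2 + ⟪x, y - x⟫ + ‖x - y‖ ^ 2 / 2 := by
        rw [norm_sub_sq_real, inner_sub_right, real_inner_self_eq_norm_sq]
        ring
      rw [fd Ω hΩ S e f B hSq x hx, hSq y hy, hSq x hx, e4, map_sub, add_smul, add_smul]
      abel
    rw [(hLl n).1, e3, ← lzL_apply, map_add, map_add, map_smul, lzL_apply, lzL_apply, lzL_apply,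
      (hN x hx).1, e1, e2, smul_eq_mul]
    ring
  have hiso : ∀ u v, lz (A u) (A v) = lz u v := by
    refine iso_of A (LL '' Ω) (hSpan n Ω (by omega) hΩ hc.nonempty) ?_
    rintro _ ⟨x, hx, rfl⟩ _ ⟨y, hy, rfl⟩
    rw [← hSA x hx, ← hSA y hy, hpair x hx y hy]
  refine ⟨A, ⟨hiso, fun y => ?_⟩, hSA⟩
  obtain ⟨x, hx⟩ := hc.nonempty
  have u1 : lz (A (lift y)) (A (lift y)) = -1 := by rw [hiso, (hCs _ y).1]
  have u2 : lz (A (lift y)) (S x) < 0 := by
    rw [hSA x hx, hiso]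
    have := ((hPk _ (LL x) ((hLl n).2.1 x)).2 y).1
    linarith
  generalize A (lift y) = u at u1 u2
  rcases lt_trichotomy 0 u.1 with h | h | h
  · exact h
  · exfalso
    have u3 : 0 ≤ ⟪u.2, u.2⟫ := real_inner_self_nonneg
    unfold lz at u1
    rw [← h] at u1
    linarith
  · exfalso
    have u3 : lz (-u) (-u) = -1 := by
      rw [lz_neg, lz_comm, lz_neg, neg_neg, u1]
    have u4 := (hCs _ y).2.2.2.2 (-u) u3 (by simpa using h)
    have u5 := ((hPk _ (S x) (hN x hx)).2 (-u).2).1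
    rw [← u4, lz_neg] at u5
    linarith

end Vale.Agent.P210
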