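import Vale.Agent.P210K.Stm

open Set Filter Topology MeasureTheory Metric
open scoped ENNReal NNReal ContDiff RealInnerProductSpace

namespace Vale.Agent.P210

namespace KLiouAux

theorem lz_comm {N : ℕ} (u v : W N) : lz u v = lz v u := by
  rw [lz, lz, real_inner_comm, mul_comm]

theorem lz_exp {N : ℕ} (a b c d : ℝ) (L u v : W N) :
    lz (a • u + b • L) (c • v + d • L) =
      a * c * lz u v + a * d * lz L u + b * c * lz L v + b * d * lz L L := by
  simp only [lz, Prod.snd_add, Prod.fst_add, Prod.smul_snd, Prod.smul_fst, inner_add_left,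
    inner_add_right, real_inner_smul_left, real_inner_smul_right, smul_eq_mul,
    real_inner_comm u.2 L.2]
  ring

theorem pol {n : ℕ} (D : E n →L[ℝ] E n) (k : ℝ) (h : ∀ v, k * ‖D v‖ = ‖v‖) (u v : E n) :
    k * k * ⟪D u, D v⟫ = ⟪u, v⟫ := by
  rw [real_inner_eq_norm_add_mul_self_sub_norm_mul_self_sub_norm_mul_self_div_two,
    real_inner_eq_norm_add_mul_self_sub_norm_mul_self_sub_norm_mul_self_div_two u v,
    ← h (u + v), ← h u, ← h v, map_add]
  ring

end KLiouAux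

open KLiouAux in
theorem pkLiou (hLd : LdS) (hLl : LlS) : LiouS := by
  intro n Ω ρ φ hn hΩ hc hρ hpos hI
  obtain ⟨-, hnul, hL, hL1, hL2⟩ := hLl n
  have hκ0 : ∀ x ∈ Ω, 0 < ρ (φ x) / ρ x := fun x hx =>
    div_pos (hpos _ (hI.bij.mapsTo hx)) (hpos x hx)
  have hk : ∀ x ∈ Ω, ∀ v, ρ (φ x) / ρ x * ‖fderiv ℝ φ x v‖ = ‖v‖ := fun x hx v => by
    rw [div_mul_eq_mul_div, hI.conf x hx v, mul_div_cancel_left₀ _ (hpos x hx).ne']
  have hs : ∀ x ∈ Ω, ρ x * (ρ (φ x) / ρ x) = ρ (φ x) := fun x hx =>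
    mul_div_cancel₀ _ (hpos x hx).ne'
  obtain ⟨κ, hκe⟩ : ∃ κ : E n → ℝ, κ = fun x => ρ (φ x) / ρ x := ⟨_, rfl⟩
  have hκ : ContDiffOn ℝ ∞ κ Ω := by
    rw [hκe]
    exact (hρ.comp hI.smooth hI.bij.mapsTo).div hρ fun x hx => (hpos x hx).ne'
  have hκ1 : ∀ x, ρ (φ x) / ρ x = κ x := fun x => by rw [hκe]
  simp only [hκ1] at hκ0 hk hs
  refine (hLd n Ω (fun x => κ x • LL (φ x)) hn hΩ hc
    (hκ.smul (hL.comp_contDiffOn hI.smooth)) (fun x hx => ?_) (fun x hx i j => ?_)).imp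
    fun A h => ⟨h.1, fun x hx => ?_⟩
  rotate_left 2
  · rw [sg, sg, map_smul, ← h.2 x hx, smul_smul, hs x hx]
  · refine ⟨?_, mul_pos (hκ0 x hx) (hnul (φ x)).2⟩
    have := lz_exp 0 (κ x) 0 (κ x) (LL (φ x)) (LL (φ x)) (LL (φ x))
    simpa [(hnul (φ x)).1] using this
  · have d1 : DifferentiableAt ℝ κ x :=
      (hκ.contDiffAt (hΩ.mem_nhds hx)).differentiableAt (by simp)
    have d2 : DifferentiableAt ℝ φ x :=
      (hI.smooth.contDiffAt (hΩ.mem_nhds hx)).differentiableAt (by simp)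
    have d3 : DifferentiableAt ℝ (LL : E n → W (n + 1)) (φ x) := hL.differentiable (by simp) _
    have d4 := (d1.hasFDerivAt.smul (d3.hasFDerivAt.comp x d2.hasFDerivAt)).fderiv
    have e : ∀ i, pv i (fun x => κ x • LL (φ x)) x =
        κ x • fderiv ℝ LL (φ x) (fderiv ℝ φ x (EuclideanSpace.single i 1)) +
          fderiv ℝ κ x (EuclideanSpace.single i 1) • LL (φ x) := fun i =>
      congrArg (fun T : E n →L[ℝ] W (n + 1) => T (EuclideanSpace.single i 1)) d4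
    rw [e, e, lz_exp, hL1, hL2, hL2, (hnul (φ x)).1, pol _ _ (hk x hx)]
    simp [EuclideanSpace.inner_single_left, Pi.single_apply]

end Vale.Agent.P210
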