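import Vale.Agent.P210K.Stm

open Set Filter Topology MeasureTheory Metric
open scoped ENNReal NNReal ContDiff RealInnerProductSpace

namespace Vale.Agent.P210

namespace KLlAux

/-- Adding a first coordinate, as a linear map. -/
noncomputable def csL (n : ℕ) : (ℝ × E n) →ₗ[ℝ] E (n + 1) where
  toFun z := WithLp.toLp 2 (Fin.cons z.1 (fun i => z.2 i))
  map_add' z w := by
    ext i
    refine Fin.cases ?_ (fun j => ?_) i <;> simp
  map_smul' c z := by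
    ext i
    refine Fin.cases ?_ (fun j => ?_) i <;> simp

/-- Adding a first coordinate. -/
noncomputable def cs (n : ℕ) : (ℝ × E n) →L[ℝ] E (n + 1) :=
  LinearMap.toContinuousLinearMap (csL n)

theorem inner_cs {n : ℕ} (a b : ℝ) (x y : E n) : ⟪cs n (a, x), cs n (b, y)⟫ = a * b + ⟪x, y⟫ := by
  have e : ∀ (c : ℝ) (z : E n), cs n (c, z) = WithLp.toLp 2 (Fin.cons c (fun i => z i)) :=
    fun _ _ => rfl
  rw [e, e, PiLp.inner_apply, PiLp.inner_apply, Fin.sum_univ_succ]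
  simp [mul_comm]

theorem ll_eq {n : ℕ} (y : E n) : LL y = ((1 + ‖y‖ ^ 2) / 2, cs n ((1 - ‖y‖ ^ 2) / 2, y)) := rfl

theorem ll_fun (n : ℕ) : (LL : E n → W (n + 1)) =
    fun y => ((1 + ‖y‖ ^ 2) / 2, cs n ((1 - ‖y‖ ^ 2) / 2, y)) := funext ll_eq

theorem ll_fderiv {n : ℕ} (x v : E n) : fderiv ℝ LL x v = (⟪x, v⟫, cs n (-⟪x, v⟫, v)) := by
  have h0 : HasFDerivAt (fun y : E n => ‖y‖ ^ 2) ((2 : ℕ) • innerSL ℝ x) x :=
    (hasStrictFDerivAt_norm_sq x).hasFDerivAt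
  have h1 := (h0.const_add 1).mul_const (2 : ℝ)⁻¹
  have h2 := (h0.const_sub 1).mul_const (2 : ℝ)⁻¹
  have h3 := (cs n).hasFDerivAt.comp x (h2.prodMk (hasFDerivAt_id x))
  have h4 := (h1.prodMk h3).fderiv
  have e : (LL : E n → W (n + 1)) = fun y => ((1 + ‖y‖ ^ 2) * (2 : ℝ)⁻¹,
      (cs n ∘ fun y => ((1 - ‖y‖ ^ 2) * (2 : ℝ)⁻¹, id y)) y) := funext fun y => rfl
  rw [e, h4]
  simp

end KLlAux

open KLlAux

theorem pkLl : LlS := by
  intro n
  have h1 : ∀ x y : E n, lz (LL x) (LL y) = -(‖x - y‖ ^ 2 / 2) := by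
    intro x y
    rw [ll_eq, ll_eq, lz, inner_cs, norm_sub_sq_real]
    ring
  refine ⟨h1, fun y => ⟨by rw [h1]; simp, ?_⟩, ?_, fun x u v => ?_, fun x v => ?_⟩
  · rw [ll_eq]
    positivity
  · rw [ll_fun]
    have h0 : ContDiff ℝ ∞ fun y : E n => ‖y‖ ^ 2 := contDiff_norm_sq ℝ
    exact ((contDiff_const.add h0).div_const 2).prodMk
      ((cs n).contDiff.comp (((contDiff_const.sub h0).div_const 2).prodMk contDiff_id))
  · rw [ll_fderiv, ll_fderiv, lz, inner_cs]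
    ring
  · rw [ll_fderiv, ll_eq, lz, inner_cs]
    ring

end Vale.Agent.P210
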