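import Vale.Agent.P210K.Stm

open Set Filter Topology MeasureTheory Metric
open scoped ENNReal NNReal ContDiff RealInnerProductSpace

namespace Vale.Agent.P210

namespace KLorAux

variable {N : ℕ}

theorem lz_neg_right (u v : W N) : lz u (-v) = -lz u v := by
  simp only [lz, Prod.snd_neg, Prod.fst_neg, inner_neg_right]
  ring

theorem lz_neg_neg (u : W N) : lz (-u) (-u) = lz u u := by
  simp only [lz, Prod.snd_neg, Prod.fst_neg, inner_neg_neg]
  ring

theorem lz_self (u : W N) : lz u u = ‖u.2‖ ^ 2 - u.1 ^ 2 := by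
  simp only [lz, real_inner_self_eq_norm_sq]
  ring

theorem nondeg {u : W N} (h : ∀ v, lz u v = 0) : u = 0 := by
  have h1 := h (1, 0)
  have h2 := h (0, u.2)
  simp only [lz, inner_zero_right, mul_one, zero_sub, neg_eq_zero, mul_zero, sub_zero,
    inner_self_eq_zero] at h1 h2
  exact Prod.ext h1 h2

end KLorAux

open KLorAux in
theorem pkLor (hCs : CsS) (hPk : PkS) : LorS := by
  intro N A hA
  have h1 : ∀ y, A (lift y) = lift (act A y) := fun y =>
    (hCs N y).2.2.2.2 _ (by rw [hA.iso, (hCs N y).1]) (hA.fut y)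
  refine ⟨h1, fun y z => ?_, fun ξ hξ => ?_, fun z => ?_, ?_⟩
  · unfold hd
    rw [← h1, ← h1, hA.iso]
  · have a1 : lz (A ξ) (A ξ) = 0 := by rw [hA.iso, hξ.1]
    have a2 : 0 < -lz (lift (act A 0)) (A ξ) := by
      rw [← h1, hA.iso]
      exact ((hPk N ξ hξ).2 0).1
    refine ⟨a1, ?_⟩
    rcases lt_trichotomy 0 (A ξ).1 with h | h | h
    · exact h
    · have a3 := lz_self (A ξ)
      rw [a1, ← h] at a3
      have a4 : (A ξ).2 = 0 := norm_eq_zero.1 (pow_eq_zero_iff two_ne_zero |>.1 (by linarith))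
      unfold lz at a2
      rw [a4, ← h] at a2
      simp at a2
    · have a3 : Nul (-A ξ) := ⟨by rw [lz_neg_neg, a1], by simpa using h⟩
      have a4 := ((hPk N _ a3).2 (act A 0)).1
      rw [lz_neg_right] at a4
      linarith
  · have inj : Function.Injective (A : W N →ₗ[ℝ] W N) := by
      rw [injective_iff_map_eq_zero]
      intro u hu
      refine nondeg fun v => ?_
      have hu' : A u = 0 := hu
      rw [← hA.iso, hu']
      simp [lz]
    obtain ⟨u, hu⟩ := LinearMap.injective_iff_surjective.1 inj (lift z)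
    have hu' : A u = lift z := hu
    have a1 : lz u u = -1 := by rw [← hA.iso, hu', (hCs N z).1]
    have a2 : 0 < u.1 := by
      rcases lt_trichotomy 0 u.1 with h | h | h
      · exact h
      · rw [lz_self, ← h] at a1
        nlinarith [sq_nonneg ‖u.2‖]
      · have a3 := (hCs N z).2.2.2.2 (-u) (by rw [lz_neg_neg, a1]) (by simpa using h)
        have a4 := hA.fut (-u).2
        rw [← a3, map_neg, hu'] at a4
        have a5 := Real.sqrt_nonneg (1 + ‖z‖ ^ 2)
        simp only [lift, Prod.fst_neg] at a4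
        linarith
    refine ⟨u.2, ?_⟩
    unfold act
    rw [← (hCs N z).2.2.2.2 u a1 a2, hu']
    rfl
  · unfold act lift
    fun_prop

end Vale.Agent.P210
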