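import Vale.Agent.P210K.Stm
import Vale.Agent.P210.Main

open Set Filter Topology MeasureTheory Metric
open scoped ENNReal NNReal ContDiff

namespace Vale.Agent.P210

def MainKS : Prop := ∀ n : ℕ, 3 ≤ n → ∃ C : ℝ, ∀ (Ω : Set (E n)) (w : E n → ℝ),
  IsOpen Ω → IsConnected Ω → ContDiffOn ℝ ∞ w Ω → Complete Ω (conf w) →
  (∀ x ∈ Ω, 1 ≤ scal (conf w) x) → ∀ (G : Type) [Group G] [MulAction G Ω],
  (∀ γ : G, ∃ φ, Isom Ω (conf w) φ ∧ ∀ x : Ω, φ x = (γ • x : Ω)) →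
  ∃ (V : Type) (K : AbstractSimplicialComplex V)
    (f : Quotient (MulAction.orbitRel G Ω) → space K),
    (∀ s ∈ K.faces, s.card ≤ n / 2 + 1) ∧ Continuous[inferInstance, spaceTop K] f ∧
    ∀ x y : Ω, f (Quotient.mk _ x) = f (Quotient.mk _ y) →
      ⨅ γ : G, rdist Ω (conf w) x (γ • y : Ω) ≤ ENNReal.ofReal C

theorem pkMain (hScal : ScalS) (hMet : MetS) (hPde : PdeS) (hFup : FupS) (hUwf : UwfS)
    (hCnt : CntS) (hChain : ChainS) (hTyp : TypS) (hFrep : FrepS) (hFlw : FlwS) (hEnd : EndS)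
    (hStart : StartS) (hSymG : SymGS) (hLor : LorS) (hEqv : EqvS) (hTraj : TrajS)
    (hDist : DistS) (hMom : MomS) : MainKS := by
  intro n hn
  have hn' : (3 : ℝ) ≤ n := by exact_mod_cast hn
  have hn0 : 0 < n := by omega
  set β : ℝ := ((n : ℝ) - 2) / 2 - 1 / 4 with hβ
  have hβ0 : 0 < β := by rw [hβ]; linarith
  have hc : (0 : ℝ) < 1 / (2 * ((n : ℝ) - 1)) := by
    have : (0 : ℝ) < 2 * ((n : ℝ) - 1) := by linarith
    positivity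
  obtain ⟨A, hA, hP⟩ := hPde n β _ hβ0 hc
  have hq1 : (1 : ℝ) < 2 + β := by linarith
  have hq0 : (0 : ℝ) < 2 + β := by linarith
  have hs0 : (0 : ℝ) < (n : ℝ) - (2 + β) := by rw [hβ]; linarith
  have hsm : (n : ℝ) - (2 + β) + 1 < ((n / 2 + 1 : ℕ) : ℝ) := by
    have h1 : n ≤ 2 * (n / 2) + 1 := by omega
    have h2 : (n : ℝ) ≤ 2 * ((n / 2 : ℕ) : ℝ) + 1 := by exact_mod_cast h1
    rw [Nat.cast_add, Nat.cast_one, hβ]; linarith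
  obtain ⟨A', hA', hF⟩ := hFup n _ A hs0 hA
  obtain ⟨δ, hδ, hU⟩ := hUwf (n + 1) (n / 2)
  obtain ⟨T, hT, hC⟩ := hCnt (n + 1) (n / 2 + 1) _ (2 + β) A' δ hs0 hsm (by omega) hq0 hA' hδ
  obtain ⟨η, hη, hCh⟩ := hChain n hn0
  obtain ⟨Ct, hCt, hTy⟩ := hTyp n (2 + β) A η hn0 hq1 hs0 hA hη
  set D₁ : ℝ := Ct * A' ^ (1 / (2 + β)) with hD₁
  refine ⟨2 * (1 + D₁ + 2 * Ct * T) + 2 * D₁, ?_⟩
  intro Ω w hΩ hcon hw hcpl hs G _ _ hG
  obtain ⟨hfin, hM⟩ := hMet n Ω w hΩ hcon hw.continuousOn hcpl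
  set ρ : E n → ℝ := fun y => Real.exp (w y) with hρ
  set d : E n → E n → ℝ := fun x y => (rdist Ω (conf w) x y).toReal with hd'
  have hν := hP Ω w d hM hw (ineq_of_scal hScal hn hΩ hw hs)
  have hGG := hF _ hν
  obtain ⟨hDat, hFF⟩ := hFrep n Ω ρ (2 + β) A' hΩ hcon.nonempty hM.cont hM.pos hs0 hA' hGG
  set μ := mu Ω ρ with hμ
  set s : ℝ := (n : ℝ) - (2 + β) with hsdef
  obtain ⟨Φ, hΦ⟩ := hFlw (n + 1) μ s A' hDat
  obtain ⟨Ψ, hΨc, hΨ, hΨe⟩ := hEnd (n + 1) μ s (2 + β) A' T Φ hDat hΦ hq0 hT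
  obtain ⟨ι, hιc, hιn, hιe⟩ := hStart n Ω ρ d η hn0 hη hM
  obtain ⟨φ, L, hSym, hφ, hL1, hLm⟩ := hSymG n Ω w d G hn hcon hw hM hG
  have hmap : ∀ g, Measure.map (L g) μ = μ := fun g => (hEqv n Ω ρ d _ _ hn0 hM (hSym g)).1
  obtain ⟨V, K, f₀, hK, hf₀, hinv, hfib⟩ := hU G (fun g => act (L g)) (Zs μ s (2 + β) Φ T)
    hL1 hLm (fun g => (hLor _ _ (hSym g).lor).2.1)
    (fun g => (hΨe _ (hSym g).lor (hmap g)).2) (hC μ Φ hDat hΦ)
  have hmem : ∀ y, Ψ y ∈ Zs μ s (2 + β) Φ T := fun y => by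
    obtain ⟨τ, h1, h2, h3⟩ := hΨ y
    exact ⟨y, τ, h1, h2, h3⟩
  have heq : ∀ (g : G) (x : Ω), Ψ (ι (g • x : Ω)) = act (L g) (Ψ (ι x)) := by
    intro g x
    rw [← hφ g x, hιe _ _ (hSym g) x x.2, (hΨe _ (hSym g).lor (hmap g)).1]
  have haa0 : ∀ y, 0 < aa μ s (2 + β) y := fun y =>
    Real.rpow_pos_of_pos (hMom _ μ s A' hDat y).2.2.2.1 _
  have haa1 : ∀ y, Ct * aa μ s (2 + β) y ≤ D₁ := fun y =>
    mul_le_mul_of_nonneg_left (Real.rpow_le_rpow (hMom _ μ s A' hDat y).2.2.2.1.le (hDat.bdd y)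
      (by positivity)) hCt.le
  have hkey : ∀ x ∈ Ω, ∃ x' ∈ Ω, ∃ u ≤ D₁, Near Ω d η x' (Ψ (ι x)) u ∧
      d x x' ≤ 1 + D₁ + 2 * Ct * T := by
    intro x hx
    obtain ⟨τ, h1, h2, h3⟩ := hΨ (ι x)
    have hD := hDist _ μ s A' _ hDat (hΦ.sol (ι x))
    obtain ⟨x', hx', h4, h5⟩ := hTraj (E n) (E (n + 1)) Ω d hd (Near Ω d η) (fun t => Φ t (ι x))
      (fun t => aa μ s (2 + β) (Φ t (ι x))) Ct hCt.le
      (fun a b hab => Real.rpow_le_rpow (hMom _ μ s A' hDat _).2.2.2.1.le (hD.1 hab)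
        (by positivity))
      hM.tri (fun x hx x' hx' p p' u u' => hCh Ω ρ d hM x hx x' hx' p p' u u')
      (fun t => hTy Ω ρ d hM hcon.nonempty hν _ _ (haa0 _)
        (ne_top_of_le_ne_top ENNReal.ofReal_ne_top (hGG _)) (by rw [← hFF]; exact le_rfl))
      (fun t t' h => (hD.2 t t' h).1) (fun t => (haa0 _).le) x hx
      (by simpa only [hΦ.zero] using hιn x hx) τ h1
    refine ⟨x', hx', _, haa1 (Φ τ (ι x)), by rw [h3]; exact h4, ?_⟩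
    rw [h2] at h5
    have := haa1 (Φ τ (ι x))
    linarith
  let F : Ω → space K := fun x => f₀ ⟨Ψ (ι x), hmem _⟩
  have hFinv : ∀ x y : Ω, (MulAction.orbitRel G Ω) x y → F x = F y := by
    intro x y hxy
    obtain ⟨g, hg⟩ := MulAction.orbitRel_apply.1 hxy
    refine (hinv g ⟨Ψ (ι y), hmem _⟩ ⟨Ψ (ι x), hmem _⟩ ?_).symm
    change Ψ (ι x) = act (L g) (Ψ (ι y))
    rw [← heq g y]
    exact congrArg (fun z : Ω => Ψ (ι z)) hg.symm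
  have hFc : Continuous[inferInstance, spaceTop K] F := by
    letI := spaceTop K
    exact hf₀.comp ((hΨc.comp (continuousOn_iff_continuous_restrict.1 hιc)).subtype_mk _)
  refine ⟨V, K, Quotient.lift F hFinv, hK, ?_, fun x y hxy => ?_⟩
  · letI := spaceTop K
    exact Continuous.quotient_lift hFc hFinv
  · obtain ⟨g, hg⟩ := hfib ⟨Ψ (ι x), hmem _⟩ ⟨Ψ (ι y), hmem _⟩ hxy
    refine (iInf_le _ g).trans ?_
    have hg' : hd (Ψ (ι x)) (Ψ (ι (g • y : Ω))) ≤ 2 := by rw [heq]; exact hg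
    obtain ⟨x', hx', u, hu, h1, h2⟩ := hkey x x.2
    obtain ⟨y', hy', v, hv, h3, h4⟩ := hkey (g • y : Ω) (g • y : Ω).2
    have h5 := hCh Ω ρ d hM x' hx' y' hy' _ _ u v h1 h3 hg'
    have h6 := hM.tri x x.2 x' hx' (g • y : Ω) (g • y : Ω).2
    have h7 := hM.tri x' hx' y' hy' (g • y : Ω) (g • y : Ω).2
    have h8 := hM.symm y' (g • y : Ω)
    rw [← ENNReal.ofReal_toReal (hfin x x.2 (g • y : Ω) (g • y : Ω).2)]
    refine ENNReal.ofReal_le_ofReal ?_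
    change d x (g • y : Ω) ≤ _
    linarith

end Vale.Agent.P210
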