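import Vale.Agent.P210K.Stm

open Set Filter Topology MeasureTheory Metric
open scoped ENNReal NNReal ContDiff RealInnerProductSpace

namespace Vale.Agent.P210

namespace KMapAux

variable {N : ℕ}

theorem lz_cont (p : W N) : Continuous fun ξ : W N => lz p ξ := by
  unfold lz
  fun_prop

theorem pw_meas (p : W N) (a : ℝ) : Measurable fun ξ : W N => (-lz p ξ) ^ a :=
  (lz_cont p).neg.measurable.pow_const a

theorem nul_meas : MeasurableSet {ξ : W N | Nul ξ} := by
  have h1 : Continuous fun ξ : W N => lz ξ ξ := by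
    unfold lz
    fun_prop
  exact (isClosed_eq h1 continuous_const).measurableSet.inter
    (isOpen_lt continuous_const continuous_fst).measurableSet

theorem lz_zero (ξ : W N) : -lz (lift 0) ξ = ξ.1 := by
  simp [lz, lift]

theorem ff_map (μ : Measure (W N)) (s : ℝ) {R : W N →L[ℝ] W N} (hR : IsLor R) (p : W N) :
    FF (Measure.map R μ) s (R p) = FF μ s p := by
  unfold FF
  rw [integral_map R.continuous.measurable.aemeasurable (pw_meas _ _).aestronglyMeasurable]
  simp only [hR.iso]

theorem n1_map (μ : Measure (W N)) (s : ℝ) {R : W N →L[ℝ] W N} (hR : IsLor R) (p : W N)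
    (hi : Integrable (fun ξ => (-lz p ξ) ^ (-s - 1) • ξ) μ) :
    N1 (Measure.map R μ) s (R p) = R (N1 μ s p) := by
  unfold N1
  have hm : Measurable fun ξ : W N => (-lz (R p) ξ) ^ (-s - 1) • ξ :=
    (pw_meas _ _).smul measurable_id
  rw [integral_map R.continuous.measurable.aemeasurable hm.aestronglyMeasurable,
    ← R.integral_comp_comm hi]
  simp only [hR.iso, map_smul]

end KMapAux

open KMapAux in
theorem pkMap (hLor : LorS) (hMom : MomS) : MapS := by
  intro N μ s A R hD hR
  obtain ⟨h1, -, h3, h4, -⟩ := hLor N R hR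
  have hm : Measurable R := R.continuous.measurable
  have hF : ∀ y, FF (Measure.map R μ) s (lift (act R y)) = FF μ s (lift y) := fun y => by
    rw [← h1, ff_map μ s hR]
  refine ⟨⟨hD.pos, ?_, ?_, ?_, fun y => ?_⟩, hF, fun α hα t => ?_⟩
  · exact (ae_map_iff hm.aemeasurable nul_meas).2 (hD.nul.mono fun ξ h => h3 ξ h)
  · exact fun h => hD.ne ((Measure.map_eq_zero_iff hm.aemeasurable).1 h)
  · obtain ⟨y, hy⟩ := h4 0
    have e : ∀ ξ, (R ξ).1 = -lz (lift y) ξ := fun ξ => by
      rw [← lz_zero, ← hy, ← h1, hR.iso]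
    have hg : Measurable fun ξ : W N => ξ.1 ^ (-s) := measurable_fst.pow_const _
    refine (integrable_map_measure hg.aestronglyMeasurable hm.aemeasurable).2 ?_
    refine (hMom N μ s A hD y).1.congr (Eventually.of_forall fun ξ => ?_)
    simp only [Function.comp_apply, e]
  · obtain ⟨z, rfl⟩ := h4 y
    rw [hF]
    exact hD.bdd z
  · have e : mm (Measure.map R μ) s (lift (act R (α t))) - lift (act R (α t)) =
        R (mm μ s (lift (α t)) - lift (α t)) := by
      rw [← h1, mm, mm, ff_map μ s hR, n1_map μ s hR _ (hMom N μ s A hD (α t)).2.1, map_sub,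
        map_smul]
    have e2 : (fun t => lift (act R (α t))) = fun t => R (lift (α t)) := funext fun t => (h1 _).symm
    rw [e, e2]
    exact R.hasFDerivAt.comp_hasDerivAt t (hα t)

end Vale.Agent.P210
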