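import Vale.Agent.P210K.Stm

open Set Filter Topology MeasureTheory Metric
open scoped ENNReal NNReal ContDiff RealInnerProductSpace

namespace Vale.Agent.P210

namespace KMomAux

variable {N : ℕ}

theorem exL (v : W N) : ∃ L : W N →L[ℝ] ℝ, ∀ u, L u = lz u v :=
  ⟨(innerSL ℝ v.2).comp (ContinuousLinearMap.snd ℝ ℝ (E N)) -
    v.1 • ContinuousLinearMap.fst ℝ ℝ (E N), fun u => by
      simp [lz, real_inner_comm, mul_comm]⟩

theorem lz_add (u v w : W N) : lz u (v + w) = lz u v + lz u w := by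
  simp only [lz, Prod.snd_add, Prod.fst_add, inner_add_right]
  ring

theorem lz_smul (u v : W N) (c : ℝ) : lz u (c • v) = c * lz u v := by
  simp only [lz, Prod.smul_snd, Prod.smul_fst, real_inner_smul_right, smul_eq_mul]
  ring

theorem pw {u φ K r : ℝ} (hu : 0 < u) (hφ : 0 < φ) (hK : 0 < K) (h : u ≤ K * φ) (hr : r ≤ 0) :
    φ ^ r ≤ K ^ (-r) * u ^ r := by
  have := Real.rpow_le_rpow_of_nonpos hu h hr
  rw [Real.mul_rpow hK.le hφ.le] at this
  rw [Real.rpow_neg hK.le, le_inv_mul_iff₀ (Real.rpow_pos_of_pos hK r)]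
  exact this

theorem meas (p : W N) (r : ℝ) : Measurable fun ξ : W N => (-lz p ξ) ^ r := by
  have : Continuous fun ξ : W N => -lz p ξ := by
    unfold lz
    fun_prop
  exact this.measurable.pow_const r

end KMomAux

open KMomAux in
theorem pkMom (hPk : PkS) : MomS := by
  intro N μ s A hD y
  have s0 := hD.pos
  have K0 : (0 : ℝ) < 1 + 2 * ‖y‖ := by positivity
  have bd : ∀ r : ℝ, r ≤ 0 → ∀ ξ, Nul ξ → 0 < (-lz (lift y) ξ) ^ r ∧
      (-lz (lift y) ξ) ^ r ≤ (1 + 2 * ‖y‖) ^ (-r) * ξ.1 ^ r := fun r hr ξ h => by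
    obtain ⟨a1, a2, -⟩ := (hPk N ξ h).2 y
    exact ⟨Real.rpow_pos_of_pos a1 r, pw h.2 a1 K0 a2 hr⟩
  have i0 : Integrable (fun ξ => (-lz (lift y) ξ) ^ (-s)) μ := by
    refine (hD.int.const_mul ((1 + 2 * ‖y‖) ^ (- -s))).mono' (meas _ _).aestronglyMeasurable ?_
    filter_upwards [hD.nul] with ξ h
    obtain ⟨a1, a2⟩ := bd (-s) (by linarith) ξ h
    rwa [Real.norm_of_nonneg a1.le]
  have i1 : Integrable (fun ξ => (-lz (lift y) ξ) ^ (-s - 1) • ξ) μ := by
    refine (hD.int.const_mul ((1 + 2 * ‖y‖) ^ (-(-s - 1)))).mono'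
      ((meas _ _).aestronglyMeasurable.smul aestronglyMeasurable_id) ?_
    filter_upwards [hD.nul] with ξ h
    obtain ⟨a1, a2⟩ := bd (-s - 1) (by linarith) ξ h
    rw [norm_smul, Real.norm_of_nonneg a1.le, (hPk N ξ h).1]
    refine (mul_le_mul_of_nonneg_right a2 h.2.le).trans_eq ?_
    rw [Real.rpow_sub_one h.2.ne', mul_assoc, div_mul_cancel₀ _ h.2.ne']
  have i2 : ∀ v, Integrable (fun ξ => ((-lz (lift y) ξ) ^ (-s - 2) * lz ξ v) • ξ) μ := fun v => by
    obtain ⟨L, hL⟩ := exL v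
    simp only [← hL]
    refine (hD.int.const_mul ((1 + 2 * ‖y‖) ^ (-(-s - 2)) * ‖L‖)).mono'
      (((meas _ _).mul L.continuous.measurable).aestronglyMeasurable.smul
        aestronglyMeasurable_id) ?_
    filter_upwards [hD.nul] with ξ h
    obtain ⟨a1, a2⟩ := bd (-s - 2) (by linarith) ξ h
    have a3 := L.le_opNorm ξ
    have a4 := h.2
    rw [(hPk N ξ h).1] at a3
    rw [norm_smul, norm_mul, Real.norm_of_nonneg a1.le, (hPk N ξ h).1]
    refine (mul_le_mul_of_nonneg_right (mul_le_mul a2 a3 (norm_nonneg _) (a1.le.trans a2))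
      a4.le).trans_eq ?_
    rw [Real.rpow_sub a4, Real.rpow_two]
    field_simp
  refine ⟨i0, i1, i2, ?_, fun v => ?_, fun v w => ?_, ?_⟩
  · have p : ∀ᵐ ξ ∂μ, 0 < (-lz (lift y) ξ) ^ (-s) :=
      hD.nul.mono fun ξ h => (bd (-s) (by linarith) ξ h).1
    rw [FF, integral_pos_iff_support_of_nonneg_ae (p.mono fun _ h => h.le) i0, pos_iff_ne_zero]
    intro e
    have q : ∀ᵐ ξ ∂μ, False := by
      filter_upwards [p, measure_eq_zero_iff_ae_notMem.1 e] with ξ h1 h2
      exact h2 h1.ne'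
    exact hD.ne (ae_eq_bot.1 (eventually_false_iff_eq_bot.1 q))
  · obtain ⟨L, hL⟩ := exL v
    rw [← hL, N1, ← L.integral_comp_comm i1]
    simp only [map_smul, smul_eq_mul]
    simp only [hL]
  · obtain ⟨L, hL⟩ := exL w
    rw [← hL, N2, ← L.integral_comp_comm (i2 v)]
    simp only [map_smul, smul_eq_mul]
    simp only [hL]
  · have n1 : ∀ v w, N2 μ s (lift y) (v + w) = N2 μ s (lift y) v + N2 μ s (lift y) w :=
      fun v w => by
        simp only [N2, lz_add, mul_add, add_smul]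
        exact integral_add (i2 v) (i2 w)
    have n2 : ∀ (c : ℝ) v, N2 μ s (lift y) (c • v) = c • N2 μ s (lift y) v := fun c v => by
      simp only [N2, lz_smul, mul_left_comm _ c, mul_smul c]
      exact integral_smul _ _
    let B : W N →ₗ[ℝ] W N :=
      { toFun := BB μ s (lift y)
        map_add' := fun v w => by
          simp only [BB, n1, lz_add]
          module
        map_smul' := fun c v => by
          simp only [BB, n2, lz_smul, RingHom.id_apply]
          module }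
    exact ⟨LinearMap.toContinuousLinearMap B, fun _ => rfl⟩

end Vale.Agent.P210
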