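import Vale.Agent.P210K.Stm

open Set Filter Topology MeasureTheory Metric
open scoped ENNReal NNReal ContDiff RealInnerProductSpace

namespace Vale.Agent.P210

namespace KMom2Aux

variable {N : ℕ}

theorem lz_comm (u v : W N) : lz u v = lz v u := by
  simp only [lz]
  rw [real_inner_comm, mul_comm]

theorem lz_sub (u v w : W N) : lz (u - v) w = lz u w - lz v w := by
  simp only [lz, Prod.snd_sub, Prod.fst_sub, inner_sub_left]
  ring

theorem lz_smul (c : ℝ) (u w : W N) : lz (c • u) w = c * lz u w := by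
  simp only [lz, Prod.smul_snd, Prod.smul_fst, real_inner_smul_left, smul_eq_mul]
  ring

theorem pw {φ : ℝ} (h : 0 < φ) (a : ℝ) : φ ^ (a - 1) * φ = φ ^ a := by
  rw [Real.rpow_sub_one h.ne', div_mul_cancel₀ _ h.ne']

theorem cs (hCs : CsS) (y : E N) {ξ V : W N} (hξ : Nul ξ) (hφ : 0 < -lz (lift y) ξ)
    (hV : lz V (lift y) = 0) : |lz ξ V| ≤ -lz (lift y) ξ * ((1 + lz V V) / 2) := by
  obtain ⟨c1, c2, -, c4, -⟩ := hCs N y
  have e1 : lz (ξ - (-lz (lift y) ξ) • lift y) (lift y) = 0 := by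
    rw [lz_sub, lz_smul, c1, lz_comm ξ]
    ring
  have e2 : lz (ξ - (-lz (lift y) ξ) • lift y) V = lz ξ V := by
    rw [lz_sub, lz_smul, lz_comm (lift y) V, hV]
    ring
  have e3 : lz (ξ - (-lz (lift y) ξ) • lift y) (ξ - (-lz (lift y) ξ) • lift y) =
      lz (lift y) ξ ^ 2 := by
    rw [lz_sub, lz_smul, lz_comm (lift y) (_ - _), e1, lz_comm ξ, lz_sub, lz_smul, hξ.1]
    ring
  have h := c4 _ _ e1 hV
  rw [e2, e3] at h
  have h0 := c2 V hV
  refine abs_le_of_sq_le_sq ?_ (by positivity)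
  nlinarith [mul_nonneg (sq_nonneg (lz (lift y) ξ)) (sq_nonneg (1 - lz V V))]

end KMom2Aux

open KMom2Aux in
theorem pkMom2 (hCs : CsS) (hHd : HdS) (hPk : PkS) (hMom : MomS) : Mom2S := by
  intro N μ s A hD y
  obtain ⟨i0, -, -, hF, n1, n2, -⟩ := hMom N μ s A hD y
  obtain ⟨c1, c2, -⟩ := hCs N y
  have hφ : ∀ᵐ ξ ∂μ, 0 < -lz (lift y) ξ := hD.nul.mono fun ξ hξ => ((hPk N ξ hξ).2 y).1
  have a1 : lz (mm μ s (lift y)) (lift y) = -1 := by
    have e : lz (N1 μ s (lift y)) (lift y) = -FF μ s (lift y) := by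
      rw [n1, FF, ← integral_neg]
      refine integral_congr_ae (hφ.mono fun ξ h => ?_)
      simp only
      rw [← pw h (-s), lz_comm ξ]
      ring
    rw [mm, lz_smul, e, mul_neg, inv_mul_cancel₀ hF.ne']
  have hV : lz (mm μ s (lift y) - lift y) (lift y) = 0 := by
    rw [lz_sub, a1, c1, sub_self]
  have key : ∀ c : ℝ, ∫ ξ, (-lz (lift y) ξ) ^ (-s) * c ∂μ = FF μ s (lift y) * c := fun c =>
    integral_mul_const _ _
  refine ⟨a1, ?_, c2 _ hV, ?_, fun v => ?_, fun z => ?_⟩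
  · have e : ‖N1 μ s (lift y)‖ ≤ FF μ s (lift y) * (1 + 2 * ‖y‖) := by
      rw [← key]
      refine norm_integral_le_of_norm_le (i0.mul_const _) (hD.nul.mono fun ξ hξ => ?_)
      obtain ⟨p1, p2⟩ := hPk N ξ hξ
      obtain ⟨p2, p3, -⟩ := p2 y
      have p4 := Real.rpow_pos_of_pos p2 (-s - 1)
      rw [norm_smul, p1, Real.norm_of_nonneg p4.le, ← pw p2 (-s), mul_assoc, mul_comm _ (1 + _)]
      exact mul_le_mul_of_nonneg_left p3 p4.le
    rw [mm, norm_smul, Real.norm_of_nonneg (inv_nonneg.2 hF.le), inv_mul_le_iff₀ hF]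
    exact e
  · obtain ⟨V, hV'⟩ : ∃ V, V = mm μ s (lift y) - lift y := ⟨_, rfl⟩
    rw [← hV'] at hV ⊢
    have e1 : lz V V = (FF μ s (lift y))⁻¹ * lz (N1 μ s (lift y)) V := by
      rw [← lz_smul, ← mm, ← sub_zero (lz (mm _ _ _) V), ← hV, lz_comm V (lift y), ← lz_sub,
        ← hV']
    have e2 : ‖lz (N1 μ s (lift y)) V‖ ≤ FF μ s (lift y) * ((1 + lz V V) / 2) := by
      rw [← key, n1]
      refine norm_integral_le_of_norm_le (i0.mul_const _) (hD.nul.mono fun ξ hξ => ?_)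
      have p2 := ((hPk N ξ hξ).2 y).1
      have p4 := Real.rpow_pos_of_pos p2 (-s - 1)
      rw [norm_mul, Real.norm_of_nonneg p4.le, ← pw p2 (-s), mul_assoc]
      exact mul_le_mul_of_nonneg_left (cs hCs y hξ p2 hV) p4.le
    have e3 := (inv_mul_le_iff₀ hF).2 ((le_abs_self _).trans e2)
    linarith
  · have e : lz (N2 μ s (lift y) v) (lift y) = -lz (N1 μ s (lift y)) v := by
      rw [n1, n2, ← integral_neg]
      refine integral_congr_ae (hφ.mono fun ξ h => ?_)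
      simp only
      rw [← pw h (-s - 1), lz_comm ξ (lift y), show -s - 1 - 1 = -s - 2 by ring]
      ring
    rw [BB, lz_sub, lz_sub, lz_smul, lz_smul, e, a1, lz_comm v (_ - _), lz_sub, mm, lz_smul,
      lz_comm v]
    ring
  · rw [FF, FF, ← integral_const_mul]
    refine integral_mono_ae (hMom N μ s A hD z).1 (i0.const_mul _) (hD.nul.mono fun ξ hξ => ?_)
    obtain ⟨p1, -, -, p2⟩ := (hPk N ξ hξ).2 z
    have p3 := Real.rpow_le_rpow_of_nonpos ((hPk N ξ hξ).2 y).1 (p2 y)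
      (neg_nonpos.2 hD.pos.le)
    rw [Real.mul_rpow (Real.exp_pos _).le p1.le, ← Real.exp_mul, (hHd N).2.2.1 z y] at p3
    refine le_trans (le_of_eq ?_) (mul_le_mul_of_nonneg_left p3 (Real.exp_pos _).le)
    simp only
    rw [← mul_assoc, ← Real.exp_add, show s * hd y z + hd y z * -s = 0 by ring, Real.exp_zero,
      one_mul]

end Vale.Agent.P210
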