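import Vale.Agent.P210K.Stm

open Set Filter Topology MeasureTheory Metric
open scoped ENNReal NNReal ContDiff RealInnerProductSpace

namespace Vale.Agent.P210

namespace KNerveGAux

variable {Y : Type} [PseudoMetricSpace Y]

theorem rad (Ω : Set Y) (Good : Set Y → Prop) (hm : ∀ U W, Good U → W ⊆ U → Good W)
    (hΩ : ∀ x ∈ Ω, ∃ r > 0, Good (ball x r)) :
    ∃ R : Y → ℝ, (∀ x y, R x ≤ R y + dist x y) ∧ (∀ x, R x ≤ 1) ∧ (∀ x ∈ Ω, 0 < R x) ∧
      ∀ x r, 0 < r → r < R x → Good (ball x r) := by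
  obtain ⟨A, hA⟩ : ∃ A : Y → Set ℝ, ∀ x r, r ∈ A x ↔ r = 0 ∨ (0 < r ∧ r ≤ 1 ∧ Good (ball x r)) :=
    ⟨fun x => {r | r = 0 ∨ (0 < r ∧ r ≤ 1 ∧ Good (ball x r))}, fun _ _ => Iff.rfl⟩
  have h0 : ∀ x, (0 : ℝ) ∈ A x := fun x => (hA x 0).2 (Or.inl rfl)
  have hu : ∀ x, ∀ r ∈ A x, r ≤ 1 := fun x r hr => by
    rcases (hA x r).1 hr with h | h
    · exact h.le.trans zero_le_one
    · exact h.2.1
  have hb : ∀ x, BddAbove (A x) := fun x => ⟨1, hu x⟩
  have hl : ∀ x y, sSup (A x) ≤ sSup (A y) + dist x y := fun x y => by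
    refine csSup_le ⟨0, h0 x⟩ fun r hr => ?_
    have h1 := le_csSup (hb y) (h0 y)
    have h2 := dist_nonneg (x := x) (y := y)
    by_cases k : r ≤ dist x y
    · linarith
    rcases (hA x r).1 hr with h | h
    · linarith
    have h3 : r - dist x y ∈ A y := (hA y _).2 (Or.inr ⟨by linarith, by linarith,
      hm _ _ h.2.2 (ball_subset_ball' (by rw [dist_comm y x]; linarith))⟩)
    have h4 := le_csSup (hb y) h3
    linarith
  refine ⟨fun x => sSup (A x), hl, fun x => csSup_le ⟨0, h0 x⟩ (hu x), fun x hx => ?_,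
    fun x r hr h => ?_⟩
  · obtain ⟨r, hr, h⟩ := hΩ x hx
    exact (lt_min hr one_pos).trans_le (le_csSup (hb x) ((hA x _).2 (Or.inr ⟨lt_min hr one_pos,
      min_le_right _ _, hm _ _ h (ball_subset_ball (min_le_left _ _))⟩)))
  · obtain ⟨s, hs, h1⟩ := exists_lt_of_lt_csSup ⟨0, h0 x⟩ h
    rcases (hA x s).1 hs with k | k
    · linarith
    · exact hm _ _ k.2.2 (ball_subset_ball h1.le)

open Classical in
/-- bump of a label class -/
noncomputable def bump (lab : Y → Y) (R : Y → ℝ) (v x : Y) : ℝ :=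
  if {z | lab z = v}.Nonempty then max 0 (R x / 2 - infDist x {z | lab z = v}) else 0

theorem bump_cont (lab : Y → Y) {R : Y → ℝ} (h : Continuous R) (v : Y) :
    Continuous (bump lab R v) := by
  by_cases q : {z | lab z = v}.Nonempty
  · have e : bump lab R v = fun x => max 0 (R x / 2 - infDist x {z | lab z = v}) :=
      funext fun x => if_pos q
    rw [e]
    exact continuous_const.max ((h.div_const 2).sub (continuous_infDist_pt _))
  · have e : bump lab R v = fun _ => 0 := funext fun x => if_neg q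
    rw [e]
    exact continuous_const

theorem bump_nonneg (lab : Y → Y) (R : Y → ℝ) (v x : Y) : 0 ≤ bump lab R v x := by
  unfold bump
  split_ifs
  · exact le_max_left _ _
  · exact le_rfl

theorem bump_self (lab : Y → Y) (R : Y → ℝ) (x : Y) (h : 0 < R x) :
    0 < bump lab R (lab x) x := by
  have m : x ∈ {z | lab z = lab x} := rfl
  rw [bump, if_pos ⟨x, m⟩, infDist_zero_of_mem m]
  exact lt_max_of_lt_right (by linarith)

theorem bump_pos {lab : Y → Y} {R : Y → ℝ} {v x : Y} (h : 0 < bump lab R v x) :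
    ∃ z, lab z = v ∧ dist x z < R x / 2 := by
  unfold bump at h
  split_ifs at h with q
  · have h1 : infDist x {z | lab z = v} < R x / 2 := by
      rcases lt_max_iff.1 h with h | h
      · exact absurd h (lt_irrefl _)
      · linarith
    obtain ⟨z, z1, z2⟩ := (infDist_lt_iff q).1 h1
    exact ⟨z, z1, z2⟩
  · exact absurd h (lt_irrefl _)

end KNerveGAux

open KNerveGAux in
theorem pkNerveG (hCell : CellS) : NerveGS := by
  intro Y _ m Z l h
  obtain ⟨R, r1, r0, r2, r3⟩ := rad Z (fun U => ∃ S : Finset Y, S.card ≤ m + 1 ∧ ∀ y ∈ U, l y ∈ S)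
    (fun U W ⟨S, s1, s2⟩ hW => ⟨S, s1, fun y hy => s2 y (hW hy)⟩) h
  have hc : Continuous R := (LipschitzWith.of_le_add r1).continuous
  obtain ⟨K, f, k1, k2, k3⟩ := hCell Z inferInstance Y m (fun v x => bump l R v x)
    (fun v => (bump_cont l hc v).comp continuous_subtype_val)
    (fun v x => bump_nonneg l R v x) (fun x => ⟨l x, bump_self l R x (r2 x x.2)⟩)
    (fun x₀ => by
      have p := r2 x₀ x₀.2
      obtain ⟨S, s1, s2⟩ := r3 x₀ (7 / 10 * R x₀) (by linarith) (by linarith)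
      refine ⟨S, s1, ?_⟩
      filter_upwards [ball_mem_nhds x₀ (show 0 < R x₀ / 10 by linarith)] with x hx v hv
      obtain ⟨z, z1, z2⟩ := bump_pos hv
      have d : dist (x : Y) x₀ < R x₀ / 10 := hx
      have l := r1 x x₀
      have t := dist_triangle z x (x₀ : Y)
      rw [dist_comm z x] at t
      exact z1 ▸ s2 z (mem_ball.2 (by linarith)))
  refine ⟨K, f, k1, k2, fun x y e => ?_⟩
  obtain ⟨v, v1, v2⟩ := k3 x y e
  obtain ⟨z, z1, z2⟩ := bump_pos v1
  obtain ⟨z', z3, z4⟩ := bump_pos v2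
  exact ⟨z, z', by linarith [r0 x], by linarith [r0 y], z1.trans z3.symm⟩

end Vale.Agent.P210
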