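import Vale.Agent.P210K.Stm

open Set Filter Topology MeasureTheory Metric
open scoped ENNReal NNReal ContDiff RealInnerProductSpace

namespace Vale.Agent.P210

namespace KNetGAux

theorem round {Y : Type} [PseudoMetricSpace Y] {ε : ℝ} (hε : 0 < ε) (U : Set Y) :
    ∃ Z : Set Y, Z ⊆ U ∧ Z.PairwiseDisjoint (fun z => ball z ε) ∧
      ∀ a ∈ U, ∃ z ∈ Z, dist z a < ε + ε := by
  obtain ⟨Z, h1, h2, h3⟩ := Vitali.exists_disjoint_subfamily_covering_enlargement
    (fun z : Y => ball z ε) U (fun _ => 1) 2 one_lt_two (fun _ _ => zero_le_one) 1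
    (fun _ _ => le_rfl) (fun a _ => nonempty_ball.2 hε)
  refine ⟨Z, h1, h2, fun a ha => ?_⟩
  obtain ⟨b, hb, ⟨y, hy1, hy2⟩, -⟩ := h3 a ha
  refine ⟨b, hb, ?_⟩
  rw [mem_ball] at hy1 hy2
  have := dist_triangle_left b a y
  linarith

/-- the points which are not yet covered -/
def UU {X : Type} (Zf : Set X → Set X) (B : X → Set X) : ℕ → Set X
  | 0 => univ
  | c + 1 => UU Zf B c \ ⋃ z ∈ Zf (UU Zf B c), B z

theorem UU_anti {X : Type} (Zf : Set X → Set X) (B : X → Set X) : Antitone (UU Zf B) :=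
  antitone_nat_of_succ_le fun _ => sdiff_subset

end KNetGAux

open KNetGAux in
theorem pkNetG : NetGS := by
  intro Y _ M ε hP h0 h1
  choose Zf hZ using round (Y := Y) h0
  set U := UU Zf (fun z => ball z (ε / 4)) with hU
  have anti : Antitone U := UU_anti _ _
  refine ⟨fun c => Zf (U c), fun c => (hZ _).2.1, fun x => ?_⟩
  by_contra hc
  have hx' : ∀ c, c < M → x ∈ U c := by
    intro c
    induction c with
    | zero => exact fun _ => mem_univ x
    | succ c ih =>
      intro h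
      refine ⟨ih (by omega), fun h' => hc ?_⟩
      obtain ⟨z, hz, h2⟩ := mem_iUnion₂.1 h'
      exact ⟨c, by omega, z, hz, h2⟩
  have ex : ∀ c, ∃ z, c < M → z ∈ Zf (U c) ∧ dist z x < ε + ε := fun c => by
    by_cases h : c < M
    · obtain ⟨z, h2, h3⟩ := (hZ _).2.2 x (hx' c h)
      exact ⟨z, fun _ => ⟨h2, h3⟩⟩
    · exact ⟨x, fun h' => (h h').elim⟩
  choose z hz using ex
  obtain ⟨c, c', h2, h3, h4⟩ := hP ε h0 h1 x z fun c h => by
    have a2 := (hz c h).2
    linarith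
  have h5 : z c' ∈ U (c + 1) := anti h2 ((hZ _).1 (hz c' h3).1)
  exact h5.2 (mem_iUnion₂.2 ⟨z c, (hz c (h2.trans h3)).1, h4⟩)

end Vale.Agent.P210
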