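import Vale.Agent.P210K.Stm

open Set Filter Topology MeasureTheory Metric
open scoped ENNReal NNReal ContDiff RealInnerProductSpace

namespace Vale.Agent.P210

theorem pkPacke : PackeS := by
  intro n Λ
  obtain ⟨T, -, hT, hc⟩ := finite_cover_balls_of_compact (isCompact_closedBall (0 : E n) Λ)
    (show (0 : ℝ) < 1 / 2 by norm_num)
  refine ⟨hT.toFinset.card + 1, Nat.succ_pos _, fun r z hr hz => ?_⟩
  have h1 : ∀ c, ∃ t, c < hT.toFinset.card + 1 →
      t ∈ hT.toFinset ∧ r⁻¹ • z c ∈ ball t (1 / 2) := by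
    intro c
    by_cases h : c < hT.toFinset.card + 1
    · have : r⁻¹ • z c ∈ closedBall (0 : E n) Λ := by
        rw [mem_closedBall_zero_iff, norm_smul, norm_inv, Real.norm_of_nonneg hr.le,
          inv_mul_le_iff₀ hr, mul_comm]
        exact hz c h
      obtain ⟨t, ht, h2⟩ := mem_iUnion₂.1 (hc this)
      exact ⟨t, fun _ => ⟨hT.mem_toFinset.2 ht, h2⟩⟩
    · exact ⟨0, fun h' => absurd h' h⟩
  choose t ht using h1
  have key : ∀ c c', c < hT.toFinset.card + 1 → c' < hT.toFinset.card + 1 → t c = t c' →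
      ‖z c' - z c‖ < r := by
    intro c c' h h' e
    have a1 := mem_ball.1 (ht c h).2
    have a2 := mem_ball.1 (ht c' h').2
    rw [← e] at a2
    have a3 := dist_triangle_right (r⁻¹ • z c') (r⁻¹ • z c) (t c)
    rw [dist_eq_norm, ← smul_sub, norm_smul, norm_inv, Real.norm_of_nonneg hr.le] at a3
    have a4 : r⁻¹ * ‖z c' - z c‖ < 1 := by linarith
    rw [inv_mul_lt_iff₀ hr] at a4
    linarith
  obtain ⟨c, hc1, c', hc2, hne, e⟩ := Finset.exists_ne_map_eq_of_card_lt_of_maps_to
    (s := Finset.range (hT.toFinset.card + 1)) (t := hT.toFinset) (f := t) (by simp)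
    fun c h => (ht c (Finset.mem_range.1 h)).1
  rw [Finset.mem_range] at hc1 hc2
  rcases lt_or_gt_of_ne hne with h | h
  · exact ⟨c, c', h, hc2, key c c' hc1 hc2 e⟩
  · exact ⟨c', c, h, hc1, key c' c hc2 hc1 e.symm⟩

end Vale.Agent.P210
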