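import Vale.Agent.P210K.Stm

open Set Filter Topology MeasureTheory Metric
open scoped ENNReal NNReal ContDiff RealInnerProductSpace

namespace Vale.Agent.P210

namespace KPackhAux

end KPackhAux

theorem pkPackh (hPacke : PackeS) (hRef : RefS) (hLor : LorS) (hHd2 : Hd2S) : PackhS := by
  intro N
  obtain ⟨M, hM, hP⟩ := hPacke N (max 32 (2 * Real.exp 5))
  have key : ∀ (r : ℝ) (y : E N) (z : ℕ → E N), 0 < r →
      (∀ c < M, ∀ u : E N, hd u 0 = hd (z c) y → ‖u‖ ≤ max 32 (2 * Real.exp 5) * r) →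
      ∃ c c', c < c' ∧ c' < M ∧ hd (z c') (z c) < r := by
    intro r y z hr h
    obtain ⟨R, hR, -, hRy, -⟩ := hRef N y
    have h0 : act R y = 0 := by
      unfold act
      rw [hRy]
      rfl
    have hi := (hLor N R hR).2.1
    obtain ⟨c, c', h1, h2, h3⟩ := hP r (fun c => act R (z c)) hr
      (fun c hc => h c hc _ (by rw [← h0, hi]))
    refine ⟨c, c', h1, h2, ?_⟩
    rw [← hi]
    exact ((hHd2 N).2.1 _ _).trans_lt h3
  refine ⟨M, hM, fun r hr hr1 y z h => ?_, fun y z h => ?_⟩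
  · refine key (r / 4) y z (by linarith) fun c hc u hu => ?_
    have h1 : hd u 0 ≤ 4 * r := hu ▸ h c hc
    have h2 := (hHd2 N).2.2.2.1 u (by linarith)
    have h3 : 32 * (r / 4) ≤ max 32 (2 * Real.exp 5) * (r / 4) :=
      mul_le_mul_of_nonneg_right (le_max_left _ _) (by linarith)
    linarith
  · refine key (1 / 2) y z (by norm_num) fun c hc u hu => ?_
    have h1 : hd u 0 ≤ 5 := hu ▸ h c hc
    have h2 := ((hHd2 N).2.2.1 u).trans (Real.exp_le_exp.2 h1)
    have h3 : 2 * Real.exp 5 ≤ max 32 (2 * Real.exp 5) := le_max_right _ _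
    linarith

end Vale.Agent.P210
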