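import Vale.Agent.P210K.Stm

open Set Filter Topology MeasureTheory Metric
open scoped ENNReal NNReal ContDiff RealInnerProductSpace

namespace Vale.Agent.P210

namespace KParPAux

def tl {n : ℕ} (p : E (n + 1)) : E n := WithLp.toLp 2 (fun i => p i.succ)

theorem norm_tl {n : ℕ} (p : E (n + 1)) : ‖p‖ ^ 2 = p 0 ^ 2 + ‖tl p‖ ^ 2 := by
  rw [EuclideanSpace.real_norm_sq_eq, EuclideanSpace.real_norm_sq_eq, Fin.sum_univ_succ]
  rfl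

theorem inner_tl {n : ℕ} (p : E (n + 1)) (a : ℝ) (y : E n) :
    ⟪p, (WithLp.toLp 2 (Fin.cons a (fun i => y i)) : E (n + 1))⟫ = p 0 * a + ⟪y, tl p⟫ := by
  rw [PiLp.inner_apply, PiLp.inner_apply, Fin.sum_univ_succ]
  simp [tl, mul_comm]

end KParPAux

open KParPAux in
theorem pkPar : ParS := by
  intro n p
  have hn := norm_tl p
  have h0 : 0 ≤ 1 + ‖p‖ ^ 2 := by positivity
  have hsq : Real.sqrt (1 + ‖p‖ ^ 2) ^ 2 = 1 + ‖p‖ ^ 2 := Real.sq_sqrt h0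
  have hs0 : 0 ≤ Real.sqrt (1 + ‖p‖ ^ 2) := Real.sqrt_nonneg _
  have hpos : 0 < Real.sqrt (1 + ‖p‖ ^ 2) + p 0 := by
    by_contra hc
    have hc := not_lt.mp hc
    have h1 : Real.sqrt (1 + ‖p‖ ^ 2) ≤ -p 0 := by linarith
    have h2 : Real.sqrt (1 + ‖p‖ ^ 2) ^ 2 ≤ (-p 0) ^ 2 := pow_le_pow_left₀ hs0 h1 2
    nlinarith [sq_nonneg ‖tl p‖]
  refine ⟨(1 / (Real.sqrt (1 + ‖p‖ ^ 2) + p 0)) • tl p, 1 / (Real.sqrt (1 + ‖p‖ ^ 2) + p 0),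
    by positivity, fun y => ?_⟩
  simp only [lz, lift, LL]
  rw [inner_tl, norm_sub_sq_real, inner_smul_right, norm_smul, Real.norm_eq_abs, mul_pow, sq_abs]
  generalize Real.sqrt (1 + ‖p‖ ^ 2) = s at hsq hpos ⊢
  have ht : ‖tl p‖ ^ 2 = s ^ 2 - 1 - p 0 ^ 2 := by linarith
  rw [ht]
  have hne : s + p 0 ≠ 0 := hpos.ne'
  field_simp
  ring

end Vale.Agent.P210
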