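import Vale.Agent.P210K.Stm

open Set Filter Topology MeasureTheory Metric
open scoped ENNReal NNReal ContDiff RealInnerProductSpace

namespace Vale.Agent.P210

namespace KPkAux

variable {N : ℕ}

theorem symm (u v : W N) : lz u v = lz v u := by
  unfold lz
  rw [real_inner_comm, mul_comm]

theorem left (u p v : W N) (s : ℝ) : lz (u - s • p) v = lz u v - s * lz p v := by
  unfold lz
  simp only [Prod.snd_sub, Prod.fst_sub, Prod.smul_snd, Prod.smul_fst, inner_sub_left,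
    real_inner_smul_left, smul_eq_mul]
  ring

theorem right (u p v : W N) (s : ℝ) : lz v (u - s • p) = lz v u - s * lz v p := by
  rw [symm v, left, symm u, symm p]

theorem norm2 (ξ : W N) (h : Nul ξ) : ‖ξ.2‖ = ξ.1 := by
  have h1 := h.1
  unfold lz at h1
  rw [real_inner_self_eq_norm_sq] at h1
  exact (pow_left_inj₀ (norm_nonneg _) h.2.le two_ne_zero).1 (by linarith)

theorem two (ξ : W N) (h : Nul ξ) (y : E N) :
    (Real.sqrt (1 + ‖y‖ ^ 2) - ‖y‖) * ξ.1 ≤ -lz (lift y) ξ ∧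
      -lz (lift y) ξ ≤ (Real.sqrt (1 + ‖y‖ ^ 2) + ‖y‖) * ξ.1 := by
  have h1 := abs_real_inner_le_norm y ξ.2
  rw [norm2 ξ h, abs_le] at h1
  unfold lz lift
  constructor <;> nlinarith [h1.1, h1.2]

end KPkAux

theorem pkPk (hCs : CsS) (hHd : HdS) : PkS := by
  intro N ξ hξ
  refine ⟨?_, fun y => ?_⟩
  · rw [Prod.norm_def, KPkAux.norm2 ξ hξ, Real.norm_eq_abs, abs_of_pos hξ.2, max_self]
  obtain ⟨h1, h2⟩ := KPkAux.two ξ hξ y
  have hy := norm_nonneg y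
  have hx := hξ.2
  have hc2 : Real.sqrt (1 + ‖y‖ ^ 2) ^ 2 = 1 + ‖y‖ ^ 2 := Real.sq_sqrt (by positivity)
  have hc0 : 0 ≤ Real.sqrt (1 + ‖y‖ ^ 2) := Real.sqrt_nonneg _
  have hcu : Real.sqrt (1 + ‖y‖ ^ 2) ≤ 1 + ‖y‖ := Real.sqrt_le_iff.2 ⟨by linarith, by nlinarith⟩
  have hcl : ‖y‖ < Real.sqrt (1 + ‖y‖ ^ 2) := Real.lt_sqrt_of_sq_lt (by linarith)
  generalize Real.sqrt (1 + ‖y‖ ^ 2) = c at h1 h2 hc2 hc0 hcu hcl
  have hφ : 0 < -lz (lift y) ξ := (mul_pos (sub_pos.2 hcl) hx).trans_le h1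
  refine ⟨hφ, ?_, ?_, fun z => ?_⟩
  · have h3 : (c + ‖y‖) * ((c - ‖y‖) * ξ.1) ≤ (c + ‖y‖) * -lz (lift y) ξ :=
      mul_le_mul_of_nonneg_left h1 (by linarith)
    have h4 : (c + ‖y‖) * ((c - ‖y‖) * ξ.1) = ξ.1 := by
      linear_combination ξ.1 * hc2
    have h5 : (c + ‖y‖) * -lz (lift y) ξ ≤ (1 + 2 * ‖y‖) * -lz (lift y) ξ :=
      mul_le_mul_of_nonneg_right (by linarith) hφ.le
    linarith
  · exact h2.trans (mul_le_mul_of_nonneg_right (by linarith) hx.le)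
  · obtain ⟨hpp, -, -, hcs, -⟩ := hCs N y
    have hqq := (hCs N z).1
    have ha := (hHd N).1 y z
    unfold hd
    rw [Real.exp_arcosh ha]
    have hx0 := hξ.1
    have s1 := KPkAux.symm ξ (lift y)
    have s2 := KPkAux.symm (lift z) (lift y)
    have key := hcs (lift z - (-lz (lift y) (lift z)) • lift y) (ξ - (-lz (lift y) ξ) • lift y)
      (by rw [KPkAux.left, hpp, s2]; ring) (by rw [KPkAux.left, hpp, s1]; ring)
    simp only [KPkAux.left, KPkAux.right, hpp, hqq, hx0, s1, s2] at key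
    generalize lz (lift y) (lift z) = a at key ha
    generalize lz (lift y) ξ = f at key hφ
    generalize lz (lift z) ξ = g at key
    have hs : Real.sqrt ((-a) ^ 2 - 1) ^ 2 = (-a) ^ 2 - 1 := Real.sq_sqrt (by nlinarith)
    have hs0 := Real.sqrt_nonneg ((-a) ^ 2 - 1)
    generalize Real.sqrt ((-a) ^ 2 - 1) = s at hs hs0
    have h6 : (g + a * f) ^ 2 ≤ (s * -f) ^ 2 := by
      have e1 : (s * -f) ^ 2 = ((-a) ^ 2 - 1) * f ^ 2 := by rw [mul_pow, hs]; ring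
      rw [e1]
      nlinarith [key]
    have h7 := (abs_le_of_sq_le_sq' h6 (mul_nonneg hs0 hφ.le)).1
    nlinarith [h7]

end Vale.Agent.P210
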