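import Vale.Agent.P210K.Stm

open Set Filter Topology MeasureTheory Metric
open scoped ENNReal NNReal ContDiff RealInnerProductSpace

namespace Vale.Agent.P210

namespace KPtAux

theorem bad (hTon : TonS) {n : ℕ} (ν : Measure (E n)) [SFinite ν] (x₀ : E n) {R ρ X c : ℝ}
    (hρ : 0 < ρ) (hρ2 : ρ ≤ 2) (hR : 0 < R) (hX : 0 < X) (hc : 0 < c)
    (h : ν (ball x₀ (4 * R)) ≤ ENNReal.ofReal X) :
    (volume.restrict (ball x₀ R)) {y | ENNReal.ofReal (c * (ρ ^ n * X)) ≤ ν (ball y (ρ * R))} ≤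
      volume (ball x₀ R) * (ENNReal.ofReal c)⁻¹ := by
  obtain ⟨hm, ht⟩ := hTon n ν x₀ R (ρ * R)
  have h1 := mul_meas_ge_le_lintegral (μ := volume.restrict (ball x₀ R)) hm
    (ENNReal.ofReal (c * (ρ ^ n * X)))
  have h2 : ν (ball x₀ (R + ρ * R)) ≤ ENNReal.ofReal X :=
    (measure_mono (ball_subset_ball (by nlinarith))).trans h
  have h3 : volume (ball (0 : E n) (ρ * R)) = ENNReal.ofReal (ρ ^ n) * volume (ball x₀ R) := by
    rw [Measure.addHaar_ball_mul_of_pos _ _ hρ, Measure.addHaar_ball_center volume x₀,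
      finrank_euclideanSpace_fin]
  have h4 := h1.trans (ht.trans (mul_le_mul_right h2 _))
  have hp : 0 < ρ ^ n * X := mul_pos (pow_pos hρ n) hX
  rw [h3, ENNReal.ofReal_mul hc.le, mul_right_comm (ENNReal.ofReal (ρ ^ n)),
    ← ENNReal.ofReal_mul (pow_pos hρ n).le, mul_comm (ENNReal.ofReal c), mul_assoc,
    ENNReal.mul_le_mul_iff_right (ENNReal.ofReal_pos.2 hp).ne' ENNReal.ofReal_ne_top] at h4
  rw [← div_eq_mul_inv, ENNReal.le_div_iff_mul_le (Or.inl (ENNReal.ofReal_pos.2 hc).ne')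
    (Or.inl ENNReal.ofReal_ne_top), mul_comm, ENNReal.ofReal_mul hc.le,
    mul_comm (ENNReal.ofReal c) (ENNReal.ofReal (ρ ^ n * X))]
  exact h4

theorem good (hTon : TonS) {n : ℕ} (ν : Measure (E n)) [SFinite ν] (x₀ : E n) {R X : ℝ}
    (hR : 0 < R) (hX : 0 < X) (h : ν (ball x₀ (4 * R)) ≤ ENNReal.ofReal X) {S : Set (E n)}
    (hS : volume S = 0) : ∃ x ∈ ball x₀ R, x ∉ S ∧ ∀ i : ℕ, ν (ball x (2 * (1 / 2) ^ i * R)) ≤
      ENNReal.ofReal (2 ^ (i + 2) * ((2 * (1 / 2) ^ i) ^ n * X)) := by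
  by_contra hn
  have hsub : ball x₀ R ⊆ S ∪ ⋃ i : ℕ, {y | ENNReal.ofReal
      (2 ^ (i + 2) * ((2 * (1 / 2) ^ i) ^ n * X)) ≤ ν (ball y (2 * (1 / 2) ^ i * R))} := by
    intro y hy
    by_contra hy'
    refine hn ⟨y, hy, fun e => hy' (Or.inl e), fun i => ?_⟩
    exact (not_le.1 fun e => hy' (Or.inr (mem_iUnion.2 ⟨i, e⟩))).le
  have h0 : (volume.restrict (ball x₀ R)) S = 0 :=
    le_antisymm ((Measure.restrict_le_self S).trans hS.le) zero_le
  have hb : ∀ i : ℕ, (volume.restrict (ball x₀ R)) {y | ENNReal.ofReal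
      (2 ^ (i + 2) * ((2 * (1 / 2) ^ i) ^ n * X)) ≤ ν (ball y (2 * (1 / 2) ^ i * R))} ≤
      volume (ball x₀ R) * 2⁻¹ * 2⁻¹ * 2⁻¹ ^ i := fun i => by
    have hle : (1 / 2 : ℝ) ^ i ≤ 1 := pow_le_one₀ (by norm_num) (by norm_num)
    refine (bad hTon ν x₀ (by positivity) (by linarith) hR hX (by positivity) h).trans (le_of_eq ?_)
    rw [ENNReal.ofReal_pow (by norm_num), ENNReal.ofReal_ofNat, ENNReal.inv_pow]
    ring
  have h1 := (measure_mono (μ := volume.restrict (ball x₀ R)) hsub).trans (measure_union_le _ _)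
  rw [h0, zero_add, Measure.restrict_apply_self] at h1
  have h2 := h1.trans ((measure_iUnion_le _).trans (ENNReal.tsum_le_tsum hb))
  rw [ENNReal.tsum_mul_left, ENNReal.tsum_geometric_two, mul_assoc,
    ENNReal.inv_mul_cancel two_ne_zero ENNReal.ofNat_ne_top, mul_one, ← div_eq_mul_inv] at h2
  exact absurd h2 (not_le.2 (ENNReal.half_lt_self (measure_ball_pos _ _ hR).ne'
    measure_ball_lt_top.ne))

theorem alg (n i : ℕ) {q R B m : ℝ} (hq : 0 < q) (hR : 0 < R) (hB : 0 < B) (hm : 0 ≤ m)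
    (h : m ≤ 2 ^ (i + 2) * ((2 * (1 / 2) ^ i) ^ n * (B ^ q * (4 * R) ^ ((n : ℝ) - q)))) :
    (m / (2 * (1 / 2) ^ i * R) ^ ((n : ℝ) - q)) ^ (1 / q) ≤
      (4 * 4 ^ ((n : ℝ) - q) * 2 ^ q) ^ (1 / q) * B * ((2 * (1 / 2) ^ q) ^ (1 / q)) ^ i := by
  have hρ : (0 : ℝ) < 2 * (1 / 2) ^ i := by positivity
  have e1 : (2 * (1 / 2) ^ i : ℝ) ^ n =
      (2 * (1 / 2) ^ i : ℝ) ^ ((n : ℝ) - q) * (2 ^ q * ((1 / 2) ^ q) ^ i) := by
    rw [Real.rpow_pow_comm (by norm_num), ← Real.mul_rpow (by norm_num) (by positivity),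
      ← Real.rpow_add hρ, sub_add_cancel, Real.rpow_natCast]
  have h1 : m / (2 * (1 / 2) ^ i * R) ^ ((n : ℝ) - q) ≤
      (4 * 4 ^ ((n : ℝ) - q) * 2 ^ q) * B ^ q * (2 * (1 / 2) ^ q) ^ i := by
    rw [div_le_iff₀ (by positivity)]
    refine h.trans (le_of_eq ?_)
    rw [e1, Real.mul_rpow hρ.le hR.le, Real.mul_rpow (x := 4) (by norm_num) hR.le,
      mul_pow (2 : ℝ) ((1 / 2) ^ q) i]
    ring
  refine (Real.rpow_le_rpow (by positivity) h1 (by positivity)).trans (le_of_eq ?_)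
  rw [Real.mul_rpow (by positivity) (by positivity), Real.mul_rpow (y := B ^ q) (by positivity)
    (by positivity), Real.rpow_pow_comm (by positivity), one_div q, Real.rpow_rpow_inv hB.le hq.ne']

theorem top {q B m y : ℝ} (hq : 0 < q) (hm : 0 ≤ m) (hy : 0 < y) (h : (m / y) ^ (1 / q) ≤ B) :
    m ≤ B ^ q * y := by
  have h1 := Real.rpow_le_rpow (by positivity) h hq.le
  rwa [one_div, Real.rpow_inv_rpow (by positivity) hq.ne', div_le_iff₀ hy] at h1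

end KPtAux

theorem pkPt (hTon : TonS) : PtS := by
  intro n q hq
  have hq0 : 0 < q := by linarith
  have hb : (2 * (1 / 2) ^ q : ℝ) < 1 := by
    have := Real.rpow_lt_rpow_of_exponent_gt (x := 1 / 2) (by norm_num) (by norm_num) hq
    rw [Real.rpow_one] at this
    linarith
  have ht0 : (0 : ℝ) ≤ (2 * (1 / 2) ^ q : ℝ) ^ (1 / q) := by positivity
  have ht1 : (2 * (1 / 2) ^ q : ℝ) ^ (1 / q) < 1 :=
    Real.rpow_lt_one (by positivity) hb (by positivity)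
  refine ⟨(4 * 4 ^ ((n : ℝ) - q) * 2 ^ q) ^ (1 / q) * (1 - (2 * (1 / 2) ^ q : ℝ) ^ (1 / q))⁻¹,
    mul_pos (by positivity) (inv_pos.2 (sub_pos.2 ht1)), fun ν _ hν x₀ k B S hB h hS => ?_⟩
  have hR : (0 : ℝ) < 2 ^ k := by positivity
  have e2 : (2 : ℝ) ^ (k + 2) = 4 * 2 ^ k := by
    rw [zpow_add₀ two_ne_zero]
    norm_num [mul_comm]
  have e3 : ∀ i : ℕ, (2 : ℝ) ^ (k + 1 - i) = 2 * (1 / 2) ^ i * 2 ^ k := fun i => by
    rw [zpow_sub₀ two_ne_zero, zpow_add_one₀ two_ne_zero, zpow_natCast, one_div, inv_pow]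
    ring
  rw [bF, e2] at h
  have h1 := KPtAux.top hq0 ENNReal.toReal_nonneg (by positivity) h
  obtain ⟨x, hx, hxS, hg⟩ := KPtAux.good hTon ν x₀ hR
    (X := B ^ q * (4 * 2 ^ k) ^ ((n : ℝ) - q)) (by positivity)
    ((ENNReal.le_ofReal_iff_toReal_le (hν _ _) (by positivity)).2 h1) hS
  have hle : ∀ i : ℕ, bF ν (n - q) q x (k + 1 - i) ≤ (4 * 4 ^ ((n : ℝ) - q) * 2 ^ q) ^ (1 / q) * B *
      ((2 * (1 / 2) ^ q) ^ (1 / q)) ^ i := fun i => by
    rw [bF, e3]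
    exact KPtAux.alg n i hq0 hR hB ENNReal.toReal_nonneg
      (ENNReal.toReal_le_of_le_ofReal (by positivity) (hg i))
  have hs := (summable_geometric_of_lt_one ht0 ht1).mul_left
    ((4 * 4 ^ ((n : ℝ) - q) * 2 ^ q) ^ (1 / q) * B)
  have hs' : Summable fun i : ℕ => bF ν (n - q) q x (k + 1 - i) :=
    Summable.of_nonneg_of_le (fun i => by unfold bF; positivity) hle hs
  refine ⟨x, hx, hxS, hs', (hs'.tsum_le_tsum hle hs).trans (le_of_eq ?_)⟩
  rw [tsum_mul_left, tsum_geometric_of_lt_one ht0 ht1]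
  ring

end Vale.Agent.P210
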