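import Vale.Agent.P210K.Stm

open Set Filter Topology MeasureTheory Metric
open scoped ENNReal NNReal ContDiff RealInnerProductSpace

namespace Vale.Agent.P210

namespace KRefAux

theorem ex {N : ℕ} (y : E N) (c : ℝ) : ∃ R : W N →L[ℝ] W N,
    ∀ v, R v = (c * v.1 - ⟪y, v.2⟫, (v.1 - ⟪y, v.2⟫ / (c + 1)) • y - v.2) :=
  ⟨(c • ContinuousLinearMap.fst ℝ ℝ (E N) -
      (innerSL ℝ y).comp (ContinuousLinearMap.snd ℝ ℝ (E N))).prod
    ((ContinuousLinearMap.fst ℝ ℝ (E N) -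
      (c + 1)⁻¹ • (innerSL ℝ y).comp (ContinuousLinearMap.snd ℝ ℝ (E N))).smulRight y -
      ContinuousLinearMap.snd ℝ ℝ (E N)), fun v => by simp [div_eq_inv_mul]⟩

end KRefAux

theorem pkRef (hCs : CsS) (hHd : HdS) : RefS := by
  intro N y
  obtain ⟨c, hc⟩ : ∃ c, c = Real.sqrt (1 + ‖y‖ ^ 2) := ⟨_, rfl⟩
  have c0 : 0 ≤ c := hc ▸ Real.sqrt_nonneg _
  have c1 : c + 1 ≠ 0 := by positivity
  have c2 : ‖y‖ ^ 2 = (c - 1) * (c + 1) := by
    have : c ^ 2 = 1 + ‖y‖ ^ 2 := hc ▸ Real.sq_sqrt (by positivity)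
    linarith
  have c3 : ⟪y, y⟫ = (c - 1) * (c + 1) := by rw [real_inner_self_eq_norm_sq, c2]
  have y0 := norm_nonneg y
  have c4 : c ≤ 1 + ‖y‖ := by nlinarith
  have c5 : ‖y‖ ≤ c + 1 := by nlinarith
  obtain ⟨R, hR⟩ := KRefAux.ex y c
  refine ⟨R, ⟨fun u v => ?_, fun z => ?_⟩, fun v => ?_, ?_, fun v => ?_⟩
  · simp only [hR, lz, inner_sub_left, inner_sub_right, real_inner_smul_left,
      real_inner_smul_right, c3, real_inner_comm y u.2]
    field_simp
    ring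
  · have := (hHd N).1 y z
    simp only [lz, lift, ← hc] at this
    simp only [hR, lift]
    linarith
  · simp only [hR, inner_sub_right, real_inner_smul_right, c3]
    refine Prod.ext ?_ ?_
    · field_simp
      ring
    · have e : c * v.1 - ⟪y, v.2⟫ - ((v.1 - ⟪y, v.2⟫ / (c + 1)) * ((c - 1) * (c + 1)) -
          ⟪y, v.2⟫) / (c + 1) = v.1 - ⟪y, v.2⟫ / (c + 1) := by
        field_simp
        ring
      simp only [e, sub_sub_cancel]
  · simp only [hR, lift, ← hc, c3]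
    refine Prod.ext ?_ ?_
    · simp only [norm_zero, ne_eq, OfNat.ofNat_ne_zero, not_false_eq_true, zero_pow, add_zero,
        Real.sqrt_one]
      ring
    · rw [mul_div_cancel_right₀ _ c1, sub_sub_cancel, one_smul, sub_self]
  · have a1 : |v.1| ≤ ‖v‖ := norm_fst_le v
    have a2 : ‖v.2‖ ≤ ‖v‖ := norm_snd_le v
    have a0 := norm_nonneg v
    have a3 : |⟪y, v.2⟫| ≤ ‖y‖ * ‖v‖ :=
      (abs_real_inner_le_norm _ _).trans (mul_le_mul_of_nonneg_left a2 y0)
    rw [hR, Prod.norm_def]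
    refine max_le ?_ ?_
    · have b1 : |c * v.1| ≤ (1 + ‖y‖) * ‖v‖ := by
        rw [abs_mul, abs_of_nonneg c0]
        exact mul_le_mul c4 a1 (abs_nonneg _) (by positivity)
      have b2 := abs_sub (c * v.1) ⟪y, v.2⟫
      rw [Real.norm_eq_abs]
      nlinarith
    · have b1 : |⟪y, v.2⟫ / (c + 1)| ≤ ‖v‖ := by
        rw [abs_div, abs_of_nonneg (by positivity : 0 ≤ c + 1), div_le_iff₀ (by positivity)]
        nlinarith
      have b2 := abs_sub v.1 (⟪y, v.2⟫ / (c + 1))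
      refine (norm_sub_le _ _).trans ?_
      rw [norm_smul, Real.norm_eq_abs]
      nlinarith

end Vale.Agent.P210
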