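import Vale.Agent.P210K.Stm

open Set Filter Topology MeasureTheory Metric
open scoped ENNReal NNReal ContDiff RealInnerProductSpace

namespace Vale.Agent.P210

namespace KSpanAux

theorem small {X : Type} [NormedAddCommGroup X] [NormedSpace ℝ X] (v : X) (r : ℝ) (hr : 0 < r) :
    ∃ c : ℝ, c ≠ 0 ∧ ‖c • v‖ < r := by
  have h1 : 0 < ‖v‖ + 1 := by positivity
  refine ⟨r / (‖v‖ + 1), by positivity, ?_⟩
  rw [norm_smul, Real.norm_eq_abs, abs_of_pos (by positivity), div_mul_eq_mul_div, div_lt_iff₀ h1]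
  nlinarith

end KSpanAux

theorem pkSpan (hDec : DecS) : SpanS := by
  intro n Ω hn hΩ ⟨x0, hx0⟩
  obtain ⟨P, e, f, h1, h2, -⟩ := hDec n
  obtain ⟨r, hr, hb⟩ := Metric.isOpen_iff.1 hΩ x0 hx0
  set S := Submodule.span ℝ (LL '' Ω) with hS
  have hm : ∀ v : E n, ‖v‖ < r → LL (x0 + v) ∈ S := fun v hv =>
    Submodule.subset_span ⟨x0 + v, hb (by simpa using hv), rfl⟩
  have hm0 : LL x0 ∈ S := Submodule.subset_span ⟨x0, hx0, rfl⟩
  have he : e ∈ S := by
    obtain ⟨c, hc, hv⟩ := KSpanAux.small (EuclideanSpace.single (⟨0, hn⟩ : Fin n) (1 : ℝ)) r hr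
    set v : E n := c • EuclideanSpace.single (⟨0, hn⟩ : Fin n) (1 : ℝ) with hvd
    have hv0 : ‖v‖ ≠ 0 := by
      rw [hvd, norm_smul]
      simpa using hc
    have a1 := hm v hv
    have a2 := hm (-v) (by simpa using hv)
    have par : ‖x0 + v‖ ^ 2 + ‖x0 + -v‖ ^ 2 = 2 * (‖x0‖ ^ 2 + ‖v‖ ^ 2) := by
      have := parallelogram_law_with_norm ℝ x0 v
      rw [← sub_eq_add_neg]
      nlinarith
    have key : LL (x0 + v) + LL (x0 + -v) - (2 : ℝ) • LL x0 = (‖v‖ ^ 2) • e := by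
      have e1 : ‖v‖ ^ 2 = ‖x0 + v‖ ^ 2 / 2 + ‖x0 + -v‖ ^ 2 / 2 - 2 * (‖x0‖ ^ 2 / 2) := by
        linarith
      rw [h1, h1, h1, e1, map_add, map_add, map_neg]
      module
    have a3 : (‖v‖ ^ 2) • e ∈ S := by
      rw [← key]
      exact S.sub_mem (S.add_mem a1 a2) (S.smul_mem _ hm0)
    exact (S.smul_mem_iff (pow_ne_zero 2 hv0)).1 a3
  have hP : ∀ v : E n, P v ∈ S := by
    intro v
    obtain ⟨c, hc, hv⟩ := KSpanAux.small v r hr
    have key : c • P v = LL (x0 + c • v) - LL x0 - (‖x0 + c • v‖ ^ 2 / 2 - ‖x0‖ ^ 2 / 2) • e := by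
      rw [h1, h1, map_add, map_smul]
      module
    have a3 : c • P v ∈ S := by
      rw [key]
      exact S.sub_mem (S.sub_mem (hm _ hv) hm0) (S.smul_mem _ he)
    exact (S.smul_mem_iff hc).1 a3
  have hf : f ∈ S := by
    have key : f = LL x0 - (‖x0‖ ^ 2 / 2) • e - P x0 := by
      rw [h1]
      module
    rw [key]
    exact S.sub_mem (S.sub_mem hm0 (S.smul_mem _ he)) (hP _)
  rw [eq_top_iff]
  intro u _
  obtain ⟨a, b, y, rfl⟩ := h2 u
  exact S.add_mem (S.add_mem (S.smul_mem _ he) (S.smul_mem _ hf)) (hP _)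

end Vale.Agent.P210
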