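import Vale.Agent.P210K.Stm

open Set Filter Topology MeasureTheory Metric
open scoped ENNReal NNReal ContDiff RealInnerProductSpace

namespace Vale.Agent.P210

namespace KSt0Aux

variable {n : ℕ} {Ω : Set (E n)} {ρ : E n → ℝ} {d : E n → E n → ℝ}

theorem dens (h : Met Ω ρ d) (q : ℝ) : ContinuousOn (fun y => ρ y ^ q) Ω :=
  h.cont.rpow_const fun y hy => Or.inl (h.pos y hy).ne'

theorem densm (h : Met Ω ρ d) (q : ℝ) :
    AEMeasurable (fun y => ENNReal.ofReal (ρ y ^ q)) (volume.restrict Ω) :=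
  ((dens h q).aemeasurable h.op.measurableSet).ennreal_ofReal

theorem int {F : Type} [NormedAddCommGroup F] [NormedSpace ℝ F] (h : Met Ω ρ d) (q : ℝ)
    {K : Set (E n)} (hK : IsCompact K) (hs : K ⊆ Ω) {g : E n → F} (hg : ContinuousOn g Ω)
    (h0 : ∀ y ∈ Ω \ K, g y = 0) : Integrable g (nu Ω ρ q) := by
  rw [nu, integrable_withDensity_iff_integrable_smul₀' (densm h q)
    (Eventually.of_forall fun _ => ENNReal.ofReal_lt_top)]
  simp only [ENNReal.toReal_ofReal']
  have hc : ContinuousOn (fun y => max (ρ y ^ q) 0 • g y) Ω :=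
    ((dens h q).sup continuousOn_const).smul hg
  exact ((hc.mono hs).integrableOn_compact hK).of_forall_sdiff_eq_zero h.op.measurableSet
    fun y hy => by rw [h0 y hy, smul_zero]

theorem pos (hn : 0 < n) (h : Met Ω ρ d) (q : ℝ) {f : E n → ℝ} (hf : Integrable f (nu Ω ρ q))
    (h0 : ∀ y ∈ Ω, 0 ≤ f y) {U : Set (E n)} (hU : IsOpen U) (hne : U.Nonempty) (hs : U ⊆ Ω)
    (z : E n) (h1 : ∀ y ∈ U, y ≠ z → 0 < f y) : 0 < ∫ y, f y ∂(nu Ω ρ q) := by
  have : Nonempty (Fin n) := ⟨⟨0, hn⟩⟩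
  rw [integral_pos_iff_support_of_nonneg_ae (μ := nu Ω ρ q) (withDensity_absolutelyContinuous _ _
    ((ae_restrict_mem h.op.measurableSet).mono h0)) hf, pos_iff_ne_zero]
  intro hz
  have h2 : volume.restrict Ω (Function.support f) = 0 :=
    withDensity_absolutelyContinuous' (densm h q) ((ae_restrict_mem h.op.measurableSet).mono
      fun y hy => (ENNReal.ofReal_pos.2 (Real.rpow_pos_of_pos (h.pos y hy) q)).ne') hz
  have h3 : volume.restrict Ω (U \ {z}) = 0 :=
    measure_mono_null (fun y hy => (h1 y hy.1 hy.2).ne') h2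
  rw [Measure.restrict_eq_self _ (sdiff_subset.trans hs), measure_sdiff_null (measure_singleton z)]
    at h3
  exact (hU.measure_pos volume hne).ne' h3

/-- the Lorentz form as a continuous linear functional -/
noncomputable def lzL {N : ℕ} (v : W N) : W N →L[ℝ] ℝ :=
  (innerSL ℝ v.2).comp (ContinuousLinearMap.snd ℝ ℝ (E N)) - v.1 • ContinuousLinearMap.fst ℝ ℝ (E N)

theorem lzL_apply {N : ℕ} (v u : W N) : lzL v u = lz u v := by
  simp [lzL, lz, real_inner_comm, mul_comm]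

theorem lz_comm {N : ℕ} (v u : W N) : lz v u = lz u v := by
  simp [lz, real_inner_comm, mul_comm]

end KSt0Aux

open KSt0Aux in
theorem pkSt0 (hLoc : LocS) (hProper : ProperS) (hLl : LlS) : St0S := by
  intro n Ω ρ d hn h x hx r hr
  obtain ⟨hL, -, hc, -⟩ := hLl n
  have hd := (hLoc n Ω ρ d h).2.2.2 x hx
  have hw : ContinuousOn (fun y => max 0 (r - d x y)) Ω :=
    continuousOn_const.sup (continuousOn_const.sub hd)
  have w0 : ∀ y ∈ Ω \ KB Ω d x r, max 0 (r - d x y) = 0 := fun y hy =>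
    max_eq_left (sub_nonpos.2 (not_le.1 fun h' => hy.2 ⟨hy.1, h'⟩).le)
  have hK := hProper n Ω ρ d h x hx r
  have hs : KB Ω d x r ⊆ Ω := fun _ hy => hy.1
  have i1 : Integrable (fun y => max 0 (r - d x y) • sg ρ y) (nu Ω ρ n) :=
    int h _ hK hs (hw.smul (h.cont.smul hc.continuous.continuousOn)) fun y hy => by
      rw [w0 y hy, zero_smul]
  have i2 : ∀ g : E n → ℝ, Continuous g →
      Integrable (fun y => max 0 (r - d x y) * ρ y * g y) (nu Ω ρ n) := fun g hg =>
    int h _ hK hs ((hw.mul h.cont).mul hg.continuousOn) fun y hy => by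
      rw [w0 y hy, zero_mul, zero_mul]
  have p : ∀ (g : E n → ℝ) (z : E n), Continuous g → (∀ y, 0 ≤ g y) → (∀ y, y ≠ z → 0 < g y) →
      0 < ∫ y, max 0 (r - d x y) * ρ y * g y ∂(nu Ω ρ n) := fun g z hg g0 g1 =>
    pos hn h _ (i2 g hg) (fun y hy => mul_nonneg (mul_nonneg (le_max_left _ _) (h.pos y hy).le)
      (g0 y)) (hd.isOpen_inter_preimage h.op (isOpen_Iio (a := r)))
      ⟨x, hx, by simpa [h.self] using hr⟩ inter_subset_left z fun y hy hz =>
        mul_pos (mul_pos (lt_max_of_lt_right (sub_pos.2 hy.2)) (h.pos y hy.1)) (g1 y hz)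
  have e : ∀ T : W (n + 1) →L[ℝ] ℝ, T (bar Ω ρ d r x) =
      ∫ y, max 0 (r - d x y) * ρ y * T (LL y) ∂(nu Ω ρ n) := fun T => by
    rw [bar, ← T.integral_comp_comm i1]
    simp only [sg, map_smul, smul_eq_mul, mul_assoc]
  have e1 : ∀ z, -lz (bar Ω ρ d r x) (LL z) =
      ∫ y, max 0 (r - d x y) * ρ y * (‖y - z‖ ^ 2 / 2) ∂(nu Ω ρ n) := fun z => by
    have := e (-lzL (LL z))
    simpa only [neg_apply, lzL_apply, hL, neg_neg] using this
  have p1 : ∀ z, 0 < (-lzL (bar Ω ρ d r x)) (LL z) := fun z => by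
    rw [neg_apply, lzL_apply, lz_comm, e1]
    exact p _ z (by fun_prop) (fun y => by positivity) fun y hy =>
      half_pos (pow_pos (norm_pos_iff.2 (sub_ne_zero.2 hy)) 2)
  refine ⟨i1, by simpa using i2 (fun _ => 1) continuous_const, fun z => i2 _ (by fun_prop), e1,
    ?_, ?_⟩
  · have := p _ x ((-lzL (bar Ω ρ d r x)).continuous.comp hc.continuous) (fun y => (p1 y).le)
      fun y _ => p1 y
    have h2 := e (-lzL (bar Ω ρ d r x))
    rw [neg_apply, lzL_apply] at h2
    exact neg_pos.1 (this.trans_eq h2.symm)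
  · exact (p (fun y => (1 + ‖y‖ ^ 2) / 2) x (by fun_prop) (fun y => by positivity)
      fun y _ => by positivity).trans_eq (e (ContinuousLinearMap.fst ℝ ℝ _)).symm

end Vale.Agent.P210
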