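import Vale.Agent.P210K.Stm

open Set Filter Topology MeasureTheory Metric
open scoped ENNReal NNReal ContDiff RealInnerProductSpace

namespace Vale.Agent.P210

namespace KSt1Aux

theorem nb_cont {N : ℕ} {u : W N} (hu : lz u u < 0) : ContinuousAt (nb : W N → E N) u := by
  have h1 : Continuous fun v : W N => Real.sqrt (-lz v v) := by
    unfold lz
    fun_prop
  have h2 : Real.sqrt (-lz u u) ≠ 0 := (Real.sqrt_pos.2 (by linarith)).ne'
  exact ((h1.continuousAt.inv₀ h2).smul continuousAt_id).snd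

end KSt1Aux

theorem pkSt1 (hSt0 : St0S) (hLoc : LocS) (hProper : ProperS) (hLl : LlS) : St1S := by
  have _ := hProper
  have _ := hLl
  intro n Ω ρ d r hn h hr hr1 x₁ hx₁
  have hco := (hLoc n Ω ρ d h).2.2.2
  have hae : ∀ᵐ y ∂(nu Ω ρ n), y ∈ Ω :=
    (withDensity_absolutelyContinuous _ _).ae_le (ae_restrict_mem h.op.measurableSet)
  have h1 : ContinuousWithinAt (fun x => bar Ω ρ d (r x) x) Ω x₁ := by
    refine continuousWithinAt_of_dominated
      (F := fun x y => max 0 (r x - d x y) • sg ρ y)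
      (bound := fun y => ‖max 0 (2 - d x₁ y) • sg ρ y‖) ?_ ?_
      (hSt0 n Ω ρ d hn h x₁ hx₁ 2 two_pos).1.norm ?_
    · filter_upwards [self_mem_nhdsWithin] with x hx
      exact (hSt0 n Ω ρ d hn h x hx (r x) (hr1 x hx).1).1.aestronglyMeasurable
    · have h2 : ∀ᶠ x in 𝓝[Ω] x₁, d x₁ x < 1 :=
        (hco x₁ hx₁ x₁ hx₁).eventually_lt_const (by rw [h.self]; exact one_pos)
      filter_upwards [self_mem_nhdsWithin, h2] with x hx hd
      filter_upwards [hae] with y hy
      rw [norm_smul, norm_smul, Real.norm_of_nonneg (le_max_left _ _),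
        Real.norm_of_nonneg (le_max_left _ _)]
      refine mul_le_mul_of_nonneg_right (max_le_max le_rfl ?_) (norm_nonneg _)
      have h3 := h.tri x₁ hx₁ x hx y hy
      have h4 := (hr1 x hx).2
      linarith
    · filter_upwards [hae] with y hy
      have h3 : ContinuousWithinAt (fun x => d x y) Ω x₁ := by
        simp only [fun x => h.symm x y]
        exact hco y hy x₁ hx₁
      exact (continuousWithinAt_const.max ((hr x₁ hx₁).sub h3)).smul continuousWithinAt_const
  exact ContinuousAt.comp_continuousWithinAt (f := fun x => bar Ω ρ d (r x) x)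
    (KSt1Aux.nb_cont (hSt0 n Ω ρ d hn h x₁ hx₁ _ (hr1 x₁ hx₁).1).2.2.2.2.1) h1

end Vale.Agent.P210
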