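import Vale.Agent.P210K.Stm

open Set Filter Topology MeasureTheory Metric
open scoped ENNReal NNReal ContDiff RealInnerProductSpace

namespace Vale.Agent.P210

namespace KSt2Aux

theorem small (a b u v : ℝ) (ha : 0 < a) (hb : 0 < b) (hu : 0 < u) (hv : 0 < v) :
    ∃ t > 0, 2 * t ≤ a ∧ u * t ≤ b ∧ v * t ≤ 1 := by
  refine ⟨min (a / 2) (min (b / u) (1 / v)), by positivity, ?_, ?_, ?_⟩
  · have := min_le_left (a / 2) (min (b / u) (1 / v))
    linarith
  · have := (min_le_right (a / 2) (min (b / u) (1 / v))).trans (min_le_left _ _)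
    rw [le_div_iff₀ hu] at this
    linarith
  · have := (min_le_right (a / 2) (min (b / u) (1 / v))).trans (min_le_right _ _)
    rw [le_div_iff₀ hv] at this
    linarith

end KSt2Aux

theorem pkSt2 (hSt3 : St3S) (hPar : ParS) (hVis : VisS) (hLoc : LocS) : St2S := by
  intro n Ω ρ d η hn hη hM x₁ hx₁
  obtain ⟨M, hM1, hV⟩ := (hVis n hn).2.2.2.2 η hη
  obtain ⟨hL1, hL2, -⟩ := hLoc n Ω ρ d hM
  obtain ⟨r1, hr1, hb, hd1⟩ := hL1 x₁ hx₁ 1 one_pos
  obtain ⟨r2, hr2, c, hc, hd2⟩ := hL2 x₁ hx₁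
  have hρ := hM.pos x₁ hx₁
  obtain ⟨t, ht, t1, t2, t3⟩ := KSt2Aux.small r2 r1 (4 * (M + 1) + 2)
    ((ρ x₁ + 1) * (4 * (M + 1))) hr2 hr1 (by positivity) (by positivity)
  have key : ∀ y ∈ Ω, d x₁ y < c * (2 * t) → ‖y - x₁‖ < 2 * t := fun y hy h => by
    have h1 := lt_of_mul_lt_mul_left ((hd2 y hy).trans_lt h) hc.le
    rcases min_lt_iff.1 h1 with h2 | h2
    · exact h2
    · linarith
  have hct : 0 < c * t := by positivity
  refine ⟨c * t, hct, fun x hx hdx r hr hrδ => ?_⟩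
  have hxx : ‖x - x₁‖ < 2 * t := key x hx (by linarith)
  have hK : KB Ω d x r ⊆ closedBall x (4 * t) := fun y hy => by
    have h1 := hM.tri x₁ hx₁ x hx y hy.1
    have h2 := hy.2
    have h3 := key y hy.1 (by linarith)
    have h4 := norm_sub_le_norm_sub_add_norm_sub y x₁ x
    rw [norm_sub_rev x₁ x] at h4
    rw [mem_closedBall, dist_eq_norm]
    linarith
  obtain ⟨x₀, h, hP⟩ := hPar n (nb (bar Ω ρ d r x))
  obtain ⟨s1, s2⟩ := hSt3 n Ω ρ d hn hM x hx r hr _ hK x₀ h hP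
  have hMt : 0 < M * t := by positivity
  have hsub : ball x₀ (M * h) ⊆ KB Ω d x 1 := fun z hz => by
    rw [mem_ball, dist_eq_norm] at hz
    have h1 : M * h ≤ M * (4 * t) := mul_le_mul_of_nonneg_left s2 (by linarith)
    have h2 := norm_sub_le_norm_sub_add_norm_sub z x₀ x
    have h3 : ‖z - x‖ ≤ 4 * (M + 1) * t := by linarith
    have h4 := norm_sub_le_norm_sub_add_norm_sub z x x₁
    have hz1 : z ∈ ball x₁ r1 := by
      rw [mem_ball, dist_eq_norm]; linarith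
    have hx1 : x ∈ ball x₁ r1 := by
      rw [mem_ball, dist_eq_norm]; linarith
    refine ⟨hb hz1, (hd1 x hx1 z hz1).trans ?_⟩
    rw [norm_sub_rev]
    have h5 := mul_le_mul_of_nonneg_left h3 (by linarith : 0 ≤ ρ x₁ + 1)
    linarith
  exact (hV _ x₀ h hP).trans (lintegral_mono_set hsub)

end Vale.Agent.P210
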