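import Vale.Agent.P210K.Stm

open Set Filter Topology MeasureTheory Metric
open scoped ENNReal NNReal ContDiff RealInnerProductSpace

namespace Vale.Agent.P210

namespace KSt3Aux

theorem lz_smul_left {N : ℕ} (c : ℝ) (u v : W N) : lz (c • u) v = c * lz u v := by
  simp only [lz, Prod.smul_snd, Prod.smul_fst, real_inner_smul_left, smul_eq_mul]
  ring

theorem lz_smul_right {N : ℕ} (c : ℝ) (u v : W N) : lz u (c • v) = c * lz u v := by
  simp only [lz, Prod.smul_snd, Prod.smul_fst, real_inner_smul_right, smul_eq_mul]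
  ring

theorem lift_nb (hCs : CsS) {N : ℕ} {u : W N} (h1 : lz u u < 0) (h2 : 0 < u.1) :
    lift (nb u) = (Real.sqrt (-lz u u))⁻¹ • u := by
  have hs : 0 < Real.sqrt (-lz u u) := Real.sqrt_pos.2 (by linarith)
  have hq : Real.sqrt (-lz u u) * Real.sqrt (-lz u u) = -lz u u :=
    Real.mul_self_sqrt (by linarith)
  refine ((hCs N 0).2.2.2.2 _ ?_ ?_).symm
  · rw [lz_smul_left, lz_smul_right]
    generalize Real.sqrt (-lz u u) = t at hs hq
    have e : lz u u = -(t * t) := by linarith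
    rw [e]
    field_simp
  · exact mul_pos (inv_pos.2 hs) h2

theorem par {n : ℕ} (a e : E n) (he : ‖e‖ = 1) :
    ‖a + e‖ ^ 2 + ‖a - e‖ ^ 2 = 2 * ‖a‖ ^ 2 + 2 := by
  have := parallelogram_law_with_norm ℝ a e
  rw [he] at this
  nlinarith

theorem ae_mem {n : ℕ} {Ω : Set (E n)} (hΩ : IsOpen Ω) (ρ : E n → ℝ) (q : ℝ) :
    ∀ᵐ y ∂(nu Ω ρ q), y ∈ Ω :=
  (withDensity_absolutelyContinuous _ _).ae_le (ae_restrict_mem hΩ.measurableSet)

end KSt3Aux

theorem pkSt3 (hSt0 : St0S) (hCs : CsS) : St3S := by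
  intro n Ω ρ d hn hM x hx r hr R hR x₀ h hP
  obtain ⟨-, i1, i2, e1, n1, n2⟩ := hSt0 n Ω ρ d hn hM x hx r hr
  obtain ⟨hh, hP⟩ := hP
  rw [KSt3Aux.lift_nb hCs n1 n2] at hP
  have hκ : 0 < (Real.sqrt (-lz (bar Ω ρ d r x) (bar Ω ρ d r x)))⁻¹ :=
    inv_pos.2 (Real.sqrt_pos.2 (by linarith))
  generalize (Real.sqrt (-lz (bar Ω ρ d r x) (bar Ω ρ d r x)))⁻¹ = κ at hP hκ
  have hI : ∀ z, κ * ∫ y, max 0 (r - d x y) * ρ y * (‖y - z‖ ^ 2 / 2) ∂(nu Ω ρ n) =
      (‖z - x₀‖ ^ 2 + h ^ 2) / (2 * h) := by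
    intro z
    rw [← hP z, ← e1 z, KSt3Aux.lz_smul_left]
    ring
  have hR0 : 0 ≤ R := by
    have := hR ⟨hx, by rw [hM.self]; exact hr.le⟩
    simpa using this
  obtain ⟨e, he⟩ : ∃ e : E n, ‖e‖ = 1 :=
    ⟨EuclideanSpace.single ⟨0, hn⟩ 1, by simp⟩
  have hsum : ∫ y, max 0 (r - d x y) * ρ y * (‖y - (x + e)‖ ^ 2 / 2) ∂(nu Ω ρ n) +
      ∫ y, max 0 (r - d x y) * ρ y * (‖y - (x - e)‖ ^ 2 / 2) ∂(nu Ω ρ n) =
      2 * ∫ y, max 0 (r - d x y) * ρ y * (‖y - x‖ ^ 2 / 2) ∂(nu Ω ρ n) +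
        ∫ y, max 0 (r - d x y) * ρ y ∂(nu Ω ρ n) := by
    rw [← integral_add (i2 _) (i2 _), ← integral_const_mul, ← integral_add ((i2 x).const_mul 2) i1]
    refine integral_congr_ae (Eventually.of_forall fun y => ?_)
    have p := KSt3Aux.par (y - x) e he
    have a1 : y - (x + e) = y - x - e := by abel
    have a2 : y - (x - e) = y - x + e := by abel
    simp only [a1, a2]
    linear_combination (max 0 (r - d x y) * ρ y / 2) * p
  have hw : κ * ∫ y, max 0 (r - d x y) * ρ y ∂(nu Ω ρ n) = 1 / h := by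
    have p := KSt3Aux.par (x - x₀) e he
    have a1 : x + e - x₀ = x - x₀ + e := by abel
    have a2 : x - e - x₀ = x - x₀ - e := by abel
    have b1 := hI (x + e)
    have b2 := hI (x - e)
    have b3 := hI x
    rw [a1] at b1
    rw [a2] at b2
    have b4 : (‖x - x₀ + e‖ ^ 2 + h ^ 2) / (2 * h) + (‖x - x₀ - e‖ ^ 2 + h ^ 2) / (2 * h) =
        2 * ((‖x - x₀‖ ^ 2 + h ^ 2) / (2 * h)) + 1 / h := by
      field_simp
      linarith
    linear_combination b1 + b2 - 2 * b3 + b4 - κ * hsum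
  have hle : ∫ y, max 0 (r - d x y) * ρ y * (‖y - x‖ ^ 2 / 2) ∂(nu Ω ρ n) ≤
      (∫ y, max 0 (r - d x y) * ρ y ∂(nu Ω ρ n)) * (R ^ 2 / 2) := by
    rw [← integral_mul_const]
    refine integral_mono_ae (i2 x) (i1.mul_const _) ?_
    filter_upwards [KSt3Aux.ae_mem hM.op ρ n] with y hy
    by_cases hd : d x y ≤ r
    · have h1 : ‖y - x‖ ≤ R := by
        have := hR ⟨hy, hd⟩
        rwa [mem_closedBall, dist_eq_norm] at this
      have h2 : ‖y - x‖ ^ 2 ≤ R ^ 2 := pow_le_pow_left₀ (norm_nonneg _) h1 2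
      exact mul_le_mul_of_nonneg_left (by linarith)
        (mul_nonneg (le_max_left _ _) (hM.pos y hy).le)
    · rw [max_eq_left (by linarith [not_le.1 hd])]
      simp
  have hfin : ‖x - x₀‖ ^ 2 + h ^ 2 ≤ R ^ 2 := by
    have h1 := mul_le_mul_of_nonneg_left hle hκ.le
    rw [hI x, ← mul_assoc, hw, div_le_iff₀ (by positivity)] at h1
    have h2 : 1 / h * (R ^ 2 / 2) * (2 * h) = R ^ 2 := by field_simp
    rwa [h2] at h1
  constructor
  · rw [norm_sub_rev]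
    exact (pow_le_pow_iff_left₀ (norm_nonneg _) hR0 two_ne_zero).1 (by nlinarith [sq_nonneg h])
  · exact (pow_le_pow_iff_left₀ hh.le hR0 two_ne_zero).1 (by nlinarith [sq_nonneg ‖x - x₀‖])

end Vale.Agent.P210
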