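import Vale.Agent.P210K.Stm

open Set Filter Topology MeasureTheory Metric
open scoped ENNReal NNReal ContDiff RealInnerProductSpace

namespace Vale.Agent.P210

namespace KSt4Aux

variable {X : Type}

/-- radii up to which the property holds -/
def SS (Q : X → ℝ → Prop) (x : X) : Set ℝ :=
  {r | 0 ≤ r ∧ r ≤ 1 ∧ ∀ r', 0 < r' → r' ≤ r → Q x r'}

theorem zero_mem (Q : X → ℝ → Prop) (x : X) : (0 : ℝ) ∈ SS Q x :=
  ⟨le_rfl, zero_le_one, fun _ h h' => absurd h' (not_le.2 h)⟩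

theorem bdd (Q : X → ℝ → Prop) (x : X) : BddAbove (SS Q x) := ⟨1, fun _ h => h.2.1⟩

/-- values in the infimal convolution -/
def TT (Ω : Set X) (d : X → X → ℝ) (Q : X → ℝ → Prop) (x : X) : Set ℝ :=
  (fun y => sSup (SS Q y) + d y x) '' Ω

end KSt4Aux

open KSt4Aux in
theorem pkSt4 (hLoc : LocS) : St4S := by
  intro n Ω ρ d Q hM hQ
  have s0 : ∀ y, 0 ≤ sSup (SS Q y) := fun y => le_csSup (bdd Q y) (zero_mem Q y)
  have s1 : ∀ y, sSup (SS Q y) ≤ 1 := fun y => csSup_le ⟨0, zero_mem Q y⟩ fun _ h => h.2.1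
  have b : ∀ x, BddBelow (TT Ω d Q x) := fun x =>
    ⟨0, by rintro _ ⟨y, -, rfl⟩; exact add_nonneg (s0 y) (hM.nonneg _ _)⟩
  have up : ∀ x, ∀ y ∈ Ω, sInf (TT Ω d Q x) ≤ sSup (SS Q y) + d y x := fun x y hy =>
    csInf_le (b x) ⟨y, hy, rfl⟩
  have lo : ∀ x ∈ Ω, ∀ c, (∀ y ∈ Ω, c ≤ sSup (SS Q y) + d y x) → c ≤ sInf (TT Ω d Q x) :=
    fun x hx c h => le_csInf ⟨_, x, hx, rfl⟩ (by rintro _ ⟨y, hy, rfl⟩; exact h y hy)
  have lip : ∀ x ∈ Ω, ∀ x' ∈ Ω, sInf (TT Ω d Q x) - d x' x ≤ sInf (TT Ω d Q x') :=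
    fun x hx x' hx' => lo x' hx' _ fun y hy => by
      linarith [up x y hy, hM.tri y hy x' hx' x hx]
  refine ⟨fun x => sInf (TT Ω d Q x) / 2, ContinuousOn.div_const (fun x hx => ?_) 2,
    fun x hx => ?_, fun φ hφ hd hq x hx => ?_⟩
  · have c := (hLoc n Ω ρ d hM).2.2.2 x hx x hx
    rw [ContinuousWithinAt, hM.self] at c
    rw [ContinuousWithinAt, tendsto_iff_dist_tendsto_zero]
    refine squeeze_zero' (.of_forall fun _ => dist_nonneg) ?_ c
    filter_upwards [self_mem_nhdsWithin] with y hy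
    rw [Real.dist_eq, abs_le]
    constructor <;> linarith [lip x hx y hy, lip y hy x hx, hM.symm x y]
  · obtain ⟨δ, hδ, h⟩ := hQ x hx
    have m0 : 0 < min δ 1 := lt_min hδ one_pos
    have p : min δ 1 ≤ sInf (TT Ω d Q x) := lo x hx _ fun y hy => by
      rcases lt_or_ge (d x y) δ with q | q
      · have : min δ 1 ≤ sSup (SS Q y) := le_csSup (bdd Q y) ⟨m0.le, min_le_right _ _,
          fun r h1 h2 => h y hy q r h1 (h2.trans (min_le_left _ _))⟩
        linarith [hM.nonneg y x]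
      · linarith [min_le_left δ 1, s0 y, hM.symm x y]
    have u := up x x hx
    rw [hM.self, add_zero] at u
    obtain ⟨s, hs, hlt⟩ := exists_lt_of_lt_csSup ⟨0, zero_mem Q x⟩
      (show sInf (TT Ω d Q x) / 2 < sSup (SS Q x) by linarith)
    exact ⟨by linarith, by linarith [s1 x], hs.2.2 _ (by linarith) hlt.le⟩
  · have e : ∀ y ∈ Ω, SS Q (φ y) = SS Q y := fun y hy => by
      ext r
      exact and_congr_right fun _ => and_congr_right fun _ => forall_congr' fun r' =>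
        forall_congr' fun h => by rw [hq y hy r' h]
    have e2 : TT Ω d Q (φ x) = TT Ω d Q x := by
      rw [TT, TT]
      conv_lhs => rw [← hφ.image_eq, image_image]
      exact image_congr fun y hy => by rw [e y hy, hd y hy x hx]
    simp only [e2]

end Vale.Agent.P210
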