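import Vale.Agent.P210K.Stm

open Set Filter Topology MeasureTheory Metric
open scoped ENNReal NNReal ContDiff RealInnerProductSpace

namespace Vale.Agent.P210

namespace KStartAux

theorem lz_smul {N : ℕ} (c : ℝ) (u : W N) : lz (c • u) (c • u) = c ^ 2 * lz u u := by
  simp only [lz, Prod.smul_snd, Prod.smul_fst, smul_eq_mul, inner_smul_left, inner_smul_right,
    RCLike.conj_to_real]
  ring

theorem nb_map (hCs : CsS) {N : ℕ} {A : W N →L[ℝ] W N} (hA : IsLor A) {u : W N}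
    (h1 : lz u u < 0) (h2 : 0 < u.1) : nb (A u) = act A (nb u) := by
  have hs : 0 < Real.sqrt (-lz u u) := Real.sqrt_pos.2 (neg_pos.2 h1)
  have e : (Real.sqrt (-lz u u))⁻¹ • u = lift (nb u) := by
    refine (hCs N 0).2.2.2.2 _ ?_ (mul_pos (inv_pos.2 hs) h2)
    rw [lz_smul, inv_pow, Real.sq_sqrt (neg_pos.2 h1).le, inv_mul_eq_div, div_neg, div_self h1.ne]
  rw [act, ← e, map_smul, nb, hA.iso]

end KStartAux

theorem pkStart (hSt0 : St0S) (hSt1 : St1S) (hSt2 : St2S) (hSt4 : St4S) (hEqv : EqvS) (hCs : CsS) (hLor : LorS) : StartS := by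
  intro n Ω ρ d η hn hη hM
  have key : ∀ φ A, Sym Ω ρ d φ A → ∀ x ∈ Ω, ∀ r, 0 < r →
      nb (bar Ω ρ d r (φ x)) = act A (nb (bar Ω ρ d r x)) := fun φ A h x hx r hr => by
    obtain ⟨-, -, -, -, h1, h2⟩ := hSt0 n Ω ρ d hn hM x hx r hr
    rw [(hEqv n Ω ρ d φ A hn hM h).2.1 x hx r hr, KStartAux.nb_map hCs h.lor h1 h2]
  obtain ⟨r, rc, hr, hi⟩ := hSt4 n Ω ρ d (fun x r => Near Ω d η x (nb (bar Ω ρ d r x)) 1) hM
    (hSt2 n Ω ρ d η hn hη hM)
  refine ⟨fun x => nb (bar Ω ρ d (r x) x),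
    hSt1 n Ω ρ d r hn hM rc fun x hx => ⟨(hr x hx).1, (hr x hx).2.1⟩,
    fun x hx => (hr x hx).2.2, fun φ A h x hx => ?_⟩
  have e := hi φ h.bij h.dist (fun y hy s hs => by
    rw [key φ A h y hy s hs, Near, Near, (hEqv n Ω ρ d φ A hn hM h).2.2 y hy]) x hx
  change nb (bar Ω ρ d (r (φ x)) (φ x)) = _
  rw [e, key φ A h x hx _ (hr x hx).1]

end Vale.Agent.P210
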