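import Vale.Agent.P210K.Stm

open Set Filter Topology MeasureTheory Metric
open scoped ENNReal NNReal ContDiff RealInnerProductSpace

namespace Vale.Agent.P210

namespace KStepGAux

theorem term {w : ℝ≥0∞} {t : ℝ} (ht : 0 < t) :
    w * ENNReal.ofReal (1 / t) * ENNReal.ofReal (2 * t) ≤ ENNReal.ofReal 4 * w := by
  rw [mul_assoc, ← ENNReal.ofReal_mul (by positivity), mul_comm]
  refine mul_le_mul_left (ENNReal.ofReal_le_ofReal ?_) w
  have : 1 / t * (2 * t) = 2 := by field_simp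
  rw [this]
  norm_num

theorem step1 (hAvg : AvgS) {Y : Type} [PseudoMetricSpace Y] {ε : ℝ} {I : Type} (hI : Countable I)
    (x : I → Y) (t : I → ℝ) (wt : I → ℝ≥0∞) (h0 : 0 < ε) (ht : ∀ i, 0 < t i ∧ t i ≤ ε / 10)
    (z : Y) : ∃ r : ℝ, ε / 4 ≤ r ∧ r ≤ ε / 2 ∧ (∀ i, |dist (x i) z - r| ≤ t i → x i ∈ ball z ε) ∧
      ∑' i, {i | |dist (x i) z - r| ≤ t i}.indicator
        (fun i => wt i * ENNReal.ofReal (1 / t i)) i ≤
        ENNReal.ofReal (16 / ε) * WtG x wt (ball z ε) := by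
  obtain ⟨r, ⟨hr1, hr2⟩, hav⟩ := hAvg I hI (fun i => dist (x i) z) t
    ((x ⁻¹' ball z ε).indicator fun i => wt i * ENNReal.ofReal (1 / t i))
    (ε / 4) (ε / 2) (by linarith) fun i => (ht i).1.le
  have hw : ∀ i, |dist (x i) z - r| ≤ t i → x i ∈ ball z ε := fun i hi =>
    mem_ball.2 (by linarith [(abs_le.1 hi).2, (ht i).2])
  refine ⟨r, hr1, hr2, hw, ?_⟩
  have e1 : ∀ i, {i | |dist (x i) z - r| ≤ t i}.indicator
      (fun i => wt i * ENNReal.ofReal (1 / t i)) i =
      {i | |dist (x i) z - r| ≤ t i}.indicator ((x ⁻¹' ball z ε).indicator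
        fun i => wt i * ENNReal.ofReal (1 / t i)) i := by
    intro i
    by_cases hi : i ∈ {i | |dist (x i) z - r| ≤ t i}
    · have hi' : i ∈ x ⁻¹' ball z ε := hw i hi
      rw [indicator_of_mem hi, indicator_of_mem hi, indicator_of_mem hi']
    · rw [indicator_of_notMem hi, indicator_of_notMem hi]
  have e2 : ∑' i, (x ⁻¹' ball z ε).indicator
      (fun i => wt i * ENNReal.ofReal (1 / t i)) i * ENNReal.ofReal (2 * t i) ≤
      ENNReal.ofReal 4 * WtG x wt (ball z ε) := by
    unfold WtG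
    rw [← ENNReal.tsum_mul_left]
    refine ENNReal.tsum_le_tsum fun i => ?_
    by_cases hi : i ∈ x ⁻¹' ball z ε
    · rw [indicator_of_mem hi, indicator_of_mem hi]
      exact term (ht i).1
    · rw [indicator_of_notMem hi, zero_mul]
      exact bot_le
  have e3 : ENNReal.ofReal 4 = ENNReal.ofReal (16 / ε) * ENNReal.ofReal (ε / 2 - ε / 4) := by
    rw [← ENNReal.ofReal_mul (by positivity)]
    refine congrArg _ ?_
    field_simp
    ring
  have e4 := hav.trans e2
  rw [e3, mul_right_comm] at e4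
  rw [tsum_congr e1]
  exact (ENNReal.mul_le_mul_iff_left (ENNReal.ofReal_pos.2 (by linarith)).ne'
    ENNReal.ofReal_ne_top).1 e4

theorem sub {Y : Type} [PseudoMetricSpace Y] {ε u : ℝ} {z z' y : Y} (h0 : 0 < ε)
    (a : y ∈ ball z u) (b : y ∈ ball z' ε) : ball z' ε ⊆ ball z (u + 4 * ε) := by
  intro w hw
  rw [mem_ball] at a b hw ⊢
  have d := dist_triangle_left z' z y
  have e := dist_triangle w z' z
  linarith

end KStepGAux

theorem pkStepG (hAvg : AvgS) : StepGS := by
  intro Y _ ε I hI x t wt Z h0 ht hZ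
  classical
  choose r hr using KStepGAux.step1 hAvg hI x t wt h0 ht
  refine ⟨r, fun z => ⟨(hr z).1, (hr z).2.1⟩, fun z u => ?_⟩
  set U := ball z (u + 4 * ε) with hU
  let Z' := {z' // z' ∈ Z ∧ ball z' ε ⊆ U}
  have k1 : ∀ i, (x ⁻¹' ball z u).indicator (fun i =>
      if HitG Z r x t i then wt i * ENNReal.ofReal (1 / t i) else wt i) i ≤
      (x ⁻¹' U).indicator wt i + ∑' z' : Z', {i | |dist (x i) z'.1 - r z'.1| ≤ t i}.indicator
        (fun i => wt i * ENNReal.ofReal (1 / t i)) i := fun i => by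
    by_cases hi : i ∈ x ⁻¹' ball z u
    · rw [indicator_of_mem hi]
      split_ifs with h
      · obtain ⟨z', hz', hh⟩ := h
        refine le_add_left (le_trans ?_ (ENNReal.le_tsum
          (⟨z', hz', KStepGAux.sub h0 hi ((hr z').2.2.1 i hh)⟩ : Z')))
        exact (indicator_of_mem (s := {i | |dist (x i) z' - r z'| ≤ t i}) hh
          (fun i => wt i * ENNReal.ofReal (1 / t i))).ge
      · refine le_add_right (indicator_of_mem (s := x ⁻¹' U) ?_ _).ge
        exact ball_subset_ball (by linarith) hi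
    · rw [indicator_of_notMem hi]
      exact zero_le
  have k2 : ∀ i, ∑' z' : Z', (x ⁻¹' ball z'.1 ε).indicator wt i ≤
      (x ⁻¹' U).indicator wt i := fun i => by
    by_cases h : ∃ z' : Z', i ∈ x ⁻¹' ball z'.1 ε
    · obtain ⟨z', hz'⟩ := h
      rw [tsum_eq_single z' fun b hb => indicator_of_notMem
        (s := x ⁻¹' ball b.1 ε) (fun hb' =>
        disjoint_left.1 (hZ b.2.1 z'.2.1 fun e => hb (Subtype.ext e)) hb' hz') wt,
        indicator_of_mem hz', indicator_of_mem (s := x ⁻¹' U) (z'.2.2 hz')]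
    · rw [ENNReal.tsum_eq_zero.2 fun z' => indicator_of_notMem (fun a => h ⟨z', a⟩) _]
      exact zero_le
  refine (ENNReal.tsum_le_tsum k1).trans ?_
  rw [ENNReal.tsum_add, ENNReal.tsum_comm, ENNReal.ofReal_add zero_le_one (by positivity),
    ENNReal.ofReal_one, add_mul, one_mul]
  refine add_le_add le_rfl ((ENNReal.tsum_le_tsum fun z' : Z' => (hr z'.1).2.2.2).trans ?_)
  rw [ENNReal.tsum_mul_left]
  refine mul_le_mul_right ?_ _
  unfold WtG
  rw [ENNReal.tsum_comm]
  exact ENNReal.tsum_le_tsum k2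

end Vale.Agent.P210
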