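import Vale.Agent.P210K.Stm

open Set Filter Topology MeasureTheory Metric
open scoped ENNReal NNReal ContDiff RealInnerProductSpace

namespace Vale.Agent.P210

namespace KStopAux

end KStopAux

theorem pkStop : StopS := by
  intro N b T hT hc hp hm
  have II : ∀ y u v, IntervalIntegrable (fun t => b t y) volume u v :=
    fun y u v => (hm y).intervalIntegrable
  have sm : ∀ y, StrictMono fun u => ∫ t in (0 : ℝ)..u, b t y := fun y u v huv => by
    have h1 := intervalIntegral.integral_add_adjacent_intervals (II y 0 u) (II y u v)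
    have h2 := intervalIntegral.intervalIntegral_pos_of_pos (II y u v) (fun t => hp t y) huv
    simp only
    linarith
  have ex : ∀ y, ∃ τ, 0 ≤ τ ∧ ∫ t in (0 : ℝ)..τ, b t y = T := fun y => by
    have h0 : 0 ≤ T / b 0 y := (div_pos hT (hp 0 y)).le
    have h1 := intervalIntegral.integral_mono_on (μ := volume) h0 (f := fun _ => b 0 y)
      intervalIntegrable_const (II y 0 _) fun t ht => hm y ht.1
    rw [intervalIntegral.integral_const, sub_zero, smul_eq_mul, div_mul_cancel₀ _ (hp 0 y).ne'] at h1
    obtain ⟨τ, h2, h3⟩ := intermediate_value_Icc h0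
      (intervalIntegral.continuous_primitive (II y) 0).continuousOn
      (show T ∈ _ from ⟨by simpa using hT.le, h1⟩)
    exact ⟨τ, h2.1, h3⟩
  choose τ h0 hτ using ex
  have cy : ∀ u, 0 ≤ u → Continuous fun y => ∫ t in (0 : ℝ)..u, b t y := fun u hu => by
    have c1 : Continuous (Function.uncurry fun (y : E N) (t : ℝ) => b (max t 0) y) :=
      hc.comp_continuous (f := fun z : E N × ℝ => (max z.2 0, z.1)) (by fun_prop)
        fun z => ⟨mem_Ici.2 (le_max_right _ _), mem_univ _⟩
    refine (intervalIntegral.continuous_parametric_intervalIntegral_of_continuous' (μ := volume)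
      c1 0 u).congr fun y => intervalIntegral.integral_congr fun t ht => ?_
    rw [uIcc_of_le hu] at ht
    simp only [max_eq_left ht.1]
  refine ⟨τ, continuous_iff_continuousAt.2 fun y => tendsto_order.2 ⟨fun u hu => ?_, fun u hu => ?_⟩,
    fun y => ⟨h0 y, hτ y⟩, fun y u _ h => (sm y).injective (h.trans (hτ y).symm)⟩
  · rcases lt_or_ge u 0 with h | h
    · exact Eventually.of_forall fun z => h.trans_le (h0 z)
    · have h1 : ∫ t in (0 : ℝ)..u, b t y < T := (sm y hu).trans_eq (hτ y)
      exact ((cy u h).continuousAt.eventually_lt continuousAt_const h1).mono fun z hz =>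
        (sm z).lt_iff_lt.1 (hz.trans_eq (hτ z).symm)
  · have h1 : T < ∫ t in (0 : ℝ)..u, b t y := (hτ y).symm.trans_lt (sm y hu)
    exact (continuousAt_const.eventually_lt (cy u ((h0 y).trans hu.le)).continuousAt h1).mono
      fun z hz => (sm z).lt_iff_lt.1 ((hτ z).trans_lt hz)

end Vale.Agent.P210
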