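import Vale.Agent.P210K.Stm

open Set Filter Topology MeasureTheory Metric
open scoped ENNReal NNReal ContDiff RealInnerProductSpace

namespace Vale.Agent.P210

namespace KSvdAux

end KSvdAux

theorem pkSvd : SvdS := by
  intro N L
  have hT := LinearMap.isSymmetric_adjoint_mul_self (L : E N →ₗ[ℝ] E N)
  have hn : Module.finrank ℝ (E N) = N := finrank_euclideanSpace_fin
  have key : ∀ i j, ⟪L (hT.eigenvectorBasis hn i), L (hT.eigenvectorBasis hn j)⟫ =
      if i = j then hT.eigenvalues hn i else 0 := by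
    intro i j
    have h1 := hT.apply_eigenvectorBasis hn i
    have h2 := LinearMap.adjoint_inner_left (L : E N →ₗ[ℝ] E N) (hT.eigenvectorBasis hn j)
      (L (hT.eigenvectorBasis hn i))
    have h3 := orthonormal_iff_ite.1 (hT.eigenvectorBasis hn).orthonormal i j
    have h4 : LinearMap.adjoint (L : E N →ₗ[ℝ] E N) (L (hT.eigenvectorBasis hn i)) =
        hT.eigenvalues hn i • hT.eigenvectorBasis hn i := h1
    rw [h4, real_inner_smul_left, h3] at h2
    rw [← ContinuousLinearMap.coe_coe L, ← show _ = ⟪(L : E N →ₗ[ℝ] E N) (hT.eigenvectorBasis hn i),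
      (L : E N →ₗ[ℝ] E N) (hT.eigenvectorBasis hn j)⟫ from h2]
    split_ifs <;> simp
  have pos : ∀ i, 0 ≤ hT.eigenvalues hn i := fun i => by
    have := key i i
    rw [if_pos rfl] at this
    rw [← this]
    exact real_inner_self_nonneg
  refine ⟨hT.eigenvectorBasis hn, fun i => Real.sqrt (hT.eigenvalues hn i),
    fun i j hij => Real.sqrt_le_sqrt (hT.eigenvalues_antitone hn hij),
    fun i => Real.sqrt_nonneg _, fun i j => ?_⟩
  rw [key, Real.sq_sqrt (pos i)]

end Vale.Agent.P210
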