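import Vale.Agent.P210K.Stm

open Set Filter Topology MeasureTheory Metric
open scoped ENNReal NNReal ContDiff RealInnerProductSpace

namespace Vale.Agent.P210

namespace KSymGAux

end KSymGAux

theorem pkSymG (hIso0 : Iso0S) (hInvd : InvdS) (hInvm : InvmS) (hLiou : LiouS) (hSpan : SpanS) (hLor : LorS) : SymGS := by
  intro n Ω w d G _ _ hn hΩ hw hM hG
  choose φ h1 h2 using hG
  have mp : ∀ γ, MapsTo (φ γ) Ω Ω := fun γ x hx => by
    rw [h2 γ ⟨x, hx⟩]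
    exact (γ • (⟨x, hx⟩ : Ω)).2
  have mul : ∀ g h, ∀ x ∈ Ω, φ (g * h) x = φ g (φ h x) := fun g h x hx => by
    rw [h2 (g * h) ⟨x, hx⟩, h2 h ⟨x, hx⟩, h2 g, mul_smul]
  have one : ∀ x ∈ Ω, φ 1 x = x := fun x hx => by rw [h2 1 ⟨x, hx⟩, one_smul]
  have inv : ∀ γ, ∀ x ∈ Ω, φ γ⁻¹ (φ γ x) = x := fun γ x hx => by
    rw [← mul _ _ x hx, inv_mul_cancel, one x hx]
  have inv' : ∀ γ, ∀ x ∈ Ω, φ γ (φ γ⁻¹ x) = x := fun γ x hx => by
    rw [← mul _ _ x hx, mul_inv_cancel, one x hx]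
  have iso : ∀ γ, Iso Ω (fun y => Real.exp (w y)) (φ γ) := fun γ =>
    ⟨(h1 γ).1, Set.InvOn.bijOn ⟨inv γ, inv' γ⟩ (mp γ) (mp γ⁻¹), hIso0 n Ω w _ (h1 γ)⟩
  choose A hA1 hA2 using fun γ => hLiou n Ω _ (φ γ) hn hM.op hΩ hw.exp hM.pos (iso γ)
  have ext : ∀ B B' : W (n + 1) →L[ℝ] W (n + 1),
      (∀ x ∈ Ω, B (sg (fun y => Real.exp (w y)) x) = B' (sg (fun y => Real.exp (w y)) x)) →
      ∀ u, B u = B' u := fun B B' h u => by
    have e : (B : W (n + 1) →ₗ[ℝ] W (n + 1)) = B' := by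
      refine LinearMap.ext_on (hSpan n Ω (by omega) hM.op hΩ.nonempty) ?_
      rintro _ ⟨x, hx, rfl⟩
      have k := h x hx
      simp only [sg, map_smul] at k
      exact smul_right_injective _ (Real.exp_pos _).ne' k
    exact LinearMap.congr_fun e u
  refine ⟨φ, A, fun γ => ⟨(h1 γ).1.continuousOn, (iso γ).bij, fun x hx y hy => ?_,
    hInvm n Ω _ _ hM.op hM.cont hM.pos (iso γ), hA1 γ, hA2 γ⟩, h2, fun y => ?_, fun g h y => ?_⟩
  · refine le_antisymm (hInvd n Ω _ d _ hM (iso γ) x hx y hy) ?_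
    have k := hInvd n Ω _ d _ hM (iso γ⁻¹) _ (mp γ hx) _ (mp γ hy)
    rwa [inv γ x hx, inv γ y hy] at k
  · have k := ext (A 1) (ContinuousLinearMap.id ℝ _)
      (fun x hx => by rw [← hA2 1 x hx, one x hx]; rfl) (lift y)
    rw [act, k]
    rfl
  · have k := ext (A (g * h)) ((A g).comp (A h)) (fun x hx => by
      rw [← hA2 _ x hx, mul g h x hx, hA2 g _ (mp h hx), hA2 h x hx]; rfl) (lift y)
    rw [act, k, act, ← (hLor _ _ (hA1 h)).1 y]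
    rfl

end Vale.Agent.P210
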