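import Vale.Agent.P210K.Stm

open Set Filter Topology MeasureTheory Metric
open scoped ENNReal NNReal ContDiff RealInnerProductSpace

namespace Vale.Agent.P210

theorem pkSymm : SymmS := by
  intro n X _ _ _ Ω f hΩ hf
  have hd : ContDiffOn ℝ ∞ (fderiv ℝ f) Ω := hf.fderiv_of_isOpen hΩ (by simp)
  refine ⟨fun i => hd.clm_apply contDiffOn_const, fun i j x hx => ?_⟩
  have hx' := hΩ.mem_nhds hx
  have h1 : DifferentiableAt ℝ (fderiv ℝ f) x :=
    (hd.contDiffAt hx').differentiableAt (by simp)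
  have e : ∀ a b : Fin n, pv a (pv b f) x =
      fderiv ℝ (fderiv ℝ f) x (EuclideanSpace.single a 1) (EuclideanSpace.single b 1) := by
    intro a b
    have h2 := h1.hasFDerivAt.clm_apply
      (hasFDerivAt_const (EuclideanSpace.single b (1 : ℝ) : E n) x)
    have h3 : fderiv ℝ (pv b f) x = _ := h2.fderiv
    rw [pv, h3]
    simp
  rw [e, e]
  have h4 : ContDiffAt ℝ 2 f x := (hf.contDiffAt hx').of_le (WithTop.coe_le_coe.2 (le_top : (2 : ℕ∞) ≤ ⊤))
  exact (h4.isSymmSndFDerivAt (by simp)).eq _ _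

end Vale.Agent.P210
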