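import Vale.Agent.P210K.Stm

open Set Filter Topology MeasureTheory Metric
open scoped ENNReal NNReal ContDiff RealInnerProductSpace

namespace Vale.Agent.P210

namespace KTay0Aux

theorem pw {t K u x : ℝ} (ht : 0 ≤ t) (hK : 1 ≤ K) (hu : 0 < u) (hx : u / K ≤ x) :
    x ^ (-t) ≤ K ^ t * u ^ (-t) := by
  have K0 : 0 < K := by linarith
  have h1 : x ^ (-t) ≤ (u / K) ^ (-t) :=
    Real.rpow_le_rpow_of_nonpos (by positivity) hx (by linarith)
  rw [Real.div_rpow hu.le K0.le, Real.rpow_neg K0.le, div_inv_eq_mul, mul_comm] at h1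
  exact h1

theorem mv {r K u a b : ℝ} (hr : 0 < r) (hK : 1 ≤ K) (hu : 0 < u) (ha : u / K ≤ a)
    (hb : u / K ≤ b) : |b ^ (-r) - a ^ (-r)| ≤ r * K ^ (r + 1) * u ^ (-r - 1) * |b - a| := by
  have K0 : 0 < K := by linarith
  have p0 : 0 < u / K := by positivity
  have := Convex.norm_image_sub_le_of_norm_hasDerivWithin_le (s := Ici (u / K))
    (f := fun x : ℝ => x ^ (-r)) (f' := fun x => -r * x ^ (-r - 1))
    (C := r * K ^ (r + 1) * u ^ (-r - 1)) (x := a) (y := b)
    (fun x hx => (Real.hasDerivAt_rpow_const (Or.inl (p0.trans_le hx).ne')).hasDerivWithinAt)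
    (fun x hx => by
      have x0 : 0 < x := p0.trans_le hx
      have h := pw (t := r + 1) (by linarith) hK hu hx
      rw [show -(r + 1) = -r - 1 by ring] at h
      rw [Real.norm_eq_abs, abs_mul, abs_neg, abs_of_pos hr,
        abs_of_pos (Real.rpow_pos_of_pos x0 _), mul_assoc]
      exact mul_le_mul_of_nonneg_left h hr.le) (convex_Ici _) ha hb
  simpa only [Real.norm_eq_abs] using this

theorem mv2 {r K u a b : ℝ} (hr : 0 < r) (hK : 1 ≤ K) (hu : 0 < u) (ha : u / K ≤ a)
    (hb : u / K ≤ b) : |b ^ (-r) - a ^ (-r) + r * a ^ (-r - 1) * (b - a)| ≤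
      r * ((r + 1) * K ^ (r + 2)) * u ^ (-r - 2) * (b - a) ^ 2 := by
  have K0 : 0 < K := by linarith
  have p0 : 0 < u / K := by positivity
  have sub : ∀ x ∈ uIcc a b, u / K ≤ x := fun x hx => (le_min ha hb).trans hx.1
  have := Convex.norm_image_sub_le_of_norm_hasDerivWithin_le (s := uIcc a b)
    (f := fun x : ℝ => x ^ (-r) + r * a ^ (-r - 1) * x)
    (f' := fun x => -r * x ^ (-r - 1) + r * a ^ (-r - 1) * 1)
    (C := r * ((r + 1) * K ^ (r + 2)) * u ^ (-r - 2) * |b - a|) (x := a) (y := b)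
    (fun x hx => ((Real.hasDerivAt_rpow_const (Or.inl (p0.trans_le (sub x hx)).ne')).add
      ((hasDerivAt_id' x).const_mul _)).hasDerivWithinAt)
    (fun x hx => by
      have h := mv (r := r + 1) (by linarith) hK hu ha (sub x hx)
      rw [show -(r + 1) - 1 = -r - 2 by ring, show -(r + 1) = -r - 1 by ring,
        show r + 1 + 1 = r + 2 by ring] at h
      have h2 : |x - a| ≤ |b - a| := abs_sub_left_of_mem_uIcc hx
      rw [Real.norm_eq_abs, show -r * x ^ (-r - 1) + r * a ^ (-r - 1) * 1 =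
        -(r * (x ^ (-r - 1) - a ^ (-r - 1))) by ring, abs_neg, abs_mul, abs_of_pos hr,
        mul_assoc, mul_assoc]
      refine mul_le_mul_of_nonneg_left (h.trans ?_) hr.le
      rw [← mul_assoc]
      exact mul_le_mul_of_nonneg_left h2 (by positivity)) (convex_uIcc a b) left_mem_uIcc
    right_mem_uIcc
  simp only [Real.norm_eq_abs] at this
  rw [mul_assoc _ |b - a|, abs_mul_abs_self, ← sq] at this
  rw [show b ^ (-r) - a ^ (-r) + r * a ^ (-r - 1) * (b - a) =
    b ^ (-r) + r * a ^ (-r - 1) * b - (a ^ (-r) + r * a ^ (-r - 1) * a) by ring]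
  exact this

end KTay0Aux

theorem pkTay0 : Tay0S := by
  intro r K hr hK
  have K0 : 0 < K := by linarith
  have c1 : 0 < K ^ r := by positivity
  have c2 : 0 < r * K ^ (r + 1) := by positivity
  have c3 : 0 < r * ((r + 1) * K ^ (r + 2)) := by positivity
  refine ⟨K ^ r + r * K ^ (r + 1) + r * ((r + 1) * K ^ (r + 2)), by positivity, ?_⟩
  intro u a b hu h1 h2 h3 _
  have ha : u / K ≤ a := by rw [div_le_iff₀ K0]; linarith
  have hb : u / K ≤ b := by rw [div_le_iff₀ K0]; linarith
  have a0 : 0 < a := (by positivity : 0 < u / K).trans_le ha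
  have hu' : a / K ≤ u := by rw [div_le_iff₀ K0]; linarith
  refine ⟨(KTay0Aux.pw hr.le hK hu ha).trans ?_, (KTay0Aux.pw hr.le hK a0 hu').trans ?_,
    (KTay0Aux.mv hr hK hu ha hb).trans ?_, (KTay0Aux.mv2 hr hK hu ha hb).trans ?_⟩
  · exact mul_le_mul_of_nonneg_right (by linarith) (by positivity)
  · exact mul_le_mul_of_nonneg_right (by linarith) (by positivity)
  · exact mul_le_mul_of_nonneg_right (mul_le_mul_of_nonneg_right (by linarith) (by positivity))
      (by positivity)
  · exact mul_le_mul_of_nonneg_right (mul_le_mul_of_nonneg_right (by linarith) (by positivity))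
      (by positivity)

end Vale.Agent.P210
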