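import Vale.Agent.P210K.Stm

open Set Filter Topology MeasureTheory Metric
open scoped ENNReal NNReal ContDiff RealInnerProductSpace

namespace Vale.Agent.P210

namespace KTay1Aux

variable {N : ℕ}

theorem pw {u : ℝ} (hu : 0 < u) (s x : ℝ) (k : ℕ) (hx : x = -s - k) :
    u ^ x = u ^ (-s) / u ^ k := by
  rw [hx, Real.rpow_sub hu, Real.rpow_natCast]

theorem lz_abs (ξ v : W N) : |lz ξ v| ≤ 2 * ‖ξ‖ * ‖v‖ := by
  have h1 : |⟪ξ.2, v.2⟫| ≤ ‖ξ‖ * ‖v‖ :=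
    (abs_real_inner_le_norm _ _).trans
      (mul_le_mul (norm_snd_le ξ) (norm_snd_le v) (norm_nonneg _) (norm_nonneg _))
  have h2 : |ξ.1 * v.1| ≤ ‖ξ‖ * ‖v‖ := by
    rw [abs_mul]
    exact mul_le_mul (norm_fst_le ξ) (norm_fst_le v) (abs_nonneg _) (norm_nonneg _)
  have h3 : |lz ξ v| ≤ |⟪ξ.2, v.2⟫| + |ξ.1 * v.1| := abs_sub _ _
  linarith

theorem lz_diff (p q ξ : W N) : -lz q ξ - -lz p ξ = -lz ξ (q - p) := by
  simp only [lz, Prod.snd_sub, Prod.fst_sub, inner_sub_right]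
  rw [real_inner_comm q.2 ξ.2, real_inner_comm p.2 ξ.2]
  ring

theorem ff0 (μ : Measure (W N)) (s : ℝ) : FF μ s (lift 0) = ∫ ξ, ξ.1 ^ (-s) ∂μ := by
  simp [FF, lz, lift]

theorem bnd {F : Type} [NormedAddCommGroup F] [NormedSpace ℝ F] {μ : Measure (W N)} {s A : ℝ}
    (hD : Dat μ s A) (f : W N → F) (c : ℝ)
    (h : ∀ ξ, Nul ξ → ‖f ξ‖ ≤ c * ξ.1 ^ (-s)) : ‖∫ ξ, f ξ ∂μ‖ ≤ c * FF μ s (lift 0) := by
  rw [ff0, ← integral_const_mul]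
  exact norm_integral_le_of_norm_le (hD.int.const_mul c) (hD.nul.mono h)

theorem intlz {μ : Measure (W N)} (g : W N → ℝ) (v : W N)
    (h : Integrable (fun ξ => g ξ • ξ) μ) : Integrable (fun ξ => g ξ * lz ξ v) μ := by
  let L : W N →L[ℝ] ℝ := (innerSL ℝ v.2).comp (ContinuousLinearMap.snd ℝ ℝ (E N)) -
    v.1 • ContinuousLinearMap.fst ℝ ℝ (E N)
  have hL : ∀ ξ : W N, L ξ = lz ξ v := by
    intro ξ
    simp only [L, lz, sub_apply, ContinuousLinearMap.comp_apply,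
      smul_apply, ContinuousLinearMap.coe_snd', ContinuousLinearMap.coe_fst',
      innerSL_apply_apply, smul_eq_mul]
    rw [real_inner_comm ξ.2 v.2]
    ring
  refine (L.integrable_comp h).congr (Eventually.of_forall fun ξ => ?_)
  show L (g ξ • ξ) = g ξ * lz ξ v
  rw [map_smul, hL, smul_eq_mul]

theorem isub3 {F : Type} [NormedAddCommGroup F] [NormedSpace ℝ F] {μ : Measure (W N)}
    {f g h : W N → F} (c : ℝ) (hf : Integrable f μ) (hg : Integrable g μ) (hh : Integrable h μ) :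
    ∫ ξ, f ξ - g ξ - c • h ξ ∂μ = ∫ ξ, f ξ ∂μ - ∫ ξ, g ξ ∂μ - c • ∫ ξ, h ξ ∂μ := by
  have h1 : Integrable (fun ξ => f ξ - g ξ) μ := hf.sub hg
  have h2 : Integrable (fun ξ => c • h ξ) μ := hh.smul c
  rw [integral_sub h1 h2, integral_sub hf hg, integral_smul]

end KTay1Aux

open KTay1Aux in
theorem pkTay1 (hPk : PkS) (hMom : MomS) (hHd2 : Hd2S) (hTay0 : Tay0S) : Tay1S := by
  intro N s R hs
  have hK : (1 : ℝ) ≤ 1 + 2 * |R| := by linarith [abs_nonneg R]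
  obtain ⟨C0, hC0, h0⟩ := hTay0 s (1 + 2 * |R|) hs hK
  obtain ⟨C1, hC1, h1⟩ := hTay0 (s + 1) (1 + 2 * |R|) (by linarith) hK
  obtain ⟨C2, hC2, h2⟩ := hTay0 (s + 2) (1 + 2 * |R|) (by linarith) hK
  refine ⟨4 * (C0 + C1 + C2), by positivity, ?_⟩
  intro μ A hD y z hy hz
  have hb : ∀ (ξ : W N), Nul ξ → ∀ x : E N, ‖x‖ ≤ R →
      ξ.1 ≤ (1 + 2 * |R|) * (-lz (lift x) ξ) ∧ -lz (lift x) ξ ≤ (1 + 2 * |R|) * ξ.1 := by
    intro ξ hξ x hx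
    obtain ⟨hp, h3, h4, -⟩ := (hPk N ξ hξ).2 x
    have h5 : 1 + 2 * ‖x‖ ≤ 1 + 2 * |R| := by linarith [le_abs_self R]
    exact ⟨h3.trans (mul_le_mul_of_nonneg_right h5 hp.le),
      h4.trans (mul_le_mul_of_nonneg_right h5 hξ.2.le)⟩
  obtain ⟨y0, y1, y2, yp, yl, -, -⟩ := hMom N μ s A hD y
  obtain ⟨z0, z1, z2, -, -, -, -⟩ := hMom N μ s A hD z
  have hF0 : 0 < FF μ s (lift 0) := (hMom N μ s A hD 0).2.2.2.1
  set δ := lift z - lift y with hδ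
  have hlz : ∀ (ξ : W N), Nul ξ → ∀ v, |lz ξ v| ≤ 2 * ξ.1 * ‖v‖ := by
    intro ξ hξ v
    have := lz_abs ξ v
    rwa [(hPk N ξ hξ).1] at this
  have hsq : ∀ (ξ : W N), Nul ξ → (-lz ξ δ) ^ 2 ≤ 4 * ξ.1 ^ 2 * ‖δ‖ ^ 2 := by
    intro ξ hξ
    have h := hlz ξ hξ δ
    have h' : |lz ξ δ| ^ 2 ≤ (2 * ξ.1 * ‖δ‖) ^ 2 := pow_le_pow_left₀ (abs_nonneg _) h 2
    rw [sq_abs] at h'
    nlinarith
  have e1 : -(s + 1) = -s - 1 := by ring
  have e2 : -(s + 2) = -s - 2 := by ring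
  have e3 : -s - 1 - 1 = -s - 2 := by ring
  refine ⟨?_, ?_, ?_, ?_, fun v => ?_, fun v => ?_⟩
  · have h : FF μ s (lift 0) ≤ C0 * FF μ s (lift y) := by
      rw [ff0, FF, ← integral_const_mul]
      refine integral_mono_ae hD.int (y0.const_mul C0) (hD.nul.mono fun ξ hξ => ?_)
      exact (h0 _ _ _ hξ.2 (hb ξ hξ y hy).1 (hb ξ hξ y hy).2 (hb ξ hξ y hy).1
        (hb ξ hξ y hy).2).2.1
    refine h.trans (mul_le_mul_of_nonneg_right (by linarith) yp.le)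
  · have hi := intlz _ δ y1
    have h := bnd hD (fun ξ => (-lz (lift z) ξ) ^ (-s) - (-lz (lift y) ξ) ^ (-s) -
      s * ((-lz (lift y) ξ) ^ (-s - 1) * lz ξ δ)) (4 * C0 * ‖δ‖ ^ 2) (fun ξ hξ => by
        have h3 := (h0 _ _ _ hξ.2 (hb ξ hξ y hy).1 (hb ξ hξ y hy).2 (hb ξ hξ z hz).1
          (hb ξ hξ z hz).2).2.2.2
        rw [lz_diff, ← hδ, pw hξ.2 s (-s - 2) 2 (by norm_num)] at h3
        have hu := hξ.2
        have h4 : C0 * (ξ.1 ^ (-s) / ξ.1 ^ 2) * (-lz ξ δ) ^ 2 ≤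
            C0 * (ξ.1 ^ (-s) / ξ.1 ^ 2) * (4 * ξ.1 ^ 2 * ‖δ‖ ^ 2) :=
          mul_le_mul_of_nonneg_left (hsq ξ hξ) (by positivity)
        have h5 : C0 * (ξ.1 ^ (-s) / ξ.1 ^ 2) * (4 * ξ.1 ^ 2 * ‖δ‖ ^ 2) =
            4 * C0 * ‖δ‖ ^ 2 * ξ.1 ^ (-s) := by field_simp
        rw [Real.norm_eq_abs, ← h5]
        refine le_trans (le_of_eq ?_) (h3.trans h4)
        exact congrArg abs (by ring))
    have h6 := isub3 s z0 y0 hi
    simp only [smul_eq_mul] at h6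
    rw [h6, ← yl δ, Real.norm_eq_abs] at h
    refine h.trans ?_
    have : 0 ≤ (C1 + C2) * FF μ s (lift 0) * ‖δ‖ ^ 2 := by positivity
    nlinarith
  · have h := bnd hD (fun ξ => (-lz (lift z) ξ) ^ (-s - 1) • ξ - (-lz (lift y) ξ) ^ (-s - 1) • ξ -
      (s + 1) • (((-lz (lift y) ξ) ^ (-s - 2) * lz ξ δ) • ξ)) (4 * C1 * ‖δ‖ ^ 2) (fun ξ hξ => by
        have h3 := (h1 _ _ _ hξ.2 (hb ξ hξ y hy).1 (hb ξ hξ y hy).2 (hb ξ hξ z hz).1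
          (hb ξ hξ z hz).2).2.2.2
        rw [lz_diff, ← hδ, e1, e3, pw hξ.2 s (-s - 1 - 2) 3 (by push_cast; ring)] at h3
        have hu := hξ.2
        have h4 : C1 * (ξ.1 ^ (-s) / ξ.1 ^ 3) * (-lz ξ δ) ^ 2 ≤
            C1 * (ξ.1 ^ (-s) / ξ.1 ^ 3) * (4 * ξ.1 ^ 2 * ‖δ‖ ^ 2) :=
          mul_le_mul_of_nonneg_left (hsq ξ hξ) (by positivity)
        have h5 : C1 * (ξ.1 ^ (-s) / ξ.1 ^ 3) * (4 * ξ.1 ^ 2 * ‖δ‖ ^ 2) * ξ.1 =
            4 * C1 * ‖δ‖ ^ 2 * ξ.1 ^ (-s) := by field_simp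
        rw [smul_smul, ← sub_smul, ← sub_smul, norm_smul, (hPk N ξ hξ).1, Real.norm_eq_abs, ← h5]
        refine mul_le_mul_of_nonneg_right (le_trans (le_of_eq ?_) (h3.trans h4)) hu.le
        exact congrArg abs (by ring))
    rw [isub3 (s + 1) z1 y1 (y2 δ)] at h
    refine le_trans h ?_
    have : 0 ≤ (C0 + C2) * FF μ s (lift 0) * ‖δ‖ ^ 2 := by positivity
    nlinarith
  · have h := bnd hD (fun ξ => (-lz (lift y) ξ) ^ (-s - 1) • ξ) C1 (fun ξ hξ => by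
        have h3 := (h1 _ _ _ hξ.2 (hb ξ hξ y hy).1 (hb ξ hξ y hy).2 (hb ξ hξ z hz).1
          (hb ξ hξ z hz).2).1
        rw [e1, pw hξ.2 s (-s - 1) 1 (by norm_num)] at h3
        have hu := hξ.2
        have hp := ((hPk N ξ hξ).2 y).1
        have h5 : C1 * (ξ.1 ^ (-s) / ξ.1 ^ 1) * ξ.1 = C1 * ξ.1 ^ (-s) := by field_simp
        rw [norm_smul, (hPk N ξ hξ).1, Real.norm_eq_abs, abs_of_nonneg (by positivity), ← h5]
        exact mul_le_mul_of_nonneg_right h3 hu.le)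
    refine le_trans h (mul_le_mul_of_nonneg_right (by linarith) hF0.le)
  · have h := bnd hD (fun ξ => ((-lz (lift y) ξ) ^ (-s - 2) * lz ξ v) • ξ) (2 * C2 * ‖v‖)
      (fun ξ hξ => by
        have h3 := (h2 _ _ _ hξ.2 (hb ξ hξ y hy).1 (hb ξ hξ y hy).2 (hb ξ hξ z hz).1
          (hb ξ hξ z hz).2).1
        rw [e2, pw hξ.2 s (-s - 2) 2 (by norm_num)] at h3
        have hu := hξ.2
        have hp := ((hPk N ξ hξ).2 y).1
        have h5 : C2 * (ξ.1 ^ (-s) / ξ.1 ^ 2) * (2 * ξ.1 * ‖v‖) * ξ.1 =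
            2 * C2 * ‖v‖ * ξ.1 ^ (-s) := by field_simp
        rw [norm_smul, (hPk N ξ hξ).1, Real.norm_eq_abs, abs_mul, abs_of_nonneg (by positivity),
          ← h5]
        exact mul_le_mul_of_nonneg_right
          (mul_le_mul h3 (hlz ξ hξ v) (abs_nonneg _) (by positivity)) hu.le)
    refine le_trans h ?_
    have : 0 ≤ (2 * C0 + 2 * C1 + C2) * FF μ s (lift 0) * ‖v‖ := by positivity
    nlinarith
  · have h := bnd hD (fun ξ => ((-lz (lift z) ξ) ^ (-s - 2) * lz ξ v) • ξ -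
      ((-lz (lift y) ξ) ^ (-s - 2) * lz ξ v) • ξ) (4 * C2 * ‖δ‖ * ‖v‖) (fun ξ hξ => by
        have h3 := (h2 _ _ _ hξ.2 (hb ξ hξ y hy).1 (hb ξ hξ y hy).2 (hb ξ hξ z hz).1
          (hb ξ hξ z hz).2).2.2.1
        rw [lz_diff, ← hδ, e2, pw hξ.2 s (-s - 2 - 1) 3 (by push_cast; ring), abs_neg] at h3
        have hu := hξ.2
        have h4 : C2 * (ξ.1 ^ (-s) / ξ.1 ^ 3) * |lz ξ δ| ≤
            C2 * (ξ.1 ^ (-s) / ξ.1 ^ 3) * (2 * ξ.1 * ‖δ‖) :=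
          mul_le_mul_of_nonneg_left (hlz ξ hξ δ) (by positivity)
        have h5 : C2 * (ξ.1 ^ (-s) / ξ.1 ^ 3) * (2 * ξ.1 * ‖δ‖) * (2 * ξ.1 * ‖v‖) * ξ.1 =
            4 * C2 * ‖δ‖ * ‖v‖ * ξ.1 ^ (-s) := by field_simp; ring
        rw [← sub_smul, ← sub_mul, norm_smul, (hPk N ξ hξ).1, Real.norm_eq_abs, abs_mul, ← h5]
        exact mul_le_mul_of_nonneg_right
          (mul_le_mul (h3.trans h4) (hlz ξ hξ v) (abs_nonneg _) (by positivity)) hu.le)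
    rw [integral_sub (z2 v) (y2 v)] at h
    refine le_trans h ?_
    have : 0 ≤ (C0 + C1) * FF μ s (lift 0) * ‖δ‖ * ‖v‖ := by positivity
    nlinarith

end Vale.Agent.P210
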