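import Vale.Agent.P210K.Stm

open Set Filter Topology MeasureTheory Metric
open scoped ENNReal NNReal ContDiff RealInnerProductSpace

namespace Vale.Agent.P210

namespace KTay2Aux

variable {N : ℕ}

theorem lz_smul (c : ℝ) (u w : W N) : lz (c • u) w = c * lz u w := by
  simp only [lz, Prod.smul_snd, Prod.smul_fst, real_inner_smul_left, smul_eq_mul]
  ring

theorem lz_le (u v : W N) : |lz u v| ≤ 2 * ‖u‖ * ‖v‖ := by
  have h1 : |⟪u.2, v.2⟫| ≤ ‖u‖ * ‖v‖ := (abs_real_inner_le_norm _ _).trans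
    (mul_le_mul (norm_snd_le u) (norm_snd_le v) (norm_nonneg _) (norm_nonneg _))
  have h2 : |u.1 * v.1| ≤ ‖u‖ * ‖v‖ := (abs_mul _ _).trans_le
    (mul_le_mul (norm_fst_le u) (norm_fst_le v) (abs_nonneg _) (norm_nonneg _))
  refine (abs_sub _ _).trans ?_
  linarith

theorem dv {X : Type} [NormedAddCommGroup X] [NormedSpace ℝ X] {F J K c : ℝ} {x : X}
    (hF : 0 < F) (h1 : J ≤ K * F) (hc : 0 ≤ c) (h : ‖F • x‖ ≤ J * c) : ‖x‖ ≤ K * c := by
  rw [norm_smul, Real.norm_of_nonneg hF.le] at h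
  refine le_of_mul_le_mul_left (h.trans ((mul_le_mul_of_nonneg_right h1 hc).trans_eq ?_)) hF
  ring

theorem main {X : Type} [NormedAddCommGroup X] [NormedSpace ℝ X] {F F' J K s D M d l : ℝ}
    {m m' n : X} (hF : 0 < F) (hF' : 0 < F') (hJ : 0 ≤ J) (hK : 0 ≤ K) (h1 : J ≤ K * F)
    (h2 : J ≤ K * F') (hs : 0 < s) (hd : 0 ≤ d) (hD : d ≤ D) (hm : ‖m‖ ≤ M)
    (hl : |F * l| ≤ 2 * J * d) (e0 : |F' - F - s * (F * l)| ≤ J * d ^ 2)
    (e1 : ‖F' • m' - F • m - (s + 1) • n‖ ≤ J * d ^ 2) (e2 : ‖n‖ ≤ J * d) :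
    ‖m' - m‖ ≤ K * (D + s + 1 + (D + 2 * s) * M) * d ∧
    ‖m' - m - ((s + 1) * F⁻¹) • n + (s * l) • m‖ ≤
      K * (1 + M + (D + 2 * s) * (K * (D + s + 1 + (D + 2 * s) * M))) * d ^ 2 := by
  have hM := (norm_nonneg m).trans hm
  have hD0 := hd.trans hD
  have d2 : J * d ^ 2 ≤ J * (d * D) := by
    rw [sq]
    gcongr
  have f0 : |F' - F| ≤ J * ((D + 2 * s) * d) := by
    have a := abs_add_le (F' - F - s * (F * l)) (s * (F * l))
    rw [sub_add_cancel, abs_mul s, abs_of_pos hs] at a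
    have b := mul_le_mul_of_nonneg_left hl hs.le
    linarith
  have g1 : ‖m' - m‖ ≤ K * (D + s + 1 + (D + 2 * s) * M) * d := by
    rw [mul_assoc]
    refine dv hF' h2 (by positivity) ?_
    have e : F' • (m' - m) = (F' • m' - F • m - (s + 1) • n) + (s + 1) • n - (F' - F) • m := by
      module
    have a : ‖(s + 1) • n‖ ≤ (s + 1) * (J * d) := by
      rw [norm_smul, Real.norm_of_nonneg (by positivity)]
      gcongr
    have b : ‖(F' - F) • m‖ ≤ J * ((D + 2 * s) * d) * M := by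
      rw [norm_smul]
      exact mul_le_mul f0 hm (norm_nonneg _) (by positivity)
    rw [e]
    refine (norm_sub_le _ _).trans ((add_le_add_left (norm_add_le _ _) _).trans ?_)
    linarith
  refine ⟨g1, ?_⟩
  rw [mul_assoc K]
  refine dv hF h1 (by positivity) ?_
  have e : F • (m' - m - ((s + 1) * F⁻¹) • n + (s * l) • m) =
      (F' • m' - F • m - (s + 1) • n) - (F' - F - s * (F * l)) • m - (F' - F) • (m' - m) := by
    have c : F * ((s + 1) * F⁻¹) = s + 1 := by field_simp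
    rw [smul_add, smul_sub F _ (_ • n), smul_smul F _ n, c]
    module
  have a : ‖(F' - F - s * (F * l)) • m‖ ≤ J * d ^ 2 * M := by
    rw [norm_smul]
    exact mul_le_mul e0 hm (norm_nonneg _) (by positivity)
  have b : ‖(F' - F) • (m' - m)‖ ≤
      J * ((D + 2 * s) * d) * (K * (D + s + 1 + (D + 2 * s) * M) * d) := by
    rw [norm_smul]
    exact mul_le_mul f0 g1 (norm_nonneg _) (by positivity)
  rw [e]
  refine (norm_sub_le _ _).trans ((add_le_add_left (norm_sub_le _ _) _).trans ?_)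
  linarith

end KTay2Aux

open KTay2Aux in
theorem pkTay2 (hTay1 : Tay1S) (hMom : MomS) (hMom2 : Mom2S) (hHd2 : Hd2S) : Tay2S := by
  intro N s R hs
  obtain ⟨C, hC, H⟩ := hTay1 N s R hs
  obtain ⟨M, hM⟩ : ∃ M, M = 1 + 2 * |R| := ⟨_, rfl⟩
  obtain ⟨D, hD⟩ : ∃ D, D = 2 * |R| := ⟨_, rfl⟩
  have M0 : 0 ≤ M := by rw [hM]; positivity
  have D0 : 0 ≤ D := by rw [hD]; positivity
  obtain ⟨K1, hK1⟩ : ∃ K1, K1 = C * C * (D + s + 1 + (D + 2 * s) * M) := ⟨_, rfl⟩
  obtain ⟨K2, hK2⟩ : ∃ K2, K2 = C * C * (1 + M + (D + 2 * s) * K1) := ⟨_, rfl⟩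
  obtain ⟨K3, hK3⟩ : ∃ K3, K3 = (s + 1) * (C * C) + s * (2 * M) * M + 1 := ⟨_, rfl⟩
  have k1 : 0 < K1 := by rw [hK1]; positivity
  have k2 : 0 < K2 := by rw [hK2]; positivity
  have k3 : 0 < K3 := by rw [hK3]; positivity
  refine ⟨K1 + K2 + K3, by positivity, fun μ A hA y z hy hz => ?_⟩
  obtain ⟨t1, t2, t3, t4, t5, -⟩ := H μ A hA y z hy hz
  have t6 := (H μ A hA z y hz hy).1
  have hF := (hMom N μ s A hA y).2.2.2.1
  have hF' := (hMom N μ s A hA z).2.2.2.1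
  have hI := (hMom N μ s A hA 0).2.2.2.1
  have hR := le_abs_self R
  have hm : ‖mm μ s (lift y)‖ ≤ M := (hMom2 N μ s A hA y).2.1.trans (by linarith)
  have hd : ‖lift z - lift y‖ ≤ D :=
    ((hHd2 N).2.2.2.2.1 z y).1.trans ((norm_sub_le _ _).trans (by linarith))
  have n1 : N1 μ s (lift y) = FF μ s (lift y) • mm μ s (lift y) := by
    rw [mm, smul_inv_smul₀ hF.ne']
  have n2 : N1 μ s (lift z) = FF μ s (lift z) • mm μ s (lift z) := by
    rw [mm, smul_inv_smul₀ hF'.ne']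
  have j1 : C * FF μ s (lift 0) ≤ C * C * FF μ s (lift y) := by
    rw [mul_assoc]
    gcongr
  have j2 : C * FF μ s (lift 0) ≤ C * C * FF μ s (lift z) := by
    rw [mul_assoc]
    gcongr
  have hl : |lz (N1 μ s (lift y)) (lift z - lift y)| ≤
      2 * (C * FF μ s (lift 0)) * ‖lift z - lift y‖ := (lz_le _ _).trans (by gcongr)
  rw [n1, lz_smul] at hl t2
  rw [n1, n2] at t3
  obtain ⟨g1, g2⟩ := main hF hF' (by positivity) (by positivity) j1 j2 hs (norm_nonneg _) hd hm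
    hl t2 t3 (t5 _)
  rw [← hK1] at g1 g2
  rw [← hK2] at g2
  refine ⟨le_trans (le_of_eq (congrArg _ ?_)) (g2.trans ?_), fun v => ?_, g1.trans ?_⟩
  · rw [BB]
    abel
  · gcongr
    linarith
  · have a : ‖((s + 1) * (FF μ s (lift y))⁻¹) • N2 μ s (lift y) v‖ ≤ (s + 1) * (C * C * ‖v‖) := by
      rw [mul_smul, norm_smul, Real.norm_of_nonneg (by positivity)]
      refine mul_le_mul_of_nonneg_left (dv hF j1 (norm_nonneg v) ?_) (by positivity)
      rw [smul_inv_smul₀ hF.ne']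
      exact t5 v
    have b : ‖(s * lz (mm μ s (lift y)) v) • mm μ s (lift y)‖ ≤ s * (2 * M * ‖v‖) * M := by
      rw [norm_smul, norm_mul, Real.norm_of_nonneg hs.le]
      refine mul_le_mul (mul_le_mul_of_nonneg_left ((lz_le _ _).trans ?_) hs.le) hm
        (norm_nonneg _) (by positivity)
      gcongr
    have c : K3 * ‖v‖ ≤ (K1 + K2 + K3) * ‖v‖ := by
      gcongr
      linarith
    rw [BB]
    refine (norm_sub_le _ _).trans ((add_le_add_left (norm_sub_le _ _) _).trans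
      (le_trans ?_ c))
    rw [hK3]
    linarith
  · gcongr
    linarith

end Vale.Agent.P210
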