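import Vale.Agent.P210K.Stm

open Set Filter Topology MeasureTheory Metric
open scoped ENNReal NNReal ContDiff RealInnerProductSpace

namespace Vale.Agent.P210

namespace KTay3Aux

theorem lz_le {N : ℕ} (a b : W N) : |lz a b| ≤ 2 * (‖a‖ * ‖b‖) := by
  unfold lz
  have h1 : |⟪a.2, b.2⟫| ≤ ‖a‖ * ‖b‖ :=
    (abs_real_inner_le_norm _ _).trans
      (mul_le_mul (norm_snd_le a) (norm_snd_le b) (norm_nonneg _) (norm_nonneg _))
  have h2 : |a.1 * b.1| ≤ ‖a‖ * ‖b‖ := by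
    rw [abs_mul]
    exact mul_le_mul (norm_fst_le a) (norm_fst_le b) (abs_nonneg _) (norm_nonneg _)
  linarith [abs_sub ⟪a.2, b.2⟫ (a.1 * b.1)]

theorem lz_sub {N : ℕ} (a b v : W N) : lz (a - b) v = lz a v - lz b v := by
  unfold lz
  simp only [Prod.snd_sub, Prod.fst_sub, inner_sub_left]
  ring

end KTay3Aux

theorem pkTay3 (hTay1 : Tay1S) (hTay2 : Tay2S) (hMom : MomS) (hMom2 : Mom2S) (hHd2 : Hd2S) : Tay3S := by
  intro N s R hs
  obtain ⟨C1, hC1, h1⟩ := hTay1 N s R hs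
  obtain ⟨C2, hC2, h2⟩ := hTay2 N s R hs
  have hR := abs_nonneg R
  refine ⟨(s + 1) * (C1 ^ 2 + C1 * (2 * |R| + 2 * s) * C1 ^ 3) + s * (4 * (1 + 2 * |R|) * C2),
    by positivity, fun μ A hD y z hy hz v => ?_⟩
  obtain ⟨a1, a2, -, a4, a5, a6⟩ := h1 μ A hD y z hy hz
  have b1 := (h1 μ A hD z z hz hz).1
  have c3 := (h2 μ A hD y z hy hz).2.2
  have hF := (hMom N μ s A hD y).2.2.2.1
  have hF' := (hMom N μ s A hD z).2.2.2.1
  have hI := (hMom N μ s A hD 0).2.2.2.1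
  have m1 : ‖mm μ s (lift y)‖ ≤ 1 + 2 * |R| := by
    linarith [(hMom2 N μ s A hD y).2.1, le_abs_self R]
  have m2 : ‖mm μ s (lift z)‖ ≤ 1 + 2 * |R| := by
    linarith [(hMom2 N μ s A hD z).2.1, le_abs_self R]
  have hd2 : ‖lift z - lift y‖ ≤ 2 * |R| := by
    linarith [((hHd2 N).2.2.2.2.1 z y).1, norm_sub_le z y, le_abs_self R]
  have a5v := a5 v
  have a6v := a6 v
  set d := ‖lift z - lift y‖ with hd
  set I := FF μ s (lift 0) with hId
  set F := FF μ s (lift y) with hFd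
  set F' := FF μ s (lift z) with hF'd
  set m := mm μ s (lift y) with hm
  set m' := mm μ s (lift z) with hm'
  set n := N2 μ s (lift y) v with hn
  set n' := N2 μ s (lift z) v with hn'
  have hd0 : 0 ≤ d := norm_nonneg _
  have hv0 := norm_nonneg v
  have e1 : |F' - F| ≤ C1 * (2 * |R| + 2 * s) * I * d := by
    have k1 := KTay3Aux.lz_le (N1 μ s (lift y)) (lift z - lift y)
    have k2 : |s * lz (N1 μ s (lift y)) (lift z - lift y)| ≤ s * (2 * (C1 * I * d)) := by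
      rw [abs_mul, abs_of_pos hs]
      refine mul_le_mul_of_nonneg_left (k1.trans ?_) hs.le
      exact mul_le_mul_of_nonneg_left (mul_le_mul_of_nonneg_right a4 hd0) zero_le_two
    have k3 := abs_add_le (F' - F - s * lz (N1 μ s (lift y)) (lift z - lift y))
      (s * lz (N1 μ s (lift y)) (lift z - lift y))
    rw [sub_add_cancel] at k3
    have k4 : C1 * I * d ^ 2 ≤ C1 * I * (2 * |R| * d) :=
      mul_le_mul_of_nonneg_left (by nlinarith) (by positivity)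
    nlinarith
  have i1 : F⁻¹ * I ≤ C1 := by rw [inv_mul_le_iff₀ hF]; linarith
  have i2 : F'⁻¹ * I ≤ C1 := by rw [inv_mul_le_iff₀ hF']; linarith
  have e2 : |F'⁻¹ - F⁻¹| * I ≤ C1 * (2 * |R| + 2 * s) * C1 ^ 2 * d := by
    have k1 : F'⁻¹ - F⁻¹ = -(F' - F) * (F⁻¹ * F'⁻¹) := by field_simp; ring
    rw [k1, abs_mul, abs_neg, abs_of_pos (by positivity : 0 < F⁻¹ * F'⁻¹)]
    calc |F' - F| * (F⁻¹ * F'⁻¹) * I
        ≤ C1 * (2 * |R| + 2 * s) * I * d * (F⁻¹ * F'⁻¹) * I := by gcongr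
      _ = C1 * (2 * |R| + 2 * s) * ((F⁻¹ * I) * (F'⁻¹ * I)) * d := by ring
      _ ≤ C1 * (2 * |R| + 2 * s) * (C1 * C1) * d := by gcongr
      _ = _ := by ring
  have e3 : ‖F'⁻¹ • n' - F⁻¹ • n‖ ≤ (C1 ^ 2 + C1 * (2 * |R| + 2 * s) * C1 ^ 3) * d * ‖v‖ := by
    have k1 : F'⁻¹ • n' - F⁻¹ • n = F'⁻¹ • (n' - n) + (F'⁻¹ - F⁻¹) • n := by module
    rw [k1]
    refine (norm_add_le _ _).trans ?_
    rw [norm_smul, norm_smul, Real.norm_of_nonneg (by positivity), Real.norm_eq_abs]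
    have k2 : F'⁻¹ * ‖n' - n‖ ≤ C1 ^ 2 * d * ‖v‖ :=
      calc F'⁻¹ * ‖n' - n‖ ≤ F'⁻¹ * (C1 * I * d * ‖v‖) := by gcongr
        _ = (F'⁻¹ * I) * (C1 * d * ‖v‖) := by ring
        _ ≤ C1 * (C1 * d * ‖v‖) := by gcongr
        _ = _ := by ring
    have k3 : |F'⁻¹ - F⁻¹| * ‖n‖ ≤ C1 * (2 * |R| + 2 * s) * C1 ^ 3 * d * ‖v‖ :=
      calc |F'⁻¹ - F⁻¹| * ‖n‖ ≤ |F'⁻¹ - F⁻¹| * (C1 * I * ‖v‖) := by gcongr
        _ = (|F'⁻¹ - F⁻¹| * I) * (C1 * ‖v‖) := by ring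
        _ ≤ (C1 * (2 * |R| + 2 * s) * C1 ^ 2 * d) * (C1 * ‖v‖) := by gcongr
        _ = _ := by ring
    linarith
  have e4 : ‖lz m' v • m' - lz m v • m‖ ≤ 4 * (1 + 2 * |R|) * C2 * d * ‖v‖ := by
    have k1 : lz m' v • m' - lz m v • m = lz (m' - m) v • m' + lz m v • (m' - m) := by
      rw [KTay3Aux.lz_sub]; module
    rw [k1]
    refine (norm_add_le _ _).trans ?_
    rw [norm_smul, norm_smul, Real.norm_eq_abs, Real.norm_eq_abs]
    have k2 : |lz (m' - m) v| * ‖m'‖ ≤ 2 * (C2 * d * ‖v‖) * (1 + 2 * |R|) :=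
      mul_le_mul ((KTay3Aux.lz_le _ _).trans (by gcongr)) m2 (norm_nonneg _) (by positivity)
    have k3 : |lz m v| * ‖m' - m‖ ≤ 2 * ((1 + 2 * |R|) * ‖v‖) * (C2 * d) :=
      mul_le_mul ((KTay3Aux.lz_le _ _).trans (by gcongr)) c3 (norm_nonneg _) (by positivity)
    linarith
  have e5 : BB μ s (lift z) v - BB μ s (lift y) v =
      (s + 1) • (F'⁻¹ • n' - F⁻¹ • n) - s • (lz m' v • m' - lz m v • m) := by
    unfold BB
    module
  rw [e5]
  refine (norm_sub_le _ _).trans ?_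
  rw [norm_smul, norm_smul, Real.norm_of_nonneg (by positivity), Real.norm_of_nonneg hs.le]
  have k1 := mul_le_mul_of_nonneg_left e3 (by positivity : 0 ≤ s + 1)
  have k2 := mul_le_mul_of_nonneg_left e4 hs.le
  linarith

end Vale.Agent.P210
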