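import Vale.Agent.P210K.Stm

open Set Filter Topology MeasureTheory Metric
open scoped ENNReal NNReal ContDiff RealInnerProductSpace

namespace Vale.Agent.P210

namespace KTonAux

theorem mS (n : ℕ) (r : ℝ) : MeasurableSet {q : E n × E n | dist q.2 q.1 < r} :=
  (isOpen_lt (continuous_snd.dist continuous_fst) continuous_const).measurableSet

end KTonAux

open KTonAux in
theorem pkTon : TonS := by
  intro n ν _ x R r
  have hS := mS n r
  refine ⟨measurable_measure_prodMk_left (ν := ν) hS, ?_⟩
  have h1 : ∀ y : E n, ν (ball y r)
      = ∫⁻ z, {q : E n × E n | dist q.2 q.1 < r}.indicator (fun _ => (1 : ℝ≥0∞)) (y, z) ∂ν := by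
    intro y
    rw [← lintegral_indicator_one measurableSet_ball]
    rfl
  simp_rw [h1]
  have hm : Measurable (Function.uncurry fun y z : E n =>
      {q : E n × E n | dist q.2 q.1 < r}.indicator (fun _ => (1 : ℝ≥0∞)) (y, z)) :=
    measurable_const.indicator hS
  rw [lintegral_lintegral_swap hm.aemeasurable]
  have h2 : ∀ z : E n, ∫⁻ y in ball x R,
      {q : E n × E n | dist q.2 q.1 < r}.indicator (fun _ => (1 : ℝ≥0∞)) (y, z)
      ≤ (ball x (R + r)).indicator (fun _ => volume (ball (0 : E n) r)) z := by
    intro z
    have h3 : (fun y : E n =>
        {q : E n × E n | dist q.2 q.1 < r}.indicator (fun _ => (1 : ℝ≥0∞)) (y, z))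
        = (ball z r).indicator 1 := by
      funext y
      by_cases hy : y ∈ ball z r
      · rw [indicator_of_mem hy, indicator_of_mem]
        · rfl
        · simpa [dist_comm] using hy
      · rw [indicator_of_notMem hy, indicator_of_notMem]
        simpa [dist_comm] using hy
    rw [h3, lintegral_indicator_one measurableSet_ball, Measure.restrict_apply measurableSet_ball]
    by_cases hz : z ∈ ball x (R + r)
    · rw [indicator_of_mem hz, ← Measure.addHaar_ball_center volume z r]
      exact measure_mono inter_subset_left
    · rw [indicator_of_notMem hz]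
      have : ball z r ∩ ball x R = ∅ := by
        refine eq_empty_of_forall_notMem fun y hy => hz ?_
        have a1 := mem_ball.mp hy.1
        have a2 := mem_ball.mp hy.2
        have a3 := dist_triangle_left z x y
        exact mem_ball.mpr (by linarith)
      rw [this, measure_empty]
  refine (lintegral_mono h2).trans ?_
  rw [lintegral_indicator_const measurableSet_ball]

end Vale.Agent.P210
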