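import Vale.Agent.P210K.Stm

open Set Filter Topology MeasureTheory Metric
open scoped ENNReal NNReal ContDiff RealInnerProductSpace

namespace Vale.Agent.P210

namespace KTrajAux

theorem step {a : ℝ → ℝ} (ha : Monotone a) (τ : ℝ) :
    (∫ t in (0 : ℝ)..(τ - 1), a t) + a (τ - 1) ≤ ∫ t in (0 : ℝ)..τ, a t := by
  rw [← intervalIntegral.integral_add_adjacent_intervals (ha.intervalIntegrable (a := 0) (b := τ - 1))
    (ha.intervalIntegrable (a := τ - 1) (b := τ))]
  have h : ∫ _ in (τ - 1)..τ, a (τ - 1) ≤ ∫ t in (τ - 1)..τ, a t :=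
    intervalIntegral.integral_mono_on (by linarith) intervalIntegrable_const ha.intervalIntegrable
      fun t ht => ha ht.1
  rw [intervalIntegral.integral_const, sub_sub_cancel, one_smul] at h
  linarith

end KTrajAux

theorem pkTraj : TrajS := by
  intro X P Ω d D Nr y a C hC ha htri hnr htyp hD hpos x hx hx0
  have key : ∀ n : ℕ, ∀ τ : ℝ, 0 ≤ τ → τ ≤ n + 1 → ∃ x' ∈ Ω, Nr x' (y τ) (C * a τ) ∧
      d x x' ≤ 1 + C * a τ + 2 * C * ∫ t in (0 : ℝ)..τ, a t := by
    have base : ∀ τ : ℝ, 0 ≤ τ → τ ≤ 1 → ∃ x' ∈ Ω, Nr x' (y τ) (C * a τ) ∧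
        d x x' ≤ 1 + C * a τ + 2 * C * ∫ t in (0 : ℝ)..τ, a t := by
      intro τ h0 h1
      obtain ⟨x', hx', hn⟩ := htyp τ
      refine ⟨x', hx', hn, ?_⟩
      have h2 := hnr x hx x' hx' _ _ _ _ hx0 hn ((hD 0 τ h0).trans (by linarith))
      have h3 : 0 ≤ ∫ t in (0 : ℝ)..τ, a t :=
        intervalIntegral.integral_nonneg h0 fun t _ => hpos t
      have h4 : 0 ≤ 2 * C * ∫ t in (0 : ℝ)..τ, a t := by positivity
      linarith
    intro n
    induction n with
    | zero => intro τ h0 h1; exact base τ h0 (by simpa using h1)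
    | succ n ih =>
      intro τ h0 h1
      rcases le_or_gt τ 1 with h | h
      · exact base τ h0 h
      · obtain ⟨x1, hx1, hn1, hd1⟩ := ih (τ - 1) (by linarith) (by push_cast at h1; linarith)
        obtain ⟨x', hx', hn⟩ := htyp τ
        refine ⟨x', hx', hn, ?_⟩
        have h2 := hnr x1 hx1 x' hx' _ _ _ _ hn1 hn ((hD (τ - 1) τ (by linarith)).trans (by linarith))
        have h3 := htri x hx x1 hx1 x' hx'
        have h4 := mul_le_mul_of_nonneg_left (KTrajAux.step ha τ) hC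
        nlinarith
  intro τ hτ
  obtain ⟨n, hn⟩ := exists_nat_ge τ
  exact key n τ hτ (by linarith)

end Vale.Agent.P210
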