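import Vale.Agent.P210K.Stm

open Set Filter Topology MeasureTheory Metric
open scoped ENNReal NNReal ContDiff RealInnerProductSpace

namespace Vale.Agent.P210

theorem pkTyp (hPar : ParS) (hVis : VisS) (hFlo : FloS) (hPt : PtS) (hFull : FullS)
    (hMark2 : Mark2S) : TypS := by
  intro n q A η n0 hq hs A0 η0
  obtain ⟨v0, v1, -, v3, v4⟩ := hVis n n0
  obtain ⟨M, M1, hM⟩ := v4 (η / 2) (half_pos η0)
  obtain ⟨C0, c0, h0⟩ := hFlo n (n - q) q (8 * M) hs (by linarith) (by linarith)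
  obtain ⟨C1, c1, h1⟩ := hPt n q hq
  obtain ⟨C2, c2, h2⟩ := hMark2 n q hq
  obtain ⟨O, O0, hO⟩ : ∃ O : ℝ, 0 < O ∧ volume (ball (0 : E n) 1) = ENNReal.ofReal O :=
    ⟨_, ENNReal.toReal_pos (measure_ball_pos _ _ one_pos).ne' measure_ball_lt_top.ne,
      (ENNReal.ofReal_toReal measure_ball_lt_top.ne).symm⟩
  obtain ⟨V, V0, hV⟩ : ∃ V : ℝ, 0 < V ∧ VV n = ENNReal.ofReal V :=
    ⟨_, ENNReal.toReal_pos v0 v1, (ENNReal.ofReal_toReal v1).symm⟩
  have M0 : 0 < M := by linarith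
  obtain ⟨l, hl⟩ : ∃ l, l = (8 * M) ^ n * O / (η / 2 * V) := ⟨_, rfl⟩
  have l0 : 0 < l := by rw [hl]; positivity
  refine ⟨l * (C2 * (C1 * C0)), by positivity, fun Ω ρ d hd ne hA p B B0 g1 g2 => ?_⟩
  obtain ⟨x₀, h, hp⟩ := hPar n p
  have h' := hp.1
  have fin : ∀ x r, nu Ω ρ q (ball x r) ≠ ⊤ := fun x r => by
    rcases le_or_gt r 0 with hr | hr
    · rw [ball_eq_empty.2 hr, measure_empty]
      exact ENNReal.zero_ne_top
    · exact ne_top_of_le_ne_top ENNReal.ofReal_ne_top (hA x r hr)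
  obtain ⟨k, k1, k2⟩ : ∃ k : ℤ, M * h < (2 : ℝ) ^ k ∧ (2 : ℝ) ^ k ≤ 2 * (M * h) := by
    have a := Int.lt_zpow_succ_log_self (R := ℝ) (b := 2) (by norm_num) (M * h)
    have b := Int.zpow_log_le_self (R := ℝ) (b := 2) (by norm_num) (mul_pos M0 h')
    refine ⟨Int.log 2 (M * h) + 1, by exact_mod_cast a, ?_⟩
    rw [zpow_add_one₀ two_ne_zero]
    push_cast at b
    linarith
  have e1 : (2 : ℝ) ^ (k + 1) = 2 ^ k * 2 := zpow_add_one₀ two_ne_zero k
  have e2 : (2 : ℝ) ^ (k + 2) = 2 ^ k * 4 := by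
    rw [zpow_add₀ two_ne_zero]
    norm_num
  have b0 := (h0 _ p x₀ h (k + 2) hp g1 (by nlinarith) (by linarith)).trans
    (mul_le_mul_of_nonneg_left g2 c0.le)
  haveI : SFinite (nu Ω ρ q) := by
    unfold nu
    infer_instance
  obtain ⟨x, x1, x2, x3, x4⟩ := h1 _ fin x₀ k _ Ωᶜ (mul_pos c0 B0) b0
    (hFull n q A Ω ρ d hq A0 hd ne hA)
  have xΩ : x ∈ Ω := not_not.1 x2
  have b1 := h2 Ω ρ d hd fin x xΩ (k + 1) _ l l0 (by positivity) x3 x4
  refine ⟨x, xΩ, ?_⟩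
  generalize hb : {y | y ∈ ball x ((2 : ℝ) ^ (k + 1)) ∧
    ¬ (y ∈ Ω ∧ d x y ≤ l * (C2 * (C1 * (C0 * B))))} = bad at b1
  have s : ball x₀ (M * h) ⊆ KB Ω d x (l * (C2 * (C1 * C0)) * B) ∪ bad := fun y hy => by
    by_cases c : y ∈ Ω ∧ d x y ≤ l * (C2 * (C1 * (C0 * B)))
    · exact Or.inl ⟨c.1, c.2.trans_eq (by ring)⟩
    · refine Or.inr (hb ▸ ⟨?_, c⟩)
      have := dist_triangle_right y x x₀
      rw [mem_ball] at hy x1 ⊢
      linarith
  have b2 : vis p bad ≤ ENNReal.ofReal (η / 2) * VV n := by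
    refine (v3 p x₀ h bad hp).trans ((mul_le_mul_right b1 _).trans ?_)
    rw [Measure.addHaar_ball_of_pos _ _ (zpow_pos two_pos _), hO, hV, finrank_euclideanSpace_fin,
      ← ENNReal.ofReal_mul (by positivity), ← ENNReal.ofReal_div_of_pos l0,
      ← ENNReal.ofReal_mul (by positivity), ← ENNReal.ofReal_mul (by positivity)]
    refine ENNReal.ofReal_le_ofReal ?_
    have a : (2 / h * 2 ^ (k + 1)) ^ n ≤ (8 * M) ^ n := pow_le_pow_left₀ (by positivity) (by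
      rw [div_mul_eq_mul_div, div_le_iff₀ h']
      linarith) n
    rw [← mul_div_assoc, ← mul_assoc, ← mul_pow, div_le_iff₀ l0, hl,
      mul_div_cancel₀ _ (by positivity)]
    exact mul_le_mul_of_nonneg_right a O0.le
  have b3 : vis p (ball x₀ (M * h)) ≤
      vis p (KB Ω d x (l * (C2 * (C1 * C0)) * B)) + vis p bad :=
    (lintegral_mono_set s).trans (lintegral_union_le _ _ _)
  rw [Near, show 1 - η = 1 - η / 2 - η / 2 by ring, ENNReal.ofReal_sub _ (half_pos η0).le,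
    ENNReal.sub_mul fun _ _ => v1, tsub_le_iff_right]
  exact (hM p x₀ h hp).trans (b3.trans (add_le_add_right b2 _))

end Vale.Agent.P210
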