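import Vale.Agent.P210K.Stm

open Set Filter Topology MeasureTheory Metric
open scoped ENNReal NNReal ContDiff RealInnerProductSpace

namespace Vale.Agent.P210

namespace KUwfAux

/-- A copy of the space without its topology. -/
structure Wrap (N : ℕ) where
  val : E N

variable {N : ℕ} {G : Type} [Group G] {ac : G → E N → E N}

/-- An isometric action. -/
structure Act (ac : G → E N → E N) : Prop where
  one : ∀ y, ac 1 y = y
  mul : ∀ g h y, ac (g * h) y = ac g (ac h y)
  iso : ∀ g y z, hd (ac g y) (ac g z) = hd y z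
  self : ∀ y : E N, hd y y = 0
  comm : ∀ y z : E N, hd y z = hd z y
  nn : ∀ y z : E N, 0 ≤ hd y z
  tri : ∀ x y z : E N, hd x z ≤ hd x y + hd y z

/-- The distance of orbits. -/
noncomputable def D (ac : G → E N → E N) (y z : E N) : ℝ := ⨅ g, hd y (ac g z)

theorem D_le (h : Act ac) (y z : E N) (g k : G) : D ac y z ≤ hd (ac g y) (ac k z) := by
  have e : hd y (ac (g⁻¹ * k) z) = hd (ac g y) (ac k z) := by
    rw [← h.iso g, ← h.mul, mul_inv_cancel_left]
  exact e ▸ ciInf_le (f := fun g => hd y (ac g z)) ⟨0, by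
    rintro _ ⟨g, rfl⟩
    exact h.nn _ _⟩ _

theorem D_nn (h : Act ac) (y z : E N) : 0 ≤ D ac y z := le_ciInf fun _ => h.nn _ _

theorem D_lt {y z : E N} {c : ℝ} (h : D ac y z < c) : ∃ g, hd y (ac g z) < c :=
  exists_lt_of_ciInf_lt h

theorem D_orb (h : Act ac) (y : E N) (g : G) : D ac y (ac g y) = 0 :=
  le_antisymm (by simpa only [h.one, h.self] using D_le h y (ac g y) g 1) (D_nn h _ _)

theorem D_comm_le (h : Act ac) (y z : E N) : D ac y z ≤ D ac z y :=
  le_ciInf fun g => by simpa only [h.one, h.comm z] using D_le h y z g 1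

theorem D_tri (h : Act ac) (x y z : E N) : D ac x z ≤ D ac x y + D ac y z :=
  le_ciInf_add_ciInf fun g k => by
    have a := D_le h x z 1 (g * k)
    have b := h.tri x (ac g y) (ac g (ac k z))
    rw [h.one, h.mul] at a
    rw [h.iso] at b
    exact a.trans b

/-- The orbit pseudometric. -/
@[reducible] noncomputable def pm (h : Act ac) : PseudoMetricSpace (Wrap N) where
  dist y z := D ac y.val z.val
  dist_self y := by simpa only [h.one] using D_orb h y.val 1
  dist_comm _ _ := le_antisymm (D_comm_le h _ _) (D_comm_le h _ _)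
  dist_triangle _ _ _ := D_tri h _ _ _

theorem lift_seq (h : Act ac) {M : ℕ} {R : ℝ} {y : E N} {z : ℕ → E N}
    (hz : ∀ c < M, D ac (z c) y < R) : ∃ z' : ℕ → E N, (∀ c < M, hd (z' c) y ≤ R) ∧
      ∀ c c', D ac (z c') (z c) ≤ hd (z' c') (z' c) := by
  have : ∀ c, ∃ g, c < M → hd (ac g (z c)) y ≤ R := fun c => by
    by_cases hc : c < M
    · obtain ⟨g, hg⟩ := D_lt ((D_comm_le h _ _).trans_lt (hz c hc))
      exact ⟨g, fun _ => h.comm _ _ ▸ hg.le⟩
    · exact ⟨1, fun q => absurd q hc⟩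
  choose g hg using this
  exact ⟨fun c => ac (g c) (z c), hg, fun _ _ => D_le h _ _ _ _⟩

end KUwfAux

open KUwfAux in
theorem pkUwf (hUwg : UwgS) (hPackh : PackhS) (hHd : HdS) (hHd2 : Hd2S) : UwfS := by
  intro N m
  obtain ⟨M, hM, hA, hB⟩ := hPackh N
  obtain ⟨δ, hδ, H⟩ := hUwg M m hM
  refine ⟨δ, hδ, fun G _ ac Z a1 a2 a3 hZ hC => ?_⟩
  obtain ⟨-, b1, b2, b3, b4, -⟩ := hHd N
  have h : Act ac := ⟨a1, a2, a3, b1, b2, b3, b4⟩
  letI : PseudoMetricSpace (Wrap N) := pm h
  have hc : Continuous (Wrap.mk : E N → Wrap N) :=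
    (LipschitzWith.of_dist_le_mul (K := 1) fun y z => by
      have := D_le h y z 1 1
      rw [a1, a1] at this
      rw [NNReal.coe_one, one_mul, dist_eq_norm]
      exact this.trans ((hHd2 N).2.1 y z)).continuous
  have hs : Function.Surjective (Wrap.mk : E N → Wrap N) := fun y => ⟨y.val, rfl⟩
  haveI : TopologicalSpace.SeparableSpace (Wrap N) := hs.denseRange.separableSpace hc
  obtain ⟨V, K, f, f1, f2, f3, f4⟩ := H (Wrap N) {y | y.val ∈ Z}
    (fun r r0 r1 y z hz => by
      obtain ⟨z', q1, q2⟩ := lift_seq h (R := 4 * r) (y := y.val) (z := fun c => (z c).val)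
        fun c hc => lt_of_le_of_lt (hz c hc) (by linarith)
      obtain ⟨c, c', k1, k2, k3⟩ := hA r r0 r1 y.val z' q1
      exact ⟨c, c', k1, k2, (q2 c c').trans_lt k3⟩)
    (fun y z hz => by
      obtain ⟨z', q1, q2⟩ := lift_seq h (R := 5) (y := y.val) (z := fun c => (z c).val)
        fun c hc => lt_of_le_of_lt (hz c hc) (by norm_num)
      obtain ⟨c, c', k1, k2, k3⟩ := hB y.val z' q1
      exact ⟨c, c', k1, k2, (q2 c c').trans_lt k3⟩)
    (fun z => by
      obtain ⟨I, hI, x, t, t0, ts, hx⟩ := hC z.val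
      refine ⟨I, hI, fun i => ⟨x i⟩, t, t0, ts, fun w hw => ?_⟩
      obtain ⟨g, hg⟩ := D_lt ((D_comm_le h z.val w.val).trans_lt hw.2)
      obtain ⟨i, hi⟩ := hx (ac g w.val) ⟨hZ g _ hw.1, (b2 _ _).trans_lt hg⟩
      have := D_le h w.val (x i) g 1
      rw [a1] at this
      exact ⟨i, this.trans_lt hi⟩)
  refine ⟨V, K, fun x => f ⟨⟨x.1⟩, x.2⟩, f1, ?_, fun g x y e => f3 _ _ ?_, fun x y e => ?_⟩
  · letI := spaceTop K
    exact f2.comp ((hc.comp continuous_subtype_val).subtype_mk _)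
  · change D ac x.1 y.1 = 0
    rw [e]
    exact D_orb h _ g
  · obtain ⟨g, hg⟩ := D_lt (f4 _ _ e)
    exact ⟨g, hg.le⟩

end Vale.Agent.P210
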