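import Vale.Agent.P210K.Stm

open Set Filter Topology MeasureTheory Metric
open scoped ENNReal NNReal ContDiff RealInnerProductSpace

namespace Vale.Agent.P210

namespace KUwgAux

theorem cont_val {V : Type} (K : AbstractSimplicialComplex V) :
    Continuous[spaceTop K, inferInstance] (fun p : space K => (p : V → ℝ)) := by
  unfold spaceTop
  rw [continuous_iSup_dom]
  intro s
  rw [continuous_coinduced_dom]
  exact continuous_subtype_val

theorem eq_of_dist {Y V : Type} [PseudoMetricSpace Y] {Z : Set Y}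
    (K : AbstractSimplicialComplex V) (f : Z → space K)
    (hf : Continuous[inferInstance, spaceTop K] f) (x y : Z) (h : dist (x : Y) y = 0) :
    f x = f y := by
  have hc : Continuous (fun z : Z => ((f z : space K) : V → ℝ)) :=
    @Continuous.comp Z (space K) (V → ℝ) _ (spaceTop K) _ f _ (cont_val K) hf
  have hi : Inseparable x y := Metric.inseparable_iff.mpr h
  exact Subtype.ext (hi.map hc).eq

end KUwgAux

theorem pkUwg (hLabG : LabGS) (hGlue : GlueS) (hNerveG : NerveGS) : UwgS := by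
  intro M m hM
  obtain ⟨η, hη, δ₀, hδ₀, hL⟩ := hLabG M (m + 1) hM
  have hM' : (0 : ℝ) < M := by exact_mod_cast hM
  refine ⟨min 1 (min (η ^ (m + 1)) (δ₀ / M)), by positivity, ?_⟩
  intro Y _ _ Z hA hB hC
  obtain ⟨I, hI, x, t, ht, hW, hZ⟩ := hGlue Y M (m + 1) _ Z (Nat.succ_pos m) (by positivity)
    (min_le_left _ _) hB hC
  have h1 : ∀ i, 0 < t i ∧ t i ≤ η := fun i => ⟨(ht i).1,
    le_of_pow_le_pow_left₀ (Nat.succ_ne_zero m) hη.le
      ((ht i).2.trans ((min_le_right _ _).trans (min_le_left _ _)))⟩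
  have h2 : (M : ℝ) * min 1 (min (η ^ (m + 1)) (δ₀ / M)) ≤ δ₀ := by
    have h3 : min 1 (min (η ^ (m + 1)) (δ₀ / M)) ≤ δ₀ / M :=
      (min_le_right _ _).trans (min_le_right _ _)
    rw [le_div_iff₀ hM'] at h3
    linarith
  obtain ⟨l, hl, hS⟩ := hL Y I hI x t hA h1
    (fun z => (hW z).trans (ENNReal.ofReal_le_ofReal h2))
  obtain ⟨K, f, hK, hf, hxy⟩ := hNerveG Y m Z l (by
    intro z hz
    obtain ⟨i, hi⟩ := hZ z hz
    obtain ⟨S, hS1, hS2⟩ := hS i
    obtain ⟨r, hr, hsub⟩ := Metric.isOpen_iff.mp Metric.isOpen_ball z hi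
    exact ⟨r, hr, S, hS1, fun y hy => hS2 y (hsub hy)⟩)
  refine ⟨Y, K, f, hK, hf, fun a b h => KUwgAux.eq_of_dist K f hf a b h, fun a b h => ?_⟩
  obtain ⟨z, z', h4, h5, h6⟩ := hxy a b h
  have e1 := dist_triangle (a : Y) z b
  have e2 := dist_triangle z (l z) b
  have e3 := dist_triangle (l z') z' b
  have e4 := hl z
  have e5 := hl z'
  rw [dist_comm] at e4 h5
  rw [h6] at e2 e4
  linarith

end Vale.Agent.P210
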