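import Vale.Agent.P210K.Stm

open Set Filter Topology MeasureTheory Metric
open scoped ENNReal NNReal ContDiff RealInnerProductSpace

namespace Vale.Agent.P210

namespace KVar1Aux

theorem lin (hGlob : GlobS) {X : Type} [NormedAddCommGroup X] [NormedSpace ℝ X] [CompleteSpace X]
    (B : ℝ → X →L[ℝ] X) (hB : Continuous B) :
    ∃ Y : ℝ → X →L[ℝ] X, Y 0 = ContinuousLinearMap.id ℝ X ∧
      ∀ t, HasDerivAt Y ((B t).comp (Y t)) t := by
  have hb : ∀ R : ℝ, ∃ C : ℝ, 0 ≤ C ∧ ∀ t ∈ Icc (-R) R, ‖B t‖ ≤ C := by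
    intro R
    obtain ⟨C, hC⟩ := (isCompact_Icc (a := -R) (b := R)).exists_bound_of_continuousOn
      hB.continuousOn
    exact ⟨max C 0, le_max_right _ _, fun t ht => (hC t ht).trans (le_max_left _ _)⟩
  refine (hGlob (X →L[ℝ] X) (fun t Y => (B t).comp Y) ?_ ?_ ?_).1 _
  · intro R
    obtain ⟨C, h0, hC⟩ := hb R
    refine ⟨⟨C, h0⟩, fun t ht => LipschitzOnWith.of_dist_le_mul fun Y _ Z _ => ?_⟩
    rw [dist_eq_norm, dist_eq_norm, ← ContinuousLinearMap.comp_sub]
    exact (ContinuousLinearMap.opNorm_comp_le _ _).trans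
      (mul_le_mul_of_nonneg_right (hC t ht) (norm_nonneg _))
  · intro Y
    exact hB.clm_comp continuous_const
  · intro R
    obtain ⟨C, h0, hC⟩ := hb R
    refine ⟨C, fun t ht Y => (ContinuousLinearMap.opNorm_comp_le _ _).trans ?_⟩
    exact mul_le_mul (hC t ht) (by linarith) (norm_nonneg _) h0

theorem gron {X : Type} [NormedAddCommGroup X] [NormedSpace ℝ X] (y y' : ℝ → X) (C H : ℝ)
    (hH : 0 ≤ H) (hy : ∀ t, HasDerivAt y (y' t) t) (hb : ∀ t ∈ Icc 0 H, ‖y' t‖ ≤ C * ‖y t‖) :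
    ‖y H‖ ≤ Real.exp (C * H) * ‖y 0‖ := by
  have h := norm_le_gronwallBound_of_norm_deriv_right_le (f := y) (f' := y') (δ := ‖y 0‖)
    (K := C) (ε := 0) (a := 0) (b := H)
    (fun t _ => (hy t).continuousAt.continuousWithinAt)
    (fun t _ => (hy t).hasDerivWithinAt) le_rfl
    (fun t ht => by rw [add_zero]; exact hb t (Ico_subset_Icc_self ht)) H ⟨hH, le_rfl⟩
  rw [gronwallBound_ε0, sub_zero, mul_comm] at h
  exact h

end KVar1Aux

theorem pkVar1 (hGlob : GlobS) (hMom : MomS) (hTay2 : Tay2S) (hTay3 : Tay3S) (hDer : DerS) (hDist : DistS) (hHd : HdS) (hHd2 : Hd2S) : Var1S := by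
  intro N s H hs hH
  obtain ⟨C, hC, h2⟩ := hTay2 N s (Real.exp H) hs
  refine ⟨Real.exp (C * H), Real.exp_pos _, fun μ A α hD hS h0 => ?_⟩
  have hα : Continuous α := (hDer N μ s A α hD hS).1
  have hl : Continuous (fun t => lift (α t)) :=
    continuous_iff_continuousAt.2 fun t => (hS t).continuousAt
  choose B hB using fun t : ℝ => (hMom N μ s A hD (α t)).2.2.2.2.2.2
  have hBc : Continuous B := by
    refine continuous_iff_continuousAt.2 fun t => ?_
    obtain ⟨C3, hC3, h3⟩ := hTay3 N s (‖α t‖ + 1) hs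
    have hev : ∀ᶠ u in 𝓝 t, ‖α u‖ ≤ ‖α t‖ + 1 :=
      ((hα.norm.tendsto t).eventually_le_const (by linarith))
    rw [ContinuousAt, tendsto_iff_norm_sub_tendsto_zero]
    have hlim : Tendsto (fun u => C3 * ‖lift (α u) - lift (α t)‖) (𝓝 t) (𝓝 0) := by
      have := (((hl.tendsto t).sub_const (lift (α t))).norm).const_mul C3
      simpa using this
    refine squeeze_zero' (Eventually.of_forall fun u => norm_nonneg _) ?_ hlim
    filter_upwards [hev] with u hu
    refine ContinuousLinearMap.opNorm_le_bound _ (by positivity) fun v => ?_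
    rw [sub_apply, hB, hB]
    exact h3 μ A hD (α t) (α u) (by linarith) hu v
  obtain ⟨Y, hY0, hY⟩ := KVar1Aux.lin hGlob B hBc
  have hYv : ∀ t v, HasDerivAt (fun t => Y t v) (BB μ s (lift (α t)) (Y t v)) t := by
    intro t v
    have := (hY t).clm_apply (hasDerivAt_const t v)
    simp only [ContinuousLinearMap.comp_apply, map_zero, add_zero] at this
    rw [← hB]
    exact this
  have hY0' : ∀ v, Y 0 v = v := fun v => by rw [hY0]; rfl
  refine ⟨Y, ⟨hY0', hYv⟩, fun v => ?_⟩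
  have hbd : ∀ t ∈ Icc 0 H, ‖α t‖ ≤ Real.exp H := by
    intro t ht
    have e1 := (((hDist N μ s A α hD hS).2 0 t ht.1)).1
    rw [h0, (hHd N).2.2.1] at e1
    refine ((hHd2 N).2.2.1 (α t)).trans (Real.exp_le_exp.2 ?_)
    linarith [ht.2]
  have h := KVar1Aux.gron (fun t => Y t v) (fun t => BB μ s (lift (α t)) (Y t v)) C H hH.le
    (fun t => hYv t v) (fun t ht => (h2 μ A hD (α t) (α t) (hbd t ht) (hbd t ht)).2.1 _)
  beta_reduce at h
  rw [hY0'] at h
  exact h

end Vale.Agent.P210
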