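import Vale.Agent.P210K.Stm

open Set Filter Topology MeasureTheory Metric
open scoped ENNReal NNReal ContDiff RealInnerProductSpace

namespace Vale.Agent.P210

namespace KVar2Aux

theorem gron {X : Type} [NormedAddCommGroup X] [NormedSpace ℝ X] (f f' : ℝ → X) (δ K ε H : ℝ)
    (hK : 0 < K) (hδ : 0 ≤ δ) (hε : 0 ≤ ε) (hf : ∀ t, HasDerivAt f (f' t) t) (h0 : ‖f 0‖ ≤ δ)
    (hb : ∀ t ∈ Icc (0 : ℝ) H, ‖f' t‖ ≤ K * ‖f t‖ + ε) :
    ∀ t ∈ Icc (0 : ℝ) H, ‖f t‖ ≤ (δ + ε / K) * Real.exp (K * H) := by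
  intro t ht
  have hc : ContinuousOn f (Icc 0 H) := fun x _ => (hf x).continuousAt.continuousWithinAt
  have h1 := norm_le_gronwallBound_of_norm_deriv_right_le (f := f) (f' := f') (δ := δ) (K := K)
    (ε := ε) (a := 0) (b := H) hc (fun x _ => (hf x).hasDerivWithinAt) h0
    (fun x hx => hb x ⟨hx.1, hx.2.le⟩) t ht
  rw [gronwallBound_of_K_ne_0 hK.ne'] at h1
  simp only [sub_zero] at h1
  have h2 : Real.exp (K * t) ≤ Real.exp (K * H) :=
    Real.exp_le_exp.2 (mul_le_mul_of_nonneg_left ht.2 hK.le)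
  have h3 : 0 ≤ ε / K := div_nonneg hε hK.le
  have h4 : δ * Real.exp (K * t) ≤ δ * Real.exp (K * H) := mul_le_mul_of_nonneg_left h2 hδ
  have h5 : ε / K * (Real.exp (K * t) - 1) ≤ ε / K * Real.exp (K * H) :=
    mul_le_mul_of_nonneg_left (by linarith) h3
  nlinarith

theorem bnd (hDist : DistS) (hHd : HdS) (hHd2 : Hd2S) {N : ℕ} {μ : Measure (W N)} {s A H : ℝ}
    {β : ℝ → E N} (hD : Dat μ s A) (hβ : Sol μ s β) (h0 : ‖β 0‖ ≤ 1) :
    ∀ t ∈ Icc (0 : ℝ) H, ‖β t‖ ≤ Real.exp (H + 1) := by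
  intro t ht
  obtain ⟨-, -, hsym, -, htri, -⟩ := hHd N
  obtain ⟨-, hle, hexp, -, -, -⟩ := hHd2 N
  have h1 := ((hDist N μ s A β hD hβ).2 0 t ht.1).1
  have h2 := htri (β t) (β 0) 0
  have h3 := hle (β 0) 0
  rw [sub_zero] at h3
  rw [hsym (β t) (β 0)] at h2
  have h4 : hd (β t) 0 ≤ H + 1 := by linarith [ht.2]
  exact (hexp (β t)).trans (Real.exp_le_exp.2 h4)

end KVar2Aux

open KVar2Aux in
theorem pkVar2 (hMom : MomS) (hTay2 : Tay2S) (hDer : DerS) (hDist : DistS) (hHd : HdS) (hHd2 : Hd2S) : Var2S := by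
  have _hD := hDer
  intro N s H hs hH
  obtain ⟨C, hC, hT⟩ := hTay2 N s (Real.exp (H + 1)) hs
  refine ⟨Real.exp ((C + 1) * H) ^ 2 * Real.exp (C * H), by positivity, ?_⟩
  intro μ A α β Y hD hα hβ hα0 hβ0 hY
  have bα := bnd (H := H) hDist hHd hHd2 hD hα (by rw [hα0]; simp)
  have bβ := bnd (H := H) hDist hHd hHd2 hD hβ hβ0
  have hd0 : ‖lift (β 0) - lift (α 0)‖ ≤ ‖β 0‖ := by
    have := ((hHd2 N).2.2.2.2.1 (β 0) (α 0)).1
    rw [hα0, sub_zero] at this
    rw [hα0]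
    exact this
  have hδ := gron (fun t => lift (β t) - lift (α t))
    (fun t => (mm μ s (lift (β t)) - lift (β t)) - (mm μ s (lift (α t)) - lift (α t)))
    ‖β 0‖ (C + 1) 0 H (by linarith) (norm_nonneg _) le_rfl
    (fun t => (hβ t).sub (hα t)) hd0 (by
      intro t ht
      have h1 := (hT μ A hD (α t) (β t) (bα t ht) (bβ t ht)).2.2
      have e : (mm μ s (lift (β t)) - lift (β t)) - (mm μ s (lift (α t)) - lift (α t)) =
          (mm μ s (lift (β t)) - mm μ s (lift (α t))) - (lift (β t) - lift (α t)) := by abel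
      rw [e]
      have h2 := norm_sub_le (mm μ s (lift (β t)) - mm μ s (lift (α t))) (lift (β t) - lift (α t))
      linarith)
  simp only [zero_div, add_zero] at hδ
  set v : W N := lift (β 0) - lift 0 with hv
  have he := gron (fun t => lift (β t) - lift (α t) - Y t v)
    (fun t => (mm μ s (lift (β t)) - lift (β t)) - (mm μ s (lift (α t)) - lift (α t)) -
      BB μ s (lift (α t)) (Y t v))
    0 C (C * (‖β 0‖ * Real.exp ((C + 1) * H)) ^ 2) H hC le_rfl (by positivity)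
    (fun t => ((hβ t).sub (hα t)).sub (hY.2 t v))
    (by
      show ‖lift (β 0) - lift (α 0) - Y 0 v‖ ≤ 0
      rw [hY.1 v, hα0, hv, sub_self, norm_zero])
    (by
      intro t ht
      obtain ⟨h1, h2, -⟩ := hT μ A hD (α t) (β t) (bα t ht) (bβ t ht)
      obtain ⟨B, hB⟩ := (hMom N μ s A hD (α t)).2.2.2.2.2.2
      have e : (mm μ s (lift (β t)) - lift (β t)) - (mm μ s (lift (α t)) - lift (α t)) -
          BB μ s (lift (α t)) (Y t v) =
          ((mm μ s (lift (β t)) - lift (β t)) - (mm μ s (lift (α t)) - lift (α t)) -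
            BB μ s (lift (α t)) (lift (β t) - lift (α t))) +
          BB μ s (lift (α t)) (lift (β t) - lift (α t) - Y t v) := by
        rw [← hB (lift (β t) - lift (α t) - Y t v), ← hB (lift (β t) - lift (α t)), ← hB (Y t v),
          map_sub B (lift (β t) - lift (α t)) (Y t v)]
        abel
      show ‖(mm μ s (lift (β t)) - lift (β t)) - (mm μ s (lift (α t)) - lift (α t)) -
          BB μ s (lift (α t)) (Y t v)‖ ≤ C * ‖lift (β t) - lift (α t) - Y t v‖ + _
      rw [e]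
      have h3 := norm_add_le ((mm μ s (lift (β t)) - lift (β t)) - (mm μ s (lift (α t)) - lift (α t)) -
            BB μ s (lift (α t)) (lift (β t) - lift (α t)))
          (BB μ s (lift (α t)) (lift (β t) - lift (α t) - Y t v))
      have h4 := h2 (lift (β t) - lift (α t) - Y t v)
      have h5 : ‖lift (β t) - lift (α t)‖ ^ 2 ≤ (‖β 0‖ * Real.exp ((C + 1) * H)) ^ 2 :=
        pow_le_pow_left₀ (norm_nonneg _) (hδ t ht) 2
      have h6 := mul_le_mul_of_nonneg_left h5 hC.le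
      linarith)
  have h7 := he H ⟨hH.le, le_rfl⟩
  have e2 : (0 + C * (‖β 0‖ * Real.exp ((C + 1) * H)) ^ 2 / C) * Real.exp (C * H) =
      Real.exp ((C + 1) * H) ^ 2 * Real.exp (C * H) * ‖β 0‖ ^ 2 := by
    field_simp
    ring
  rw [e2] at h7
  exact h7

end Vale.Agent.P210
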