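import Vale.Agent.P210K.Stm

open Set Filter Topology MeasureTheory Metric
open scoped ENNReal NNReal ContDiff RealInnerProductSpace

namespace Vale.Agent.P210

namespace KVisAux

theorem ne_top (n : ℕ) (hn : 0 < n) : VV n ≠ ⊤ := by
  have hr : (Module.finrank ℝ (E n) : ℝ) < 2 * n := by
    rw [finrank_euclideanSpace_fin]
    have : (0 : ℝ) < n := by exact_mod_cast hn
    linarith
  have h1 := (integrable_rpow_neg_one_add_norm_sq (μ := (volume : Measure (E n))) hr).const_mul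
    ((2 : ℝ) ^ (n : ℝ))
  have h2 : (fun y : E n => ((1 + ‖y‖ ^ 2) / 2) ^ (-(n : ℝ))) =
      fun y : E n => (2 : ℝ) ^ (n : ℝ) * ((1 : ℝ) + ‖y‖ ^ 2) ^ (-(2 * (n : ℝ)) / 2) := by
    funext y
    have e : -(2 * (n : ℝ)) / 2 = -(n : ℝ) := by ring
    rw [e, Real.div_rpow (by positivity) (by norm_num), Real.rpow_neg (by norm_num : (0 : ℝ) ≤ 2),
      div_inv_eq_mul, mul_comm]
  rw [← h2] at h1
  exact h1.lintegral_lt_top.ne

theorem ne_zero (n : ℕ) : VV n ≠ 0 := by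
  have hm : Measurable fun y : E n => ENNReal.ofReal (((1 + ‖y‖ ^ 2) / 2) ^ (-(n : ℝ))) := by
    fun_prop
  have hs : Function.support
      (fun y : E n => ENNReal.ofReal (((1 + ‖y‖ ^ 2) / 2) ^ (-(n : ℝ)))) = univ := by
    refine eq_univ_of_forall fun y => ?_
    exact (ENNReal.ofReal_pos.2 (by positivity)).ne'
  have h := (lintegral_pos_iff_support (μ := (volume : Measure (E n))) hm).2 (by
    rw [hs]; exact isOpen_univ.measure_pos _ univ_nonempty)
  exact h.ne'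

theorem dens (n : ℕ) (p : E (n + 1)) (x : E n) (h : ℝ) (U : Set (E n)) (hp : Par p x h) :
    vis p U ≤ ENNReal.ofReal ((2 / h) ^ n) * volume U := by
  obtain ⟨h0, hy⟩ := hp
  rw [← setLIntegral_const]
  refine lintegral_mono fun y => ENNReal.ofReal_le_ofReal ?_
  rw [hy y]
  have h1 : h / 2 ≤ (‖y - x‖ ^ 2 + h ^ 2) / (2 * h) := by
    rw [div_le_div_iff₀ (by norm_num) (by positivity)]
    nlinarith [sq_nonneg ‖y - x‖]
  calc ((‖y - x‖ ^ 2 + h ^ 2) / (2 * h)) ^ (-(n : ℝ)) ≤ (h / 2) ^ (-(n : ℝ)) :=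
        Real.rpow_le_rpow_of_nonpos (by positivity) h1 (by simp)
    _ = (2 / h) ^ n := by
        rw [Real.rpow_neg (by positivity), Real.rpow_natCast, ← inv_pow, inv_div]

theorem big (n : ℕ) (hn : 0 < n) (η : ℝ) (hη : 0 < η) : ∃ M : ℝ, 1 ≤ M ∧
    ENNReal.ofReal (1 - η) * VV n ≤
      ∫⁻ z in ball (0 : E n) M, ENNReal.ofReal (((1 + ‖z‖ ^ 2) / 2) ^ (-(n : ℝ))) := by
  have hd : Directed (· ⊆ ·) (fun j : ℕ => ball (0 : E n) ((j : ℝ) + 1)) := by
    refine Monotone.directed_le fun i j hij => ball_subset_ball ?_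
    have : (i : ℝ) ≤ j := by exact_mod_cast hij
    linarith
  have h1 := setLIntegral_iUnion_of_directed (μ := (volume : Measure (E n)))
    (fun z : E n => ENNReal.ofReal (((1 + ‖z‖ ^ 2) / 2) ^ (-(n : ℝ)))) hd
  rw [iUnion_ball_nat_succ, Measure.restrict_univ] at h1
  have h2 : ENNReal.ofReal (1 - η) * VV n < VV n := by
    have h3 : ENNReal.ofReal (1 - η) < 1 := ENNReal.ofReal_lt_one.2 (by linarith)
    have h4 := ENNReal.mul_lt_mul_left (ne_zero n) (ne_top n hn) h3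
    rwa [one_mul] at h4
  have h5 : VV n = ⨆ j : ℕ, ∫⁻ z in ball (0 : E n) ((j : ℝ) + 1),
      ENNReal.ofReal (((1 + ‖z‖ ^ 2) / 2) ^ (-(n : ℝ))) := h1
  obtain ⟨j, hj⟩ := lt_iSup_iff.1 (h2.trans_eq h5)
  have hj0 : (0 : ℝ) ≤ j := Nat.cast_nonneg j
  exact ⟨(j : ℝ) + 1, by linarith, hj.le⟩

end KVisAux

theorem pkVis (hPar : ParS) (hVisA : VisAS) : VisS := by
  intro n hn
  refine ⟨KVisAux.ne_zero n, KVisAux.ne_top n hn, fun p => ?_,
    fun p x h U hp => KVisAux.dens n p x h U hp, fun η hη => ?_⟩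
  · obtain ⟨x, h, hp⟩ := hPar n p
    exact (hVisA n p x h hp).1
  · obtain ⟨M, hM, hle⟩ := KVisAux.big n hn η hη
    refine ⟨M, hM, fun p x h hp => ?_⟩
    rw [(hVisA n p x h hp).2 M]
    exact hle

end Vale.Agent.P210
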