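import Vale.Agent.P210K.Stm

open Set Filter Topology MeasureTheory Metric
open scoped ENNReal NNReal ContDiff RealInnerProductSpace

namespace Vale.Agent.P210

namespace KVisAAux

theorem scale {n : ℕ} (g : E n → ℝ≥0∞) (hg : Measurable g) (x : E n) (t : ℝ) (ht : 0 < t) :
    ∫⁻ z, g (x + t • z) = ENNReal.ofReal ((t ^ n)⁻¹) * ∫⁻ y, g y := by
  have hm : Measurable (fun z : E n => g (x + z)) := hg.comp (measurable_const_add x)
  have h2 : ∫⁻ z, g (x + t • z) =
      ∫⁻ z, g (x + z) ∂(Measure.map (fun z : E n => t • z) volume) :=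
    (lintegral_map hm (measurable_const_smul t)).symm
  have h3 : ∫⁻ z, g (x + z) = ∫⁻ z, g z :=
    lintegral_add_left_eq_self (μ := (volume : Measure (E n))) g x
  rw [h2, Measure.map_addHaar_smul volume ht.ne', lintegral_smul_measure, h3,
    abs_of_pos (inv_pos.2 (pow_pos ht _)), smul_eq_mul, finrank_euclideanSpace_fin]

theorem key {n : ℕ} {p : E (n + 1)} {x : E n} {h : ℝ} (hp : Par p x h) {U U' : Set (E n)}
    (hU : MeasurableSet U) (hU' : MeasurableSet U') (e : ∀ z, x + h • z ∈ U' ↔ z ∈ U) :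
    vis p U' = ∫⁻ z in U, ENNReal.ofReal (((1 + ‖z‖ ^ 2) / 2) ^ (-(n : ℝ))) := by
  have h0 := hp.1
  have hc : 0 < (h ^ n)⁻¹ := inv_pos.2 (pow_pos h0 _)
  have k := scale (U'.indicator fun y =>
    ENNReal.ofReal (((‖y - x‖ ^ 2 + h ^ 2) / (2 * h)) ^ (-(n : ℝ))))
    (Measurable.indicator (by fun_prop) hU') x h h0
  have e2 : (fun z => U'.indicator (fun y =>
      ENNReal.ofReal (((‖y - x‖ ^ 2 + h ^ 2) / (2 * h)) ^ (-(n : ℝ)))) (x + h • z)) =
      U.indicator fun z => ENNReal.ofReal ((h ^ n)⁻¹) *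
        ENNReal.ofReal (((1 + ‖z‖ ^ 2) / 2) ^ (-(n : ℝ))) := by
    funext z
    by_cases hz : z ∈ U
    · rw [indicator_of_mem hz, indicator_of_mem ((e z).2 hz), add_sub_cancel_left, norm_smul,
        Real.norm_of_nonneg h0.le, ← ENNReal.ofReal_mul hc.le, ← Real.rpow_natCast h n,
        ← Real.rpow_neg h0.le, ← Real.mul_rpow h0.le (by positivity)]
      congr 2
      field_simp
      ring
    · rw [indicator_of_notMem hz, indicator_of_notMem fun k => hz ((e z).1 k)]
  rw [e2, lintegral_indicator hU, lintegral_indicator hU',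
    lintegral_const_mul' _ _ ENNReal.ofReal_ne_top,
    ENNReal.mul_right_inj (ENNReal.ofReal_pos.2 hc).ne' ENNReal.ofReal_ne_top] at k
  simp only [vis, hp.2]
  exact k.symm

end KVisAAux

theorem pkVisA : VisAS := by
  intro n p x h hp
  refine ⟨?_, fun M => KVisAAux.key hp measurableSet_ball measurableSet_ball fun z => ?_⟩
  · rw [KVisAAux.key hp MeasurableSet.univ MeasurableSet.univ fun z => Iff.rfl,
      Measure.restrict_univ, VV]
  · rw [mem_ball_iff_norm, mem_ball_zero_iff, add_sub_cancel_left, norm_smul,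
      Real.norm_of_nonneg hp.1.le, mul_comm M]
    exact mul_lt_mul_iff_right₀ hp.1

end Vale.Agent.P210
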