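import Vale.Agent.P210.All
import Vale.Agent.P210K.Cs
import Vale.Agent.P210K.Hd
import Vale.Agent.P210K.Hd2
import Vale.Agent.P210K.Pk
import Vale.Agent.P210K.Lor
import Vale.Agent.P210K.Ref
import Vale.Agent.P210K.Mom
import Vale.Agent.P210K.Mom2
import Vale.Agent.P210K.Map
import Vale.Agent.P210K.Tay0
import Vale.Agent.P210K.Tay1
import Vale.Agent.P210K.Tay2
import Vale.Agent.P210K.Tay3
import Vale.Agent.P210K.Glob1
import Vale.Agent.P210K.Glob
import Vale.Agent.P210K.Flc
import Vale.Agent.P210K.FlwP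
import Vale.Agent.P210K.Der
import Vale.Agent.P210K.Dist
import Vale.Agent.P210K.Var1
import Vale.Agent.P210K.Var2
import Vale.Agent.P210K.Det
import Vale.Agent.P210K.Bes
import Vale.Agent.P210K.Grt
import Vale.Agent.P210K.Gram
import Vale.Agent.P210K.Svd
import Vale.Agent.P210K.Box
import Vale.Agent.P210K.Ell
import Vale.Agent.P210K.Do0
import Vale.Agent.P210K.Do1
import Vale.Agent.P210K.Do2
import Vale.Agent.P210K.Covb
import Vale.Agent.P210K.Cnt1
import Vale.Agent.P210K.Cnt2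
import Vale.Agent.P210K.Cnt
import Vale.Agent.P210K.Packe
import Vale.Agent.P210K.Packh
import Vale.Agent.P210K.NetG
import Vale.Agent.P210K.StepG
import Vale.Agent.P210K.IterG
import Vale.Agent.P210K.LabelG
import Vale.Agent.P210K.LabG
import Vale.Agent.P210K.Glue
import Vale.Agent.P210K.NerveG
import Vale.Agent.P210K.Uwg
import Vale.Agent.P210K.Uwf
import Vale.Agent.P210K.Ll
import Vale.Agent.P210K.ParP
import Vale.Agent.P210K.Dec
import Vale.Agent.P210K.Span
import Vale.Agent.P210K.Fup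
import Vale.Agent.P210K.Frep
import Vale.Agent.P210K.VisA
import Vale.Agent.P210K.Vis
import Vale.Agent.P210K.Chain
import Vale.Agent.P210K.Mark2
import Vale.Agent.P210K.Full
import Vale.Agent.P210K.Ton
import Vale.Agent.P210K.Pt
import Vale.Agent.P210K.Flo
import Vale.Agent.P210K.Typ
import Vale.Agent.P210K.Iso0
import Vale.Agent.P210K.Invd
import Vale.Agent.P210K.Invm
import Vale.Agent.P210K.La
import Vale.Agent.P210K.Symm
import Vale.Agent.P210K.Lb
import Vale.Agent.P210K.Lc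
import Vale.Agent.P210K.Ld
import Vale.Agent.P210K.Liou
import Vale.Agent.P210K.Eqv
import Vale.Agent.P210K.St0
import Vale.Agent.P210K.St3
import Vale.Agent.P210K.St1
import Vale.Agent.P210K.St2
import Vale.Agent.P210K.St4
import Vale.Agent.P210K.Start
import Vale.Agent.P210K.Stop
import Vale.Agent.P210K.EndP
import Vale.Agent.P210K.Traj
import Vale.Agent.P210K.SymG
import Vale.Agent.P210K.Main

namespace Vale.Agent.P210

theorem tkCs : CsS := pkCs

theorem tkHd : HdS := pkHd tkCs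

theorem tkHd2 : Hd2S := pkHd2 tkCs tkHd

theorem tkPk : PkS := pkPk tkCs tkHd

theorem tkLor : LorS := pkLor tkCs tkPk

theorem tkRef : RefS := pkRef tkCs tkHd

theorem tkMom : MomS := pkMom tkPk

theorem tkMom2 : Mom2S := pkMom2 tkCs tkHd tkPk tkMom

theorem tkMap : MapS := pkMap tkLor tkMom

theorem tkTay0 : Tay0S := pkTay0

theorem tkTay1 : Tay1S := pkTay1 tkPk tkMom tkHd2 tkTay0

theorem tkTay2 : Tay2S := pkTay2 tkTay1 tkMom tkMom2 tkHd2

theorem tkTay3 : Tay3S := pkTay3 tkTay1 tkTay2 tkMom tkMom2 tkHd2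

theorem tkGlob1 : Glob1S := pkGlob1

theorem tkGlob : GlobS := pkGlob tkGlob1

theorem tkFlc : FlcS := pkFlc

theorem tkFlw : FlwS := pkFlw tkGlob tkFlc tkMom2 tkTay2 tkHd2

theorem tkDer : DerS := pkDer tkTay1 tkMom tkMom2 tkCs

theorem tkDist : DistS := pkDist tkDer tkHd tkHd2 tkMom tkMom2

theorem tkVar1 : Var1S := pkVar1 tkGlob tkMom tkTay2 tkTay3 tkDer tkDist tkHd tkHd2

theorem tkVar2 : Var2S := pkVar2 tkMom tkTay2 tkDer tkDist tkHd tkHd2

theorem tkDet : DetS := pkDet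

theorem tkBes : BesS := pkBes tkCs tkPk

theorem tkGrt : GrtS := pkGrt tkBes tkMom tkPk

theorem tkGram : GramS := pkGram tkDet tkGrt tkMom2 tkCs

theorem tkSvd : SvdS := pkSvd

theorem tkBox : BoxS := pkBox

theorem tkEll : EllS := pkEll tkSvd tkBox

theorem tkDo0 : Do0S := pkDo0 tkVar1 tkVar2 tkGram tkEll tkRef tkLor tkHd tkHd2 tkDist

theorem tkDo1 : Do1S := pkDo1 tkDo0 tkRef tkLor tkMap tkHd tkHd2

theorem tkDo2 : Do2S := pkDo2

theorem tkCovb : CovbS := pkCovb tkBox tkRef tkLor tkHd2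

theorem tkCnt1 : Cnt1S := pkCnt1

theorem tkCnt2 : Cnt2S := pkCnt2

theorem tkCnt : CntS := pkCnt tkDo1 tkDo2 tkCovb tkCnt1 tkCnt2 tkDist tkMom tkHd

theorem tkPacke : PackeS := pkPacke

theorem tkPackh : PackhS := pkPackh tkPacke tkRef tkLor tkHd2

theorem tkNetG : NetGS := pkNetG

theorem tkStepG : StepGS := pkStepG thAvg

theorem tkIterG : IterGS := pkIterG tkStepG

theorem tkLabelG : LabelGS := pkLabelG

theorem tkLabG : LabGS := pkLabG tkNetG tkIterG tkLabelG

theorem tkGlue : GlueS := pkGlue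

theorem tkNerveG : NerveGS := pkNerveG thCell

theorem tkUwg : UwgS := pkUwg tkLabG tkGlue tkNerveG

theorem tkUwf : UwfS := pkUwf tkUwg tkPackh tkHd tkHd2

theorem tkLl : LlS := pkLl

theorem tkPar : ParS := pkPar

theorem tkDec : DecS := pkDec

theorem tkSpan : SpanS := pkSpan tkDec

theorem tkFup : FupS := pkFup tkPar

theorem tkFrep : FrepS := pkFrep tkLl tkPk

theorem tkVisA : VisAS := pkVisA

theorem tkVis : VisS := pkVis tkPar tkVisA

theorem tkChain : ChainS := pkChain tkVis tkPk tkLl thProper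

theorem tkMark2 : Mark2S := pkMark2 thSeg thAv

theorem tkFull : FullS := pkFull tkMark2 thApr thSmall

theorem tkTon : TonS := pkTon

theorem tkPt : PtS := pkPt tkTon

theorem tkFlo : FloS := pkFlo

theorem tkTyp : TypS := pkTyp tkPar tkVis tkFlo tkPt tkFull tkMark2

theorem tkIso0 : Iso0S := pkIso0

theorem tkInvd : InvdS := pkInvd thLoc

theorem tkInvm : InvmS := pkInvm

theorem tkLa : LaS := pkLa

theorem tkSymm : SymmS := pkSymm

theorem tkLb : LbS := pkLb tkSymm

theorem tkLc : LcS := pkLc tkSymm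

theorem tkLd : LdS := pkLd tkLa tkLb tkLc tkDec tkSpan tkLl tkPk tkCs

theorem tkLiou : LiouS := pkLiou tkLd tkLl

theorem tkSt0 : St0S := pkSt0 thLoc thProper tkLl

theorem tkEqv : EqvS := pkEqv tkSt0 tkLor tkLl thProper

theorem tkSt3 : St3S := pkSt3 tkSt0 tkCs

theorem tkSt1 : St1S := pkSt1 tkSt0 thLoc thProper tkLl

theorem tkSt2 : St2S := pkSt2 tkSt3 tkPar tkVis thLoc

theorem tkSt4 : St4S := pkSt4 thLoc

theorem tkStart : StartS := pkStart tkSt0 tkSt1 tkSt2 tkSt4 tkEqv tkCs tkLor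

theorem tkStop : StopS := pkStop

theorem tkEnd : EndS := pkEnd tkStop tkMap tkMom tkMom2 tkDist tkHd tkHd2

theorem tkTraj : TrajS := pkTraj

theorem tkSymG : SymGS := pkSymG tkIso0 tkInvd tkInvm tkLiou tkSpan tkLor

theorem tkMain : MainKS :=
  pkMain thScal thMet thPde tkFup tkUwf tkCnt tkChain tkTyp tkFrep tkFlw tkEnd tkStart tkSymG
    tkLor tkEqv tkTraj tkDist tkMom

end Vale.Agent.P210
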