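import Vale.Agent.P210K.Stm

open Set Filter Topology MeasureTheory Metric
open scoped ENNReal NNReal ContDiff RealInnerProductSpace

namespace Vale.Agent.P210

namespace KCnt2Aux

theorem sum_eq {Y : Type} (l : List Y) (f : Y → ℝ) :
    ∑ i : Fin l.length, f (l.get i) = (l.map f).sum := by
  rw [← List.sum_ofFn]
  refine congrArg List.sum ?_
  conv_rhs => rw [← List.ofFn_get l, List.map_ofFn]
  rfl

end KCnt2Aux

theorem pkCnt2 : Cnt2S := by
  intro N k ε δ B c h hs hδ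
  choose l h1 h2 h3 using h
  have hp : ∀ j (i : Fin (l j).length), 0 < ((l j).get i).2 := fun j i =>
    (h1 j _ (List.get_mem _ _)).1
  have h4 : ∀ j, ∑ i : Fin (l j).length, ((l j).get i).2 ^ k ≤ c j := fun j =>
    (KCnt2Aux.sum_eq (l j) fun b => b.2 ^ k).trans_le (h2 j)
  have h5 : ∀ j, 0 ≤ c j := fun j =>
    (Finset.sum_nonneg fun i _ => (pow_pos (hp j i) k).le).trans (h4 j)
  refine ⟨(j : ℕ) × Fin (l j).length, inferInstance, fun i => ((l i.1).get i.2).1,
    fun i => ((l i.1).get i.2).2, fun i => hp i.1 i.2, ?_, fun z hz => ?_⟩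
  · rw [ENNReal.tsum_sigma']
    refine le_trans (ENNReal.tsum_le_tsum fun j => ?_)
      ((ENNReal.ofReal_tsum_of_nonneg h5 hs).symm.trans_le (ENNReal.ofReal_le_ofReal hδ))
    rw [tsum_fintype]
    exact (ENNReal.ofReal_sum_of_nonneg fun i _ => (pow_pos (hp j i) k).le).symm.trans_le
      (ENNReal.ofReal_le_ofReal (h4 j))
  · obtain ⟨j, hj⟩ := mem_iUnion.1 hz
    obtain ⟨b, hb, hzb⟩ := h3 j z hj
    obtain ⟨i, rfl⟩ := List.get_of_mem hb
    exact ⟨⟨j, i⟩, hzb⟩

end Vale.Agent.P210
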