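import Vale.Agent.P210.Defs

open scoped ContDiff

namespace Vale.Agent.P210
noncomputable section

/-- `φ` is smooth on `Ω` and its differential preserves the metric tensor `g`. -/
def Isom {n : ℕ} (Ω : Set (E n)) (g : E n → Matrix (Fin n) (Fin n) ℝ) (φ : E n → E n) : Prop :=
  ContDiffOn ℝ ∞ φ Ω ∧ ∀ x ∈ Ω, ∀ v : E n,
    ∑ i, ∑ j, g (φ x) i j * fderiv ℝ φ x v i * fderiv ℝ φ x v j = ∑ i, ∑ j, g x i j * v i * v j

end
end Vale.Agent.P210
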