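import Vale.Agent.P210K.Stm

open Set Filter Topology MeasureTheory Metric
open scoped ENNReal NNReal ContDiff RealInnerProductSpace

namespace Vale.Agent.P210

namespace KFlwPAux

theorem up {N : ℕ} {α : ℝ → E N} {m : W N} {t : ℝ} (h : HasDerivAt α (m.2 - α t) t)
    (hm : lz m (lift (α t)) = -1) : HasDerivAt (fun t => lift (α t)) (m - lift (α t)) t := by
  have h0 : 0 < 1 + ‖α t‖ ^ 2 := by positivity
  have h1 := (h.norm_sq.const_add 1).sqrt h0.ne'
  have h2 := Real.sqrt_pos.2 h0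
  have h3 := Real.mul_self_sqrt h0.le
  have e : 2 * ⟪α t, m.2 - α t⟫ / (2 * Real.sqrt (1 + ‖α t‖ ^ 2)) =
      m.1 - Real.sqrt (1 + ‖α t‖ ^ 2) := by
    simp only [lz, lift] at hm
    rw [div_eq_iff (by positivity), inner_sub_right, real_inner_self_eq_norm_sq, real_inner_comm]
    linarith
  rw [e] at h1
  exact h1.prodMk h

theorem down {N : ℕ} {α : ℝ → E N} {m : W N} {t : ℝ}
    (h : HasDerivAt (fun t => lift (α t)) (m - lift (α t)) t) : HasDerivAt α (m.2 - α t) t :=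
  (ContinuousLinearMap.snd ℝ ℝ (E N)).hasFDerivAt.comp_hasDerivAt t h

end KFlwPAux

open KFlwPAux

theorem pkFlw (hGlob : GlobS) (hFlc : FlcS) (hMom2 : Mom2S) (hTay2 : Tay2S) (hHd2 : Hd2S) : FlwS := by
  intro N μ s A hD
  have hL : ∀ R : ℝ, ∃ K : ℝ≥0,
      LipschitzOnWith K (fun y : E N => (mm μ s (lift y)).2 - y) (closedBall 0 R) := by
    intro R
    obtain ⟨C, hC, h⟩ := hTay2 N s R hD.pos
    refine ⟨⟨C + 1, by positivity⟩, LipschitzOnWith.of_dist_le_mul fun z hz y hy => ?_⟩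
    have h1 := (h μ A hD y z (mem_closedBall_zero_iff.1 hy) (mem_closedBall_zero_iff.1 hz)).2.2
    have h2 := mul_le_mul_of_nonneg_left ((hHd2 N).2.2.2.2.1 z y).1 hC.le
    have h3 := norm_snd_le (mm μ s (lift z) - mm μ s (lift y))
    have h4 := norm_sub_le (mm μ s (lift z) - mm μ s (lift y)).2 (z - y)
    rw [dist_eq_norm, dist_eq_norm, sub_sub_sub_comm]
    show ‖(mm μ s (lift z) - mm μ s (lift y)).2 - (z - y)‖ ≤ (C + 1) * ‖z - y‖
    linarith
  have hG : ∀ y : E N, ‖(mm μ s (lift y)).2 - y‖ ≤ 3 * (1 + ‖y‖) := fun y => by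
    have h1 := (hMom2 N μ s A hD y).2.1
    have h2 := norm_snd_le (mm μ s (lift y))
    have h3 := norm_sub_le (mm μ s (lift y)).2 y
    linarith
  obtain ⟨g1, g2⟩ := hGlob (E N) (fun _ y => (mm μ s (lift y)).2 - y)
    (fun R => (hL R).imp fun K hK _ _ => hK) (fun _ => continuous_const)
    fun _ => ⟨3, fun _ _ => hG⟩
  choose Φ h0 h1 using g1
  refine ⟨fun t y => Φ y t, h0, fun y t => up (h1 y t) (hMom2 N μ s A hD _).1, fun α hα t => ?_,
    hFlc (E N) _ (fun t y => Φ y t) 3 hL hG h0 h1⟩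
  exact congrFun (g2 α (Φ (α 0)) (fun t => down (hα t)) (h1 _) (h0 _).symm) t

end Vale.Agent.P210
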