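import Vale.Agent.P210K.Stm

open Set Filter Topology MeasureTheory Metric
open scoped ENNReal NNReal ContDiff RealInnerProductSpace

namespace Vale.Agent.P210

namespace KFupAux

def sh {n : ℕ} (x : E n) (h : ℝ) (i : ℕ) : Set (E n) :=
  ball x (2 ^ (i + 1) * h) ∩ {y | (2 ^ i * h) ^ 2 ≤ ‖y - x‖ ^ 2 + h ^ 2}

theorem sh_meas {n : ℕ} (x : E n) (h : ℝ) (i : ℕ) : MeasurableSet (sh x h i) := by
  refine measurableSet_ball.inter ?_
  refine (isClosed_le continuous_const ?_).measurableSet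
  fun_prop

theorem sh_cover {n : ℕ} (x : E n) (h : ℝ) (hh : 0 < h) : (⋃ i, sh x h i) = univ := by
  refine eq_univ_of_forall fun y => mem_iUnion.mpr ?_
  rcases lt_or_ge ‖y - x‖ h with h1 | h1
  · refine ⟨0, ?_, ?_⟩
    · rw [mem_ball, dist_eq_norm]
      norm_num
      linarith
    · simp only [mem_ofPred_eq, pow_zero, one_mul]
      nlinarith [sq_nonneg ‖y - x‖]
  · have h2 : 1 ≤ ‖y - x‖ / h := (one_le_div hh).mpr h1
    obtain ⟨i, hi1, hi2⟩ := exists_nat_pow_near h2 (by norm_num : (1 : ℝ) < 2)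
    rw [le_div_iff₀ hh] at hi1
    rw [div_lt_iff₀ hh] at hi2
    refine ⟨i, ?_, ?_⟩
    · rw [mem_ball, dist_eq_norm]
      exact hi2
    · simp only [mem_ofPred_eq]
      have h3 : (0 : ℝ) ≤ 2 ^ i * h := by positivity
      have h4 := pow_le_pow_left₀ h3 hi1 2
      nlinarith [sq_nonneg h]

theorem alg (s h : ℝ) (hh : 0 < h) (i : ℕ) :
    ((2 ^ i * h) ^ 2 / (2 * h)) ^ (-s) * (2 ^ (i + 1) * h) ^ s = 4 ^ s * ((2 : ℝ) ^ (-s)) ^ i := by
  have h1 : (0 : ℝ) ≤ (2 ^ i * h) ^ 2 / (2 * h) := by positivity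
  have h2 : (0 : ℝ) ≤ 2 ^ (i + 1) * h := by positivity
  rw [Real.rpow_neg h1, ← Real.inv_rpow h1, ← Real.mul_rpow (inv_nonneg.mpr h1) h2]
  have h3 : ((2 ^ i * h) ^ 2 / (2 * h))⁻¹ * (2 ^ (i + 1) * h) = 4 * ((2 : ℝ)⁻¹) ^ i := by
    rw [inv_pow]
    field_simp
    ring
  rw [h3, Real.mul_rpow (by norm_num) (by positivity), Real.rpow_neg (by norm_num),
    ← Real.inv_rpow (by norm_num), ← Real.rpow_natCast, ← Real.rpow_natCast,
    ← Real.rpow_mul (by norm_num), ← Real.rpow_mul (by norm_num), mul_comm s]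

end KFupAux

open KFupAux in
theorem pkFup (hPar : ParS) : FupS := by
  intro n s A hs hA
  have hq0 : (0 : ℝ) ≤ (2 : ℝ) ^ (-s) := by positivity
  have hq1 : (2 : ℝ) ^ (-s) < 1 := Real.rpow_lt_one_of_one_lt_of_neg (by norm_num) (by linarith)
  have hq2 : (0 : ℝ) < 1 - (2 : ℝ) ^ (-s) := by linarith
  refine ⟨A * 4 ^ s * (1 - (2 : ℝ) ^ (-s))⁻¹, by positivity, ?_⟩
  intro ν hν p
  obtain ⟨x, h, hh, hP⟩ := hPar n p
  have key : ∀ i : ℕ, ∫⁻ y in sh x h i, ENNReal.ofReal ((-lz (lift p) (LL y)) ^ (-s)) ∂ν ≤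
      ENNReal.ofReal (A * 4 ^ s * ((2 : ℝ) ^ (-s)) ^ i) := by
    intro i
    have h0 : (0 : ℝ) < (2 ^ i * h) ^ 2 / (2 * h) := by positivity
    calc ∫⁻ y in sh x h i, ENNReal.ofReal ((-lz (lift p) (LL y)) ^ (-s)) ∂ν
        ≤ ∫⁻ _ in sh x h i, ENNReal.ofReal (((2 ^ i * h) ^ 2 / (2 * h)) ^ (-s)) ∂ν := by
          refine setLIntegral_mono' (sh_meas x h i) fun y hy => ENNReal.ofReal_le_ofReal ?_
          rw [hP y]
          refine Real.rpow_le_rpow_of_nonpos h0 ?_ (by linarith)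
          exact div_le_div_of_nonneg_right hy.2 (by positivity)
      _ = ENNReal.ofReal (((2 ^ i * h) ^ 2 / (2 * h)) ^ (-s)) * ν (sh x h i) := by
          rw [setLIntegral_const]
      _ ≤ ENNReal.ofReal (((2 ^ i * h) ^ 2 / (2 * h)) ^ (-s)) *
            ENNReal.ofReal (A * (2 ^ (i + 1) * h) ^ s) := by
          refine mul_le_mul_right ?_ _
          exact (measure_mono inter_subset_left).trans (hν x _ (by positivity))
      _ = ENNReal.ofReal (A * 4 ^ s * ((2 : ℝ) ^ (-s)) ^ i) := by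
          rw [← ENNReal.ofReal_mul (by positivity), mul_left_comm, alg s h hh i, mul_assoc]
  have hsum : Summable fun i : ℕ => A * 4 ^ s * ((2 : ℝ) ^ (-s)) ^ i :=
    (summable_geometric_of_lt_one hq0 hq1).mul_left _
  calc GG ν s p = ∫⁻ y in ⋃ i, sh x h i, ENNReal.ofReal ((-lz (lift p) (LL y)) ^ (-s)) ∂ν := by
        rw [sh_cover x h hh, Measure.restrict_univ]
        rfl
    _ ≤ ∑' i, ∫⁻ y in sh x h i, ENNReal.ofReal ((-lz (lift p) (LL y)) ^ (-s)) ∂ν :=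
        lintegral_iUnion_le _ _
    _ ≤ ∑' i : ℕ, ENNReal.ofReal (A * 4 ^ s * ((2 : ℝ) ^ (-s)) ^ i) := ENNReal.tsum_le_tsum key
    _ = ENNReal.ofReal (A * 4 ^ s * (1 - (2 : ℝ) ^ (-s))⁻¹) := by
        rw [← ENNReal.ofReal_tsum_of_nonneg (fun i => by positivity) hsum, tsum_mul_left,
          tsum_geometric_of_lt_one hq0 hq1]

end Vale.Agent.P210
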