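import Vale.Agent.P210K.Stm

open Set Filter Topology MeasureTheory Metric
open scoped ENNReal NNReal ContDiff RealInnerProductSpace

namespace Vale.Agent.P210

namespace KLcAux

variable {n : ℕ} {X : Type} [NormedAddCommGroup X] [NormedSpace ℝ X]

theorem expand (L : E n →L[ℝ] X) (v : E n) :
    L v = ∑ i, v i • L (EuclideanSpace.single i 1) := by
  have h : v = ∑ i, v i • (EuclideanSpace.single i 1 : E n) := by
    conv_lhs => rw [← (EuclideanSpace.basisFun (Fin n) ℝ).sum_repr v]
    simp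
  conv_lhs => rw [h]
  simp only [map_sum, map_smul]

theorem cst {Ω : Set (E n)} (hO : IsOpen Ω) (hc : IsPreconnected Ω) {g : E n → X}
    (hd : DifferentiableOn ℝ g Ω) (h0 : ∀ x ∈ Ω, ∀ i, pv i g x = 0) :
    ∃ c, ∀ x ∈ Ω, g x = c := by
  refine hO.exists_is_const_of_fderiv_eq_zero hc hd fun x hx => ?_
  ext v
  rw [expand]
  exact Finset.sum_eq_zero fun i _ => by
    have := h0 x hx i
    unfold pv at this
    rw [this, smul_zero]

theorem pv_congr {Ω : Set (E n)} (hO : IsOpen Ω) {f g : E n → X} (h : ∀ x ∈ Ω, f x = g x)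
    (i : Fin n) {x : E n} (hx : x ∈ Ω) : pv i f x = pv i g x := by
  have : f =ᶠ[𝓝 x] g := by
    filter_upwards [hO.mem_nhds hx] with y hy using h y hy
  unfold pv
  rw [this.fderiv_eq]

theorem pv_const (c : X) (i : Fin n) (x : E n) : pv i (fun _ : E n => c) x = 0 := by
  simp [pv]

end KLcAux

open KLcAux in
theorem pkLc (hSymm : SymmS) : LcS := by
  intro n Ω S θ hn hO hc hS hθ
  have h1 : ∀ i, ContDiffOn ℝ ∞ (pv i S) Ω := fun i => (hSymm n _ Ω S hO hS).1 i
  have h2 : ∀ i j, ContDiffOn ℝ ∞ (pv j (pv i S)) Ω := fun i j =>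
    (hSymm n _ Ω (pv i S) hO (h1 i)).1 j
  have hth : ∀ i, ∀ x ∈ Ω, θ x = pv i (pv i S) x := fun i x hx => by rw [hθ x hx, if_pos rfl]
  have : Nontrivial (Fin n) := Fin.nontrivial_iff_two_le.2 hn
  have dθ : DifferentiableOn ℝ θ Ω :=
    ((h2 ⟨0, by omega⟩ ⟨0, by omega⟩).differentiableOn (by simp)).congr (hth ⟨0, by omega⟩)
  obtain ⟨e, he⟩ := cst hO hc dθ fun x hx k => by
    obtain ⟨i, hi⟩ := exists_ne k
    rw [pv_congr hO (hth i) k hx, (hSymm n _ Ω (pv i S) hO (h1 i)).2 k i x hx,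
      pv_congr hO (g := fun _ => 0) (fun y hy => by rw [hθ y hy, if_neg hi]) i hx, pv_const]
  have hb : ∀ i, ∃ b, ∀ x ∈ Ω, pv i S x - x i • e = b := by
    intro i
    have dl : ∀ x : E n, HasFDerivAt (fun x : E n => x i • e)
        ((EuclideanSpace.proj i : E n →L[ℝ] ℝ).smulRight e) x := fun x =>
      ((EuclideanSpace.proj i : E n →L[ℝ] ℝ).smulRight e).hasFDerivAt
    refine cst hO hc (((h1 i).differentiableOn (by simp)).sub
      fun x _ => (dl x).differentiableAt.differentiableWithinAt) fun x hx k => ?_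
    have d1 : DifferentiableAt ℝ (pv i S) x :=
      ((h1 i).differentiableOn (by simp)).differentiableAt (hO.mem_nhds hx)
    have d2 := (d1.hasFDerivAt.sub (dl x)).fderiv
    have e1 := hθ x hx i k
    rw [he x hx] at e1
    unfold pv at e1 ⊢
    have d3 : fderiv ℝ (fun x : E n => fderiv ℝ S x (EuclideanSpace.single i 1) - x i • e) x = _ := d2
    rw [d3, sub_apply]
    have e2 : fderiv ℝ (pv i S) x (EuclideanSpace.single k 1) = if i = k then e else 0 := e1
    rw [e2]
    by_cases h : i = k <;> simp [h]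
  choose b hb using hb
  let B : E n →L[ℝ] W (n + 1) := ∑ i, (EuclideanSpace.proj i : E n →L[ℝ] ℝ).smulRight (b i)
  have hB : ∀ i, B (EuclideanSpace.single i 1) = b i := by
    intro i
    simp only [B, sum_apply, ContinuousLinearMap.smulRight_apply]
    rw [Finset.sum_eq_single i]
    · simp
    · intro j _ hj
      simp [hj]
    · simp
  have dq : ∀ x : E n, HasFDerivAt (fun x : E n => (‖x‖ ^ 2 / 2) • e + B x)
      ((innerSL ℝ x).smulRight e + B) x := by
    intro x
    have q1 : HasFDerivAt (fun x : E n => ‖x‖ ^ 2 / 2) (innerSL ℝ x) x := by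
      have q0 := ((hasStrictFDerivAt_norm_sq x).hasFDerivAt).const_mul (1 / 2 : ℝ)
      have e1 : (fun x : E n => ‖x‖ ^ 2 / 2) = fun x : E n => (1 / 2 : ℝ) * ‖x‖ ^ 2 := by
        funext y; ring
      have e2 : innerSL ℝ x = (1 / 2 : ℝ) • (2 • innerSL ℝ x) := by
        ext v; simp
      rw [e1, e2]
      exact q0
    exact (q1.smul_const e).add B.hasFDerivAt
  obtain ⟨f, hf⟩ := cst hO hc (g := fun x => S x - ((‖x‖ ^ 2 / 2) • e + B x))
    ((hS.differentiableOn (by simp)).sub
      fun x _ => (dq x).differentiableAt.differentiableWithinAt) fun x hx k => by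
    have d1 : DifferentiableAt ℝ S x :=
      (hS.differentiableOn (by simp)).differentiableAt (hO.mem_nhds hx)
    have d3 : fderiv ℝ (fun x => S x - ((‖x‖ ^ 2 / 2) • e + B x)) x = _ :=
      (d1.hasFDerivAt.sub (dq x)).fderiv
    have e1 := hb k x hx
    unfold pv at e1 ⊢
    rw [d3, sub_apply, add_apply, hB, ← e1]
    simp [EuclideanSpace.inner_single_right]
  refine ⟨e, f, B, he, fun x hx => ?_⟩
  rw [← hf x hx]
  abel

end Vale.Agent.P210
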