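import Vale.Agent.P210.Stm
import Vale.Agent.P210K.Defs

open Set Filter Topology MeasureTheory Metric
open scoped ENNReal NNReal ContDiff RealInnerProductSpace

namespace Vale.Agent.P210
noncomputable section

variable {N n : ℕ}

abbrev W (N : ℕ) := ℝ × E N

def lz (u v : W N) : ℝ := ⟪u.2, v.2⟫ - u.1 * v.1

def lift (y : E N) : W N := (Real.sqrt (1 + ‖y‖ ^ 2), y)

def hd (y z : E N) : ℝ := Real.arcosh (-lz (lift y) (lift z))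

def hball (y : E N) (r : ℝ) : Set (E N) := {z | hd z y < r}

def Nul (ξ : W N) : Prop := lz ξ ξ = 0 ∧ 0 < ξ.1

def FF (μ : Measure (W N)) (s : ℝ) (p : W N) : ℝ := ∫ ξ, (-lz p ξ) ^ (-s) ∂μ

def N1 (μ : Measure (W N)) (s : ℝ) (p : W N) : W N := ∫ ξ, (-lz p ξ) ^ (-s - 1) • ξ ∂μ

def N2 (μ : Measure (W N)) (s : ℝ) (p v : W N) : W N :=
  ∫ ξ, ((-lz p ξ) ^ (-s - 2) * lz ξ v) • ξ ∂μ

def mm (μ : Measure (W N)) (s : ℝ) (p : W N) : W N := (FF μ s p)⁻¹ • N1 μ s p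

def BB (μ : Measure (W N)) (s : ℝ) (p v : W N) : W N :=
  ((s + 1) * (FF μ s p)⁻¹) • N2 μ s p v - (s * lz (mm μ s p) v) • mm μ s p - v

structure Dat (μ : Measure (W N)) (s A : ℝ) : Prop where
  pos : 0 < s
  nul : ∀ᵐ ξ ∂μ, Nul ξ
  ne : μ ≠ 0
  int : Integrable (fun ξ : W N => ξ.1 ^ (-s)) μ
  bdd : ∀ y, FF μ s (lift y) ≤ A

structure IsLor (A : W N →L[ℝ] W N) : Prop where
  iso : ∀ u v, lz (A u) (A v) = lz u v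
  fut : ∀ y, 0 < (A (lift y)).1

def act (A : W N →L[ℝ] W N) (y : E N) : E N := (A (lift y)).2

def Sol (μ : Measure (W N)) (s : ℝ) (α : ℝ → E N) : Prop :=
  ∀ t, HasDerivAt (fun t => lift (α t)) (mm μ s (lift (α t)) - lift (α t)) t

structure Flw (μ : Measure (W N)) (s : ℝ) (Φ : ℝ → E N → E N) : Prop where
  zero : ∀ y, Φ 0 y = y
  sol : ∀ y, Sol μ s (fun t => Φ t y)
  uniq : ∀ α, Sol μ s α → ∀ t, α t = Φ t (α 0)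
  cont : ContinuousOn (fun z : ℝ × E N => Φ z.1 z.2) (Ici 0 ×ˢ univ)

def Var (μ : Measure (W N)) (s : ℝ) (α : ℝ → E N) (Y : ℝ → W N →L[ℝ] W N) : Prop :=
  (∀ v, Y 0 v = v) ∧ ∀ t v, HasDerivAt (fun t => Y t v) (BB μ s (lift (α t)) (Y t v)) t

def gram {k : ℕ} (v : Fin k → W N) : Matrix (Fin k) (Fin k) ℝ :=
  Matrix.of fun i j => lz (v i) (v j)

def gramE {k : ℕ} (v : Fin k → E N) : Matrix (Fin k) (Fin k) ℝ :=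
  Matrix.of fun i j => ⟪v i, v j⟫

def Cov (k : ℕ) (ε : ℝ) (A : Set (E N)) (c : ℝ) : Prop :=
  ∃ l : List (E N × ℝ), (∀ b ∈ l, 0 < b.2 ∧ b.2 ≤ ε) ∧ (l.map (fun b => b.2 ^ k)).sum ≤ c ∧
    ∀ z ∈ A, ∃ b ∈ l, z ∈ hball b.1 b.2

def CCov {Y : Type} (D : Y → Y → ℝ) (k : ℕ) (A : Set Y) (δ : ℝ) : Prop :=
  ∃ (I : Type) (_ : Countable I) (x : I → Y) (t : I → ℝ), (∀ i, 0 < t i) ∧
    ∑' i, ENNReal.ofReal (t i ^ k) ≤ ENNReal.ofReal δ ∧ ∀ z ∈ A, ∃ i, D z (x i) < t i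

def aa (μ : Measure (W N)) (s q : ℝ) (y : E N) : ℝ := FF μ s (lift y) ^ (1 / q)

def Zs (μ : Measure (W N)) (s q : ℝ) (Φ : ℝ → E N → E N) (T : ℝ) : Set (E N) :=
  {z | ∃ y τ, 0 ≤ τ ∧ ∫ t in (0 : ℝ)..τ, aa μ s q (Φ t y) = T ∧ z = Φ τ y}

def PackA {Y : Type} (D : Y → Y → ℝ) (M : ℕ) : Prop :=
  ∀ r : ℝ, 0 < r → r ≤ 1 / 10 → ∀ (y : Y) (z : ℕ → Y), (∀ c < M, D (z c) y ≤ 3 * r) →
    ∃ c c', c < c' ∧ c' < M ∧ D (z c') (z c) < r / 4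

def PackB {Y : Type} (D : Y → Y → ℝ) (R : ℝ) (M : ℕ) : Prop :=
  ∀ (y : Y) (z : ℕ → Y), (∀ c < M, D (z c) y ≤ R) →
    ∃ c c', c < c' ∧ c' < M ∧ D (z c') (z c) < 1 / 2

def WtG {Y I : Type} (x : I → Y) (wt : I → ℝ≥0∞) (U : Set Y) : ℝ≥0∞ :=
  ∑' i, (x ⁻¹' U).indicator wt i

def HitG {Y I : Type} [PseudoMetricSpace Y] (Z : Set Y) (r : Y → ℝ) (x : I → Y) (t : I → ℝ)
    (i : I) : Prop := ∃ z ∈ Z, |dist (x i) z - r z| ≤ t i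

def LL (y : E n) : W (n + 1) :=
  ((1 + ‖y‖ ^ 2) / 2, WithLp.toLp 2 (Fin.cons ((1 - ‖y‖ ^ 2) / 2) (fun i => y i)))

def Par (p : E (n + 1)) (x : E n) (h : ℝ) : Prop :=
  0 < h ∧ ∀ y, -lz (lift p) (LL y) = (‖y - x‖ ^ 2 + h ^ 2) / (2 * h)

def sg (ρ : E n → ℝ) (y : E n) : W (n + 1) := ρ y • LL y

def mu (Ω : Set (E n)) (ρ : E n → ℝ) : Measure (W (n + 1)) := Measure.map (sg ρ) (nu Ω ρ n)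

def GG (ν : Measure (E n)) (s : ℝ) (p : E (n + 1)) : ℝ≥0∞ :=
  ∫⁻ y, ENNReal.ofReal ((-lz (lift p) (LL y)) ^ (-s)) ∂ν

def vis (p : E (n + 1)) (U : Set (E n)) : ℝ≥0∞ :=
  ∫⁻ y in U, ENNReal.ofReal ((-lz (lift p) (LL y)) ^ (-(n : ℝ)))

def VV (n : ℕ) : ℝ≥0∞ := ∫⁻ y : E n, ENNReal.ofReal (((1 + ‖y‖ ^ 2) / 2) ^ (-(n : ℝ)))

def Near (Ω : Set (E n)) (d : E n → E n → ℝ) (η : ℝ) (x : E n) (p : E (n + 1)) (D : ℝ) : Prop :=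
  ENNReal.ofReal (1 - η) * VV n ≤ vis p (KB Ω d x D)

def nb (u : W N) : E N := ((Real.sqrt (-lz u u))⁻¹ • u).2

def bar (Ω : Set (E n)) (ρ : E n → ℝ) (d : E n → E n → ℝ) (r : ℝ) (x : E n) : W (n + 1) :=
  ∫ y, max 0 (r - d x y) • sg ρ y ∂(nu Ω ρ n)

structure Iso (Ω : Set (E n)) (ρ : E n → ℝ) (φ : E n → E n) : Prop where
  smooth : ContDiffOn ℝ ∞ φ Ω
  bij : BijOn φ Ω Ω
  conf : ∀ x ∈ Ω, ∀ v, ρ (φ x) * ‖fderiv ℝ φ x v‖ = ρ x * ‖v‖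

structure Sym (Ω : Set (E n)) (ρ : E n → ℝ) (d : E n → E n → ℝ) (φ : E n → E n)
    (A : W (n + 1) →L[ℝ] W (n + 1)) : Prop where
  cont : ContinuousOn φ Ω
  bij : BijOn φ Ω Ω
  dist : ∀ x ∈ Ω, ∀ y ∈ Ω, d (φ x) (φ y) = d x y
  vol : Measure.map φ (nu Ω ρ n) = nu Ω ρ n
  lor : IsLor A
  sig : ∀ x ∈ Ω, sg ρ (φ x) = A (sg ρ x)

def CsS : Prop := ∀ (N : ℕ) (y : E N), lz (lift y) (lift y) = -1 ∧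
  (∀ v, lz v (lift y) = 0 → 0 ≤ lz v v) ∧
  (∀ v, lz v (lift y) = 0 → lz v v = 0 → v = 0) ∧
  (∀ v w, lz v (lift y) = 0 → lz w (lift y) = 0 → lz v w ^ 2 ≤ lz v v * lz w w) ∧
  ∀ p : W N, lz p p = -1 → 0 < p.1 → p = lift p.2

def HdS : Prop := ∀ N : ℕ, (∀ y z : E N, 1 ≤ -lz (lift y) (lift z)) ∧ (∀ y : E N, hd y y = 0) ∧
  (∀ y z : E N, hd y z = hd z y) ∧ (∀ y z : E N, 0 ≤ hd y z) ∧
  (∀ x y z : E N, hd x z ≤ hd x y + hd y z) ∧ Continuous (fun z : E N × E N => hd z.1 z.2)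

def Hd2S : Prop := ∀ N : ℕ,
  (∀ y z : E N, hd y z ≤ Real.sqrt (lz (lift y - lift z) (lift y - lift z))) ∧
  (∀ y z : E N, hd y z ≤ ‖y - z‖) ∧ (∀ y : E N, ‖y‖ ≤ Real.exp (hd y 0)) ∧
  (∀ y : E N, hd y 0 ≤ 1 → ‖y‖ ≤ 2 * hd y 0) ∧
  (∀ y z : E N, ‖lift y - lift z‖ ≤ ‖y - z‖ ∧ ‖y - z‖ ≤ ‖lift y - lift z‖) ∧
  ∀ y : E N, ‖lift y - lift 0 - ((0 : ℝ), y)‖ ≤ ‖y‖ ^ 2

def PkS : Prop := ∀ (N : ℕ) (ξ : W N), Nul ξ → ‖ξ‖ = ξ.1 ∧ ∀ y : E N, 0 < -lz (lift y) ξ ∧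
  ξ.1 ≤ (1 + 2 * ‖y‖) * (-lz (lift y) ξ) ∧ -lz (lift y) ξ ≤ (1 + 2 * ‖y‖) * ξ.1 ∧
  ∀ z : E N, -lz (lift z) ξ ≤ Real.exp (hd y z) * (-lz (lift y) ξ)

def LorS : Prop := ∀ (N : ℕ) (A : W N →L[ℝ] W N), IsLor A →
  (∀ y, A (lift y) = lift (act A y)) ∧ (∀ y z, hd (act A y) (act A z) = hd y z) ∧
  (∀ ξ, Nul ξ → Nul (A ξ)) ∧ Function.Surjective (act A) ∧ Continuous (act A)

def RefS : Prop := ∀ (N : ℕ) (y : E N), ∃ R : W N →L[ℝ] W N, IsLor R ∧ (∀ v, R (R v) = v) ∧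
  R (lift y) = lift 0 ∧ ∀ v, ‖R v‖ ≤ 2 * (1 + ‖y‖) * ‖v‖

def MomS : Prop := ∀ (N : ℕ) (μ : Measure (W N)) (s A : ℝ), Dat μ s A → ∀ y : E N,
  Integrable (fun ξ => (-lz (lift y) ξ) ^ (-s)) μ ∧
  Integrable (fun ξ => (-lz (lift y) ξ) ^ (-s - 1) • ξ) μ ∧
  (∀ v, Integrable (fun ξ => ((-lz (lift y) ξ) ^ (-s - 2) * lz ξ v) • ξ) μ) ∧
  0 < FF μ s (lift y) ∧ (∀ v, lz (N1 μ s (lift y)) v =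
    ∫ ξ, (-lz (lift y) ξ) ^ (-s - 1) * lz ξ v ∂μ) ∧
  (∀ v w, lz (N2 μ s (lift y) v) w =
    ∫ ξ, (-lz (lift y) ξ) ^ (-s - 2) * lz ξ v * lz ξ w ∂μ) ∧
  ∃ B : W N →L[ℝ] W N, ∀ v, B v = BB μ s (lift y) v

def Mom2S : Prop := ∀ (N : ℕ) (μ : Measure (W N)) (s A : ℝ), Dat μ s A → ∀ y : E N,
  lz (mm μ s (lift y)) (lift y) = -1 ∧ ‖mm μ s (lift y)‖ ≤ 1 + 2 * ‖y‖ ∧
  0 ≤ lz (mm μ s (lift y) - lift y) (mm μ s (lift y) - lift y) ∧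
  lz (mm μ s (lift y) - lift y) (mm μ s (lift y) - lift y) ≤ 1 ∧
  (∀ v, lz (BB μ s (lift y) v) (lift y) + lz v (mm μ s (lift y) - lift y) =
    -2 * lz v (lift y)) ∧
  ∀ z, FF μ s (lift z) ≤ Real.exp (s * hd y z) * FF μ s (lift y)

def MapS : Prop := ∀ (N : ℕ) (μ : Measure (W N)) (s A : ℝ) (R : W N →L[ℝ] W N), Dat μ s A →
  IsLor R → Dat (Measure.map R μ) s A ∧
  (∀ y, FF (Measure.map R μ) s (lift (act R y)) = FF μ s (lift y)) ∧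
  ∀ α, Sol μ s α → Sol (Measure.map R μ) s (fun t => act R (α t))

def Tay0S : Prop := ∀ r K : ℝ, 0 < r → 1 ≤ K → ∃ C > 0, ∀ u a b : ℝ, 0 < u →
  u ≤ K * a → a ≤ K * u → u ≤ K * b → b ≤ K * u →
  a ^ (-r) ≤ C * u ^ (-r) ∧ u ^ (-r) ≤ C * a ^ (-r) ∧
  |b ^ (-r) - a ^ (-r)| ≤ C * u ^ (-r - 1) * |b - a| ∧
  |b ^ (-r) - a ^ (-r) + r * a ^ (-r - 1) * (b - a)| ≤ C * u ^ (-r - 2) * (b - a) ^ 2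

def Tay1S : Prop := ∀ (N : ℕ) (s R : ℝ), 0 < s → ∃ C > 0, ∀ (μ : Measure (W N)) (A : ℝ),
  Dat μ s A → ∀ y z : E N, ‖y‖ ≤ R → ‖z‖ ≤ R →
  FF μ s (lift 0) ≤ C * FF μ s (lift y) ∧
  |FF μ s (lift z) - FF μ s (lift y) - s * lz (N1 μ s (lift y)) (lift z - lift y)| ≤
    C * FF μ s (lift 0) * ‖lift z - lift y‖ ^ 2 ∧
  ‖N1 μ s (lift z) - N1 μ s (lift y) - (s + 1) • N2 μ s (lift y) (lift z - lift y)‖ ≤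
    C * FF μ s (lift 0) * ‖lift z - lift y‖ ^ 2 ∧
  ‖N1 μ s (lift y)‖ ≤ C * FF μ s (lift 0) ∧
  (∀ v, ‖N2 μ s (lift y) v‖ ≤ C * FF μ s (lift 0) * ‖v‖) ∧
  ∀ v, ‖N2 μ s (lift z) v - N2 μ s (lift y) v‖ ≤
    C * FF μ s (lift 0) * ‖lift z - lift y‖ * ‖v‖

def Tay2S : Prop := ∀ (N : ℕ) (s R : ℝ), 0 < s → ∃ C > 0, ∀ (μ : Measure (W N)) (A : ℝ),
  Dat μ s A → ∀ y z : E N, ‖y‖ ≤ R → ‖z‖ ≤ R →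
  ‖(mm μ s (lift z) - lift z) - (mm μ s (lift y) - lift y) -
    BB μ s (lift y) (lift z - lift y)‖ ≤ C * ‖lift z - lift y‖ ^ 2 ∧
  (∀ v, ‖BB μ s (lift y) v‖ ≤ C * ‖v‖) ∧
  ‖mm μ s (lift z) - mm μ s (lift y)‖ ≤ C * ‖lift z - lift y‖

def Tay3S : Prop := ∀ (N : ℕ) (s R : ℝ), 0 < s → ∃ C > 0, ∀ (μ : Measure (W N)) (A : ℝ),
  Dat μ s A → ∀ y z : E N, ‖y‖ ≤ R → ‖z‖ ≤ R →
  ∀ v, ‖BB μ s (lift z) v - BB μ s (lift y) v‖ ≤ C * ‖lift z - lift y‖ * ‖v‖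

def Glob1S : Prop := ∀ (X : Type) [NormedAddCommGroup X] [NormedSpace ℝ X] [CompleteSpace X]
  (f : ℝ → X → X), (∀ R : ℝ, ∃ K : ℝ≥0, ∀ t ∈ Icc (-R) R, LipschitzOnWith K (f t) (closedBall 0 R)) →
  (∀ y, Continuous (fun t => f t y)) →
  (∀ R : ℝ, ∃ C : ℝ, ∀ t ∈ Icc (-R) R, ∀ y, ‖f t y‖ ≤ C * (1 + ‖y‖)) →
  ∀ (y : X) (T : ℝ), 0 < T → ∃ α : ℝ → X, α 0 = y ∧
    ∀ t ∈ Ioo (-T) T, HasDerivAt α (f t (α t)) t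

def GlobS : Prop := ∀ (X : Type) [NormedAddCommGroup X] [NormedSpace ℝ X] [CompleteSpace X]
  (f : ℝ → X → X), (∀ R : ℝ, ∃ K : ℝ≥0, ∀ t ∈ Icc (-R) R, LipschitzOnWith K (f t) (closedBall 0 R)) →
  (∀ y, Continuous (fun t => f t y)) →
  (∀ R : ℝ, ∃ C : ℝ, ∀ t ∈ Icc (-R) R, ∀ y, ‖f t y‖ ≤ C * (1 + ‖y‖)) →
  (∀ y : X, ∃ α : ℝ → X, α 0 = y ∧ ∀ t, HasDerivAt α (f t (α t)) t) ∧
  ∀ α β : ℝ → X, (∀ t, HasDerivAt α (f t (α t)) t) → (∀ t, HasDerivAt β (f t (β t)) t) →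
    α 0 = β 0 → α = β

def FlcS : Prop := ∀ (X : Type) [NormedAddCommGroup X] [NormedSpace ℝ X]
  (f : X → X) (Φ : ℝ → X → X) (C : ℝ),
  (∀ R : ℝ, ∃ K : ℝ≥0, LipschitzOnWith K f (closedBall 0 R)) → (∀ y, ‖f y‖ ≤ C * (1 + ‖y‖)) →
  (∀ y, Φ 0 y = y) → (∀ y t, HasDerivAt (fun t => Φ t y) (f (Φ t y)) t) →
  ContinuousOn (fun z : ℝ × X => Φ z.1 z.2) (Ici 0 ×ˢ univ)

def FlwS : Prop := ∀ (N : ℕ) (μ : Measure (W N)) (s A : ℝ), Dat μ s A → ∃ Φ, Flw μ s Φ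

def DerS : Prop := ∀ (N : ℕ) (μ : Measure (W N)) (s A : ℝ) (α : ℝ → E N), Dat μ s A →
  Sol μ s α → Continuous α ∧ ∀ t, HasDerivAt (fun t => Real.log (FF μ s (lift (α t))))
    (s * lz (mm μ s (lift (α t)) - lift (α t)) (mm μ s (lift (α t)) - lift (α t))) t

def DistS : Prop := ∀ (N : ℕ) (μ : Measure (W N)) (s A : ℝ) (α : ℝ → E N), Dat μ s A →
  Sol μ s α → Monotone (fun t => FF μ s (lift (α t))) ∧ ∀ a b, a ≤ b →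
    hd (α a) (α b) ≤ b - a ∧ ∀ θ > 0, hd (α a) (α b) ≤
      (Real.log (FF μ s (lift (α b))) - Real.log (FF μ s (lift (α a)))) / (2 * θ * s) +
        θ * (b - a) / 2

def Var1S : Prop := ∀ (N : ℕ) (s H : ℝ), 0 < s → 0 < H → ∃ C > 0,
  ∀ (μ : Measure (W N)) (A : ℝ) (α : ℝ → E N), Dat μ s A → Sol μ s α → α 0 = 0 →
  ∃ Y, Var μ s α Y ∧ ∀ v, ‖Y H v‖ ≤ C * ‖v‖

def Var2S : Prop := ∀ (N : ℕ) (s H : ℝ), 0 < s → 0 < H → ∃ C > 0,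
  ∀ (μ : Measure (W N)) (A : ℝ) (α β : ℝ → E N) (Y : ℝ → W N →L[ℝ] W N), Dat μ s A →
  Sol μ s α → Sol μ s β → α 0 = 0 → ‖β 0‖ ≤ 1 → Var μ s α Y →
  ‖lift (β H) - lift (α H) - Y H (lift (β 0) - lift 0)‖ ≤ C * ‖β 0‖ ^ 2

def DetS : Prop := ∀ (k : ℕ) (G : ℝ → Matrix (Fin k) (Fin k) ℝ) (G' : Matrix (Fin k) (Fin k) ℝ)
  (t : ℝ), (∀ i j, HasDerivAt (fun t => G t i j) (G' i j) t) →
  HasDerivAt (fun t => (G t).det) (Matrix.trace ((G t).adjugate * G')) t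

def BesS : Prop := ∀ (N k : ℕ) (y : E N) (v : Fin k → W N), (∀ i, lz (v i) (lift y) = 0) →
  0 < (gram v).det →
  (∀ b : Fin k → ℝ, 0 ≤ ∑ i, ∑ j, (gram v).adjugate i j * (b j * b i)) ∧
  ∀ ξ, Nul ξ → ∑ i, ∑ j, (gram v).adjugate i j * (lz ξ (v j) * lz ξ (v i)) ≤
    (-lz (lift y) ξ) ^ 2 * (gram v).det

def GrtS : Prop := ∀ (N k : ℕ) (μ : Measure (W N)) (s A : ℝ) (y : E N) (v : Fin k → W N),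
  Dat μ s A → (∀ i, lz (v i) (lift y) = 0) → 0 < (gram v).det →
  Matrix.trace ((gram v).adjugate * Matrix.of fun i j =>
    lz (BB μ s (lift y) (v i)) (v j) + lz (v i) (BB μ s (lift y) (v j))) ≤
    -(2 * (k - 1 - s)) * (gram v).det

def GramS : Prop := ∀ (N k : ℕ) (μ : Measure (W N)) (s A : ℝ) (α : ℝ → E N)
  (Y : ℝ → W N →L[ℝ] W N), Dat μ s A → Sol μ s α → α 0 = 0 → Var μ s α Y → ∀ t, 0 ≤ t →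
  (∀ u : E N, lz (Y t ((0 : ℝ), u)) (lift (α t)) = 0) ∧
  ∀ u : Fin k → E N, Orthonormal ℝ u →
    (gram fun i => Y t ((0 : ℝ), u i)).det ≤ Real.exp (-(2 * (k - 1 - s)) * t)

def SvdS : Prop := ∀ (N : ℕ) (L : E N →L[ℝ] E N), ∃ (b : OrthonormalBasis (Fin N) ℝ (E N))
  (σ : Fin N → ℝ), Antitone σ ∧ (∀ i, 0 ≤ σ i) ∧
  ∀ i j, ⟪L (b i), L (b j)⟫ = if i = j then σ i ^ 2 else 0

def BoxS : Prop := ∀ (N : ℕ) (L : E N →L[ℝ] E N) (b : OrthonormalBasis (Fin N) ℝ (E N))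
  (σ : Fin N → ℝ) (lam : ℝ), 0 < lam → (∀ i, 0 ≤ σ i) →
  (∀ i j, ⟪L (b i), L (b j)⟫ = if i = j then σ i ^ 2 else 0) →
  ∃ T : Finset (E N), (T.card : ℝ) ≤ ∏ i, (5 * max 1 (σ i / lam)) ∧
    ∀ u, ‖u‖ ≤ 1 → ∃ c ∈ T, ‖L u - c‖ ≤ N * lam

def EllS : Prop := ∀ N k : ℕ, 0 < k → k ≤ N → ∃ C > 0, ∀ (L : E N →L[ℝ] E N) (η M l : ℝ),
  0 < η → 1 ≤ M → 0 < l → l ≤ 1 → (∀ u, ‖L u‖ ≤ M * ‖u‖) →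
  (∀ u : Fin k → E N, Orthonormal ℝ u → (gramE fun i => L (u i)).det ≤ (η ^ k) ^ 2) →
  ∃ (T : Finset (E N)) (r : ℝ), 0 < r ∧ r ≤ C * (η + l) ∧
    T.card * r ^ k ≤ C * (η ^ k + M ^ k * l) ∧
    ∀ u e, ‖u‖ ≤ 1 → ‖e‖ ≤ l → ∃ c ∈ T, ‖L u + e - c‖ < r

def Do0S : Prop := ∀ (N k : ℕ) (s : ℝ), 0 < s → s + 1 < k → k ≤ N → ∃ H > 0, ∃ ε₀ > 0,
  ε₀ ≤ 1 / 2 ∧ ∀ (μ : Measure (W N)) (A : ℝ) (α : ℝ → E N), Dat μ s A → Sol μ s α → α 0 = 0 →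
  ∀ ε, 0 < ε → ε ≤ ε₀ →
    Cov k ε {z | ∃ β, Sol μ s β ∧ ‖β 0‖ ≤ 2 * ε ∧ z = β H} (ε ^ k / 2)

def Do1S : Prop := ∀ (N k : ℕ) (s : ℝ), 0 < s → s + 1 < k → k ≤ N → ∃ H > 0, ∃ ε₀ > 0,
  ∀ (μ : Measure (W N)) (A : ℝ) (Φ : ℝ → E N → E N), Dat μ s A → Flw μ s Φ →
  ∀ y ε, 0 < ε → ε ≤ ε₀ → Cov k ε (Φ H '' hball y ε) (ε ^ k / 2)

def Do2S : Prop := ∀ (N k : ℕ) (ε₀ : ℝ) (T : E N → E N),
  (∀ y ε, 0 < ε → ε ≤ ε₀ → Cov k ε (T '' hball y ε) (ε ^ k / 2)) →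
  ∀ (j : ℕ) (A : Set (E N)) (c : ℝ), Cov k ε₀ A c → Cov k ε₀ (T^[j] '' A) (c / 2 ^ j)

def CovbS : Prop := ∀ (N k : ℕ) (ε : ℝ), 0 < ε → ∃ C > 0, ∀ (y : E N) (R : ℝ), 0 ≤ R →
  Cov k ε (hball y R) (C * Real.exp (N * R))

def Cnt1S : Prop := ∀ (A H γ : ℝ) (j₀ : ℕ), 0 < A → 0 < H → 0 < γ → ∃ T > 0,
  ∀ (a : ℝ → ℝ) (τ : ℝ), Monotone a → (∀ t, 0 ≤ a t ∧ a t ≤ A) → 0 ≤ τ →
  ∫ t in (0 : ℝ)..τ, a t = T →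
  ∃ j : ℕ, j₀ ≤ j ∧ j * H ≤ τ ∧ A * Real.exp (-(γ * j)) ≤ a (τ - j * H)

def Cnt2S : Prop := ∀ (N k : ℕ) (ε δ : ℝ) (B : ℕ → Set (E N)) (c : ℕ → ℝ),
  (∀ j, Cov k ε (B j) (c j)) → Summable c → ∑' j, c j ≤ δ → CCov hd k (⋃ j, B j) δ

def CntS : Prop := ∀ (N k : ℕ) (s q A δ : ℝ), 0 < s → s + 1 < k → k ≤ N → 0 < q → 0 < A →
  0 < δ → ∃ T > 0, ∀ (μ : Measure (W N)) (Φ : ℝ → E N → E N), Dat μ s A → Flw μ s Φ →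
  ∀ p, CCov hd k (Zs μ s q Φ T ∩ hball p 2) δ

def PackeS : Prop := ∀ (N : ℕ) (Λ : ℝ), ∃ M : ℕ, 0 < M ∧ ∀ (r : ℝ) (z : ℕ → E N), 0 < r →
  (∀ c < M, ‖z c‖ ≤ Λ * r) → ∃ c c', c < c' ∧ c' < M ∧ ‖z c' - z c‖ < r

def PackhS : Prop := ∀ N : ℕ, ∃ M : ℕ, 0 < M ∧
  (∀ r : ℝ, 0 < r → r ≤ 1 / 10 → ∀ (y : E N) (z : ℕ → E N), (∀ c < M, hd (z c) y ≤ 4 * r) →
    ∃ c c', c < c' ∧ c' < M ∧ hd (z c') (z c) < r / 4) ∧ PackB (hd : E N → E N → ℝ) 5 M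

def NetGS : Prop := ∀ (Y : Type) [PseudoMetricSpace Y] (M : ℕ) (ε : ℝ), PackA (dist : Y → Y → ℝ) M →
  0 < ε → ε ≤ 1 / 10 → ∃ Z : ℕ → Set Y, (∀ c, (Z c).PairwiseDisjoint (fun z => ball z ε)) ∧
    ∀ y, ∃ c < M, ∃ z ∈ Z c, y ∈ ball z (ε / 4)

open Classical in
def StepGS : Prop := ∀ (Y : Type) [PseudoMetricSpace Y] (ε : ℝ) (I : Type) (_ : Countable I)
  (x : I → Y) (t : I → ℝ) (wt : I → ℝ≥0∞) (Z : Set Y), 0 < ε →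
  (∀ i, 0 < t i ∧ t i ≤ ε / 10) → Z.PairwiseDisjoint (fun z => ball z ε) →
  ∃ r : Y → ℝ, (∀ z, ε / 4 ≤ r z ∧ r z ≤ ε / 2) ∧ ∀ (z : Y) (u : ℝ),
    WtG x (fun i => if HitG Z r x t i then wt i * ENNReal.ofReal (1 / t i) else wt i)
      (ball z u) ≤ ENNReal.ofReal (1 + 16 / ε) * WtG x wt (ball z (u + 4 * ε))

open Classical in
def IterGS : Prop := ∀ (Y : Type) [PseudoMetricSpace Y] (M : ℕ) (ε : ℝ) (I : Type)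
  (_ : Countable I) (x : I → Y) (t : I → ℝ) (wt : I → ℝ≥0∞) (Z : ℕ → Set Y), 0 < ε →
  4 * ε * M < 1 / 2 → (∀ i, 0 < t i ∧ t i ≤ ε / 10) →
  (∀ c, (Z c).PairwiseDisjoint (fun z => ball z ε)) →
  ∃ r : ℕ → Y → ℝ, (∀ c < M, ∀ z, ε / 4 ≤ r c z ∧ r c z ≤ ε / 2) ∧ ∀ i,
    wt i * ENNReal.ofReal (1 / t i) ^
      ((Finset.range M).filter (fun c => HitG (Z c) (r c) x t i)).card ≤
      ENNReal.ofReal (1 + 16 / ε) ^ M * WtG x wt (ball (x i) (1 / 2))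

open Classical in
def LabelGS : Prop := ∀ (Y : Type) [PseudoMetricSpace Y] (M k : ℕ) (ε : ℝ) (I : Type) (x : I → Y)
  (t : I → ℝ) (Z : ℕ → Set Y) (r : ℕ → Y → ℝ), 0 < ε → ε ≤ 1 / 10 →
  (∀ i, 0 < t i ∧ t i ≤ ε / 10) → (∀ c, (Z c).PairwiseDisjoint (fun z => ball z ε)) →
  (∀ y, ∃ c < M, ∃ z ∈ Z c, y ∈ ball z (ε / 4)) →
  (∀ c < M, ∀ z, ε / 4 ≤ r c z ∧ r c z ≤ ε / 2) →
  (∀ i, ((Finset.range M).filter (fun c => HitG (Z c) (r c) x t i)).card < k) →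
  ∃ l : Y → Y, (∀ y, dist (l y) y ≤ 1 / 10) ∧
    ∀ i, ∃ S : Finset Y, S.card ≤ k ∧ ∀ y ∈ ball (x i) (t i), l y ∈ S

def LabGS : Prop := ∀ M k : ℕ, 0 < M → ∃ η > 0, ∃ δ > 0, ∀ (Y : Type) [PseudoMetricSpace Y]
  (I : Type) (_ : Countable I) (x : I → Y) (t : I → ℝ), PackA (dist : Y → Y → ℝ) M →
  (∀ i, 0 < t i ∧ t i ≤ η) →
  (∀ z, WtG x (fun i => ENNReal.ofReal (t i ^ k)) (ball z (1 / 2)) ≤ ENNReal.ofReal δ) →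
  ∃ l : Y → Y, (∀ y, dist (l y) y ≤ 1 / 10) ∧
    ∀ i, ∃ S : Finset Y, S.card ≤ k ∧ ∀ y ∈ ball (x i) (t i), l y ∈ S

def GlueS : Prop := ∀ (Y : Type) [PseudoMetricSpace Y] [TopologicalSpace.SeparableSpace Y]
  (M k : ℕ) (δ : ℝ) (Z : Set Y), 0 < k → 0 < δ → δ ≤ 1 → PackB (dist : Y → Y → ℝ) 4 M →
  (∀ z, CCov (dist : Y → Y → ℝ) k (Z ∩ ball z 2) δ) →
  ∃ (I : Type) (_ : Countable I) (x : I → Y) (t : I → ℝ), (∀ i, 0 < t i ∧ t i ^ k ≤ δ) ∧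
    (∀ z, WtG x (fun i => ENNReal.ofReal (t i ^ k)) (ball z (1 / 2)) ≤ ENNReal.ofReal (M * δ)) ∧
    ∀ z ∈ Z, ∃ i, z ∈ ball (x i) (t i)

def NerveGS : Prop := ∀ (Y : Type) [PseudoMetricSpace Y] (m : ℕ) (Z : Set Y) (l : Y → Y),
  (∀ z ∈ Z, ∃ r > 0, ∃ S : Finset Y, S.card ≤ m + 1 ∧ ∀ y ∈ ball z r, l y ∈ S) →
  ∃ (K : AbstractSimplicialComplex Y) (f : Z → space K), (∀ s ∈ K.faces, s.card ≤ m + 1) ∧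
    Continuous[inferInstance, spaceTop K] f ∧
    ∀ x y : Z, f x = f y → ∃ z z', dist (x : Y) z ≤ 1 / 2 ∧ dist (y : Y) z' ≤ 1 / 2 ∧ l z = l z'

def UwgS : Prop := ∀ M m : ℕ, 0 < M → ∃ δ > 0, ∀ (Y : Type) [PseudoMetricSpace Y]
  [TopologicalSpace.SeparableSpace Y] (Z : Set Y), PackA (dist : Y → Y → ℝ) M →
  PackB (dist : Y → Y → ℝ) 4 M → (∀ z, CCov (dist : Y → Y → ℝ) (m + 1) (Z ∩ ball z 2) δ) →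
  ∃ (V : Type) (K : AbstractSimplicialComplex V) (f : Z → space K),
    (∀ s ∈ K.faces, s.card ≤ m + 1) ∧ Continuous[inferInstance, spaceTop K] f ∧
    (∀ x y : Z, dist (x : Y) y = 0 → f x = f y) ∧ ∀ x y : Z, f x = f y → dist (x : Y) y < 2

def UwfS : Prop := ∀ N m : ℕ, ∃ δ > 0, ∀ (G : Type) [Group G] (ac : G → E N → E N)
  (Z : Set (E N)), (∀ y, ac 1 y = y) → (∀ g h y, ac (g * h) y = ac g (ac h y)) →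
  (∀ g y z, hd (ac g y) (ac g z) = hd y z) → (∀ g, ∀ z ∈ Z, ac g z ∈ Z) →
  (∀ p, CCov hd (m + 1) (Z ∩ hball p 2) δ) →
  ∃ (V : Type) (K : AbstractSimplicialComplex V) (f : Z → space K),
    (∀ s ∈ K.faces, s.card ≤ m + 1) ∧ Continuous[inferInstance, spaceTop K] f ∧
    (∀ (g : G) (x y : Z), (y : E N) = ac g x → f x = f y) ∧
    ∀ x y : Z, f x = f y → ∃ g, hd (x : E N) (ac g y) ≤ 2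

def LlS : Prop := ∀ n : ℕ, (∀ x y : E n, lz (LL x) (LL y) = -(‖x - y‖ ^ 2 / 2)) ∧
  (∀ y : E n, Nul (LL y)) ∧ ContDiff ℝ ∞ (LL : E n → W (n + 1)) ∧
  (∀ (x u v : E n), lz (fderiv ℝ LL x u) (fderiv ℝ LL x v) = ⟪u, v⟫) ∧
  ∀ (x v : E n), lz (LL x) (fderiv ℝ LL x v) = 0

def ParS : Prop := ∀ (n : ℕ) (p : E (n + 1)), ∃ x h, Par p x h

def DecS : Prop := ∀ n : ℕ, ∃ (P : E n →L[ℝ] W (n + 1)) (e f : W (n + 1)),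
  (∀ y, LL y = (‖y‖ ^ 2 / 2) • e + P y + f) ∧
  (∀ u, ∃ (a b : ℝ) (y : E n), u = a • e + b • f + P y) ∧
  ∀ (B : E n →L[ℝ] W (n + 1)) (e' f' : W (n + 1)), ∃ A : W (n + 1) →L[ℝ] W (n + 1),
    A e = e' ∧ A f = f' ∧ ∀ y, A (P y) = B y

def VisAS : Prop := ∀ (n : ℕ) (p : E (n + 1)) (x : E n) (h : ℝ), Par p x h →
  vis p univ = VV n ∧ ∀ M : ℝ, vis p (ball x (M * h)) =
    ∫⁻ z in ball (0 : E n) M, ENNReal.ofReal (((1 + ‖z‖ ^ 2) / 2) ^ (-(n : ℝ)))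

def SpanS : Prop := ∀ (n : ℕ) (Ω : Set (E n)), 0 < n → IsOpen Ω → Ω.Nonempty →
  Submodule.span ℝ (LL '' Ω) = ⊤

def FupS : Prop := ∀ (n : ℕ) (s A : ℝ), 0 < s → 0 < A → ∃ A' > 0, ∀ ν : Measure (E n),
  (∀ x r, 0 < r → ν (ball x r) ≤ ENNReal.ofReal (A * r ^ s)) →
  ∀ p, GG ν s p ≤ ENNReal.ofReal A'

def FrepS : Prop := ∀ (n : ℕ) (Ω : Set (E n)) (ρ : E n → ℝ) (q A : ℝ), IsOpen Ω → Ω.Nonempty →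
  ContinuousOn ρ Ω → (∀ x ∈ Ω, 0 < ρ x) → 0 < (n : ℝ) - q → 0 < A →
  (∀ p, GG (nu Ω ρ q) (n - q) p ≤ ENNReal.ofReal A) →
  Dat (mu Ω ρ) (n - q) A ∧ ∀ p, FF (mu Ω ρ) (n - q) (lift p) = (GG (nu Ω ρ q) (n - q) p).toReal

def VisS : Prop := ∀ n : ℕ, 0 < n → VV n ≠ 0 ∧ VV n ≠ ⊤ ∧
  (∀ p : E (n + 1), vis p univ = VV n) ∧
  (∀ (p : E (n + 1)) x h U, Par p x h →
    vis p U ≤ ENNReal.ofReal ((2 / h) ^ n) * volume U) ∧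
  ∀ η > 0, ∃ M ≥ 1, ∀ (p : E (n + 1)) x h, Par p x h →
    ENNReal.ofReal (1 - η) * VV n ≤ vis p (ball x (M * h))

def ChainS : Prop := ∀ n : ℕ, 0 < n → ∃ η > 0, ∀ (Ω : Set (E n)) (ρ : E n → ℝ)
  (d : E n → E n → ℝ), Met Ω ρ d → ∀ x ∈ Ω, ∀ x' ∈ Ω, ∀ p p' D D', Near Ω d η x p D →
  Near Ω d η x' p' D' → hd p p' ≤ 2 → d x x' ≤ D + D'

def Mark2S : Prop := ∀ (n : ℕ) (q : ℝ), 1 < q → ∃ C > 0,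
  ∀ (Ω : Set (E n)) (ρ : E n → ℝ) (d : E n → E n → ℝ), Met Ω ρ d →
  (∀ x r, nu Ω ρ q (ball x r) ≠ ⊤) → ∀ x ∈ Ω, ∀ (k : ℤ) (M lam : ℝ), 0 < lam → 0 < M →
  Summable (fun i : ℕ => bF (nu Ω ρ q) (n - q) q x (k - i)) →
  ∑' i : ℕ, bF (nu Ω ρ q) (n - q) q x (k - i) ≤ M →
  volume {y | y ∈ ball x ((2 : ℝ) ^ k) ∧ ¬ (y ∈ Ω ∧ d x y ≤ lam * (C * M))} ≤
    volume (ball x ((2 : ℝ) ^ k)) / ENNReal.ofReal lam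

def FullS : Prop := ∀ (n : ℕ) (q A : ℝ) (Ω : Set (E n)) (ρ : E n → ℝ) (d : E n → E n → ℝ),
  1 < q → 0 < A → Met Ω ρ d → Ω.Nonempty →
  (∀ x r, 0 < r → nu Ω ρ q (ball x r) ≤ ENNReal.ofReal (A * r ^ ((n : ℝ) - q))) →
  volume Ωᶜ = 0

def TonS : Prop := ∀ (n : ℕ) (ν : Measure (E n)) [SFinite ν] (x : E n) (R r : ℝ),
  Measurable (fun y => ν (ball y r)) ∧
  ∫⁻ y in ball x R, ν (ball y r) ≤ volume (ball (0 : E n) r) * ν (ball x (R + r))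

def PtS : Prop := ∀ (n : ℕ) (q : ℝ), 1 < q → ∃ C > 0, ∀ (ν : Measure (E n)) [SFinite ν],
  (∀ x r, ν (ball x r) ≠ ⊤) → ∀ (x₀ : E n) (k : ℤ) (B : ℝ) (S : Set (E n)), 0 < B →
  bF ν (n - q) q x₀ (k + 2) ≤ B → volume S = 0 → ∃ x ∈ ball x₀ ((2 : ℝ) ^ k), x ∉ S ∧
    Summable (fun i : ℕ => bF ν (n - q) q x (k + 1 - i)) ∧
    ∑' i : ℕ, bF ν (n - q) q x (k + 1 - i) ≤ C * B

def FloS : Prop := ∀ (n : ℕ) (s q M : ℝ), 0 < s → 0 < q → 1 ≤ M → ∃ C > 0,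
  ∀ (ν : Measure (E n)) (p : E (n + 1)) (x : E n) (h : ℝ) (k : ℤ), Par p x h → GG ν s p ≠ ⊤ →
  h ≤ (2 : ℝ) ^ k → (2 : ℝ) ^ k ≤ M * h → bF ν s q x k ≤ C * (GG ν s p).toReal ^ (1 / q)

def TypS : Prop := ∀ (n : ℕ) (q A η : ℝ), 0 < n → 1 < q → 0 < (n : ℝ) - q → 0 < A → 0 < η →
  ∃ C > 0, ∀ (Ω : Set (E n)) (ρ : E n → ℝ) (d : E n → E n → ℝ), Met Ω ρ d → Ω.Nonempty →
  (∀ x r, 0 < r → nu Ω ρ q (ball x r) ≤ ENNReal.ofReal (A * r ^ ((n : ℝ) - q))) →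
  ∀ (p : E (n + 1)) (B : ℝ), 0 < B → GG (nu Ω ρ q) (n - q) p ≠ ⊤ →
  (GG (nu Ω ρ q) (n - q) p).toReal ^ (1 / q) ≤ B → ∃ x ∈ Ω, Near Ω d η x p (C * B)

def Iso0S : Prop := ∀ (n : ℕ) (Ω : Set (E n)) (w : E n → ℝ) (φ : E n → E n),
  Isom Ω (conf w) φ → ∀ x ∈ Ω, ∀ v,
    Real.exp (w (φ x)) * ‖fderiv ℝ φ x v‖ = Real.exp (w x) * ‖v‖

def InvdS : Prop := ∀ (n : ℕ) (Ω : Set (E n)) (ρ : E n → ℝ) (d : E n → E n → ℝ) (φ : E n → E n),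
  Met Ω ρ d → Iso Ω ρ φ → ∀ x ∈ Ω, ∀ y ∈ Ω, d (φ x) (φ y) ≤ d x y

def InvmS : Prop := ∀ (n : ℕ) (Ω : Set (E n)) (ρ : E n → ℝ) (φ : E n → E n), IsOpen Ω →
  ContinuousOn ρ Ω → (∀ x ∈ Ω, 0 < ρ x) → Iso Ω ρ φ → Measure.map φ (nu Ω ρ n) = nu Ω ρ n

def LaS : Prop := ∀ (n : ℕ) (S : W (n + 1)) (S₁ : Fin n → W (n + 1))
  (S₂ : Fin n → Fin n → W (n + 1)), 3 ≤ n → lz S S = 0 → (∀ i, lz S (S₁ i) = 0) →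
  (∀ i j, lz (S₁ i) (S₁ j) = if i = j then 1 else 0) →
  (∀ i j, lz S (S₂ i j) = if i = j then -1 else 0) → (∀ i j k, lz (S₂ i j) (S₁ k) = 0) →
  (∀ i j k l, lz (S₂ i j) (S₂ k l) = lz (S₂ i l) (S₂ k j)) →
  ∃ θ, ∀ i j, S₂ i j = if i = j then θ else 0

def pv {X : Type} [NormedAddCommGroup X] [NormedSpace ℝ X] (i : Fin n) (f : E n → X)
    (x : E n) : X := fderiv ℝ f x (EuclideanSpace.single i 1)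

def SymmS : Prop := ∀ (n : ℕ) (X : Type) [NormedAddCommGroup X] [NormedSpace ℝ X]
  [CompleteSpace X] (Ω : Set (E n)) (f : E n → X), IsOpen Ω → ContDiffOn ℝ ∞ f Ω →
  (∀ i, ContDiffOn ℝ ∞ (pv i f) Ω) ∧ ∀ i j, ∀ x ∈ Ω, pv i (pv j f) x = pv j (pv i f) x

def LbS : Prop := ∀ (n : ℕ) (Ω : Set (E n)) (S : E n → W (n + 1)), IsOpen Ω →
  ContDiffOn ℝ ∞ S Ω → (∀ x ∈ Ω, lz (S x) (S x) = 0) →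
  (∀ x ∈ Ω, ∀ i j, lz (pv i S x) (pv j S x) = if i = j then 1 else 0) → ∀ x ∈ Ω,
  (∀ i, lz (S x) (pv i S x) = 0) ∧
  (∀ i j, lz (S x) (pv j (pv i S) x) = if i = j then -1 else 0) ∧
  (∀ i j k, lz (pv j (pv i S) x) (pv k S x) = 0) ∧
  ∀ i j k l, lz (pv j (pv i S) x) (pv l (pv k S) x) = lz (pv l (pv i S) x) (pv j (pv k S) x)

def LcS : Prop := ∀ (n : ℕ) (Ω : Set (E n)) (S θ : E n → W (n + 1)), 2 ≤ n → IsOpen Ω →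
  IsPreconnected Ω → ContDiffOn ℝ ∞ S Ω →
  (∀ x ∈ Ω, ∀ i j, pv j (pv i S) x = if i = j then θ x else 0) →
  ∃ (e f : W (n + 1)) (B : E n →L[ℝ] W (n + 1)), (∀ x ∈ Ω, θ x = e) ∧
    ∀ x ∈ Ω, S x = (‖x‖ ^ 2 / 2) • e + B x + f

def LdS : Prop := ∀ (n : ℕ) (Ω : Set (E n)) (S : E n → W (n + 1)), 3 ≤ n → IsOpen Ω →
  IsConnected Ω → ContDiffOn ℝ ∞ S Ω → (∀ x ∈ Ω, Nul (S x)) →
  (∀ x ∈ Ω, ∀ i j, lz (pv i S x) (pv j S x) = if i = j then 1 else 0) →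
  ∃ A : W (n + 1) →L[ℝ] W (n + 1), IsLor A ∧ ∀ x ∈ Ω, S x = A (LL x)

def LiouS : Prop := ∀ (n : ℕ) (Ω : Set (E n)) (ρ : E n → ℝ) (φ : E n → E n), 3 ≤ n → IsOpen Ω →
  IsConnected Ω → ContDiffOn ℝ ∞ ρ Ω → (∀ x ∈ Ω, 0 < ρ x) → Iso Ω ρ φ →
  ∃ A : W (n + 1) →L[ℝ] W (n + 1), IsLor A ∧ ∀ x ∈ Ω, sg ρ (φ x) = A (sg ρ x)

def EqvS : Prop := ∀ (n : ℕ) (Ω : Set (E n)) (ρ : E n → ℝ) (d : E n → E n → ℝ) (φ : E n → E n)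
  (A : W (n + 1) →L[ℝ] W (n + 1)), 0 < n → Met Ω ρ d → Sym Ω ρ d φ A →
  Measure.map A (mu Ω ρ) = mu Ω ρ ∧
  (∀ x ∈ Ω, ∀ r, 0 < r → bar Ω ρ d r (φ x) = A (bar Ω ρ d r x)) ∧
  ∀ x ∈ Ω, ∀ p D, vis (act A p) (KB Ω d (φ x) D) = vis p (KB Ω d x D)

def St0S : Prop := ∀ (n : ℕ) (Ω : Set (E n)) (ρ : E n → ℝ) (d : E n → E n → ℝ), 0 < n →
  Met Ω ρ d → ∀ x ∈ Ω, ∀ r, 0 < r →
  Integrable (fun y => max 0 (r - d x y) • sg ρ y) (nu Ω ρ n) ∧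
  Integrable (fun y => max 0 (r - d x y) * ρ y) (nu Ω ρ n) ∧
  (∀ z, Integrable (fun y => max 0 (r - d x y) * ρ y * (‖y - z‖ ^ 2 / 2)) (nu Ω ρ n)) ∧
  (∀ z, -lz (bar Ω ρ d r x) (LL z) =
    ∫ y, max 0 (r - d x y) * ρ y * (‖y - z‖ ^ 2 / 2) ∂(nu Ω ρ n)) ∧
  lz (bar Ω ρ d r x) (bar Ω ρ d r x) < 0 ∧ 0 < (bar Ω ρ d r x).1

def St3S : Prop := ∀ (n : ℕ) (Ω : Set (E n)) (ρ : E n → ℝ) (d : E n → E n → ℝ), 0 < n →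
  Met Ω ρ d → ∀ x ∈ Ω, ∀ r, 0 < r → ∀ R, KB Ω d x r ⊆ closedBall x R →
  ∀ x₀ h, Par (nb (bar Ω ρ d r x)) x₀ h → ‖x₀ - x‖ ≤ R ∧ h ≤ R

def St1S : Prop := ∀ (n : ℕ) (Ω : Set (E n)) (ρ : E n → ℝ) (d : E n → E n → ℝ) (r : E n → ℝ),
  0 < n → Met Ω ρ d → ContinuousOn r Ω → (∀ x ∈ Ω, 0 < r x ∧ r x ≤ 1) →
  ContinuousOn (fun x => nb (bar Ω ρ d (r x) x)) Ω

def St2S : Prop := ∀ (n : ℕ) (Ω : Set (E n)) (ρ : E n → ℝ) (d : E n → E n → ℝ) (η : ℝ), 0 < n →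
  0 < η → Met Ω ρ d → ∀ x₁ ∈ Ω, ∃ δ > 0, ∀ x ∈ Ω, d x₁ x < δ → ∀ r, 0 < r → r ≤ δ →
  Near Ω d η x (nb (bar Ω ρ d r x)) 1

def St4S : Prop := ∀ (n : ℕ) (Ω : Set (E n)) (ρ : E n → ℝ) (d : E n → E n → ℝ)
  (Q : E n → ℝ → Prop), Met Ω ρ d →
  (∀ x₁ ∈ Ω, ∃ δ > 0, ∀ x ∈ Ω, d x₁ x < δ → ∀ r, 0 < r → r ≤ δ → Q x r) →
  ∃ r : E n → ℝ, ContinuousOn r Ω ∧ (∀ x ∈ Ω, 0 < r x ∧ r x ≤ 1 ∧ Q x (r x)) ∧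
    ∀ φ : E n → E n, BijOn φ Ω Ω → (∀ x ∈ Ω, ∀ y ∈ Ω, d (φ x) (φ y) = d x y) →
      (∀ x ∈ Ω, ∀ r, 0 < r → (Q (φ x) r ↔ Q x r)) → ∀ x ∈ Ω, r (φ x) = r x

def StartS : Prop := ∀ (n : ℕ) (Ω : Set (E n)) (ρ : E n → ℝ) (d : E n → E n → ℝ) (η : ℝ),
  0 < n → 0 < η → Met Ω ρ d → ∃ ι : E n → E (n + 1), ContinuousOn ι Ω ∧
    (∀ x ∈ Ω, Near Ω d η x (ι x) 1) ∧
    ∀ φ A, Sym Ω ρ d φ A → ∀ x ∈ Ω, ι (φ x) = act A (ι x)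

def StopS : Prop := ∀ (N : ℕ) (b : ℝ → E N → ℝ) (T : ℝ), 0 < T →
  ContinuousOn (fun z : ℝ × E N => b z.1 z.2) (Ici 0 ×ˢ univ) → (∀ t y, 0 < b t y) →
  (∀ y, Monotone (fun t => b t y)) → ∃ τ : E N → ℝ, Continuous τ ∧
    (∀ y, 0 ≤ τ y ∧ ∫ t in (0 : ℝ)..τ y, b t y = T) ∧
    ∀ y u, 0 ≤ u → ∫ t in (0 : ℝ)..u, b t y = T → u = τ y

def EndS : Prop := ∀ (N : ℕ) (μ : Measure (W N)) (s q A T : ℝ) (Φ : ℝ → E N → E N), Dat μ s A →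
  Flw μ s Φ → 0 < q → 0 < T → ∃ Ψ : E N → E N, Continuous Ψ ∧
    (∀ y, ∃ τ, 0 ≤ τ ∧ ∫ t in (0 : ℝ)..τ, aa μ s q (Φ t y) = T ∧ Ψ y = Φ τ y) ∧
    ∀ R, IsLor R → Measure.map R μ = μ → (∀ y, Ψ (act R y) = act R (Ψ y)) ∧
      ∀ z ∈ Zs μ s q Φ T, act R z ∈ Zs μ s q Φ T

def TrajS : Prop := ∀ (X P : Type) (Ω : Set X) (d : X → X → ℝ) (D : P → P → ℝ)
  (Nr : X → P → ℝ → Prop) (y : ℝ → P) (a : ℝ → ℝ) (C : ℝ), 0 ≤ C → Monotone a →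
  (∀ x ∈ Ω, ∀ y ∈ Ω, ∀ z ∈ Ω, d x z ≤ d x y + d y z) →
  (∀ x ∈ Ω, ∀ x' ∈ Ω, ∀ p p' u u', Nr x p u → Nr x' p' u' → D p p' ≤ 2 → d x x' ≤ u + u') →
  (∀ t, ∃ x ∈ Ω, Nr x (y t) (C * a t)) → (∀ t t', t ≤ t' → D (y t) (y t') ≤ t' - t) →
  (∀ t, 0 ≤ a t) → ∀ x ∈ Ω, Nr x (y 0) 1 → ∀ τ, 0 ≤ τ →
  ∃ x' ∈ Ω, Nr x' (y τ) (C * a τ) ∧ d x x' ≤ 1 + C * a τ + 2 * C * ∫ t in (0 : ℝ)..τ, a t

def SymGS : Prop := ∀ (n : ℕ) (Ω : Set (E n)) (w : E n → ℝ) (d : E n → E n → ℝ) (G : Type)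
  [Group G] [MulAction G Ω], 3 ≤ n → IsConnected Ω → ContDiffOn ℝ ∞ w Ω →
  Met Ω (fun y => Real.exp (w y)) d →
  (∀ γ : G, ∃ φ, Isom Ω (conf w) φ ∧ ∀ x : Ω, φ x = (γ • x : Ω)) →
  ∃ (φ : G → E n → E n) (A : G → W (n + 1) →L[ℝ] W (n + 1)),
    (∀ γ, Sym Ω (fun y => Real.exp (w y)) d (φ γ) (A γ)) ∧
    (∀ γ (x : Ω), φ γ x = (γ • x : Ω)) ∧ (∀ y, act (A 1) y = y) ∧
    ∀ g h y, act (A (g * h)) y = act (A g) (act (A h) y)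

end
end Vale.Agent.P210
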